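import Mathlib

namespace Vale.Agent.P087

variable {V : Type} [DecidableEq V]

/-- sum over the occurrences of a letter -/
def Oc (c : V) : List V → (List V → List V → ℤ) → ℤ
  | [], _ => 0
  | a :: w, F => (if a = c then F [] w else 0) + Oc c w fun u v => F (a :: u) v

lemma Oc_congr {c : V} {w : List V} {F F' : List V → List V → ℤ}
    (h : ∀ u v, w = u ++ c :: v → F u v = F' u v) : Oc c w F = Oc c w F' := by
  induction w generalizing F F' with
  | nil => rfl
  | cons a w ih =>
    simp only [Oc]
    rw [ih (F' := fun u v => F' (a :: u) v) fun u v e => h _ _ (by simp [e])]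
    congr 1
    split_ifs with e
    · exact h _ _ (by simp [e])
    · rfl

lemma Oc_zero (c : V) (w : List V) : Oc c w (fun _ _ => 0) = 0 := by
  induction w <;> simp_all [Oc]

lemma Oc_add (c : V) (w : List V) (F G : List V → List V → ℤ) :
    Oc c w (fun u v => F u v + G u v) = Oc c w F + Oc c w G := by
  induction w generalizing F G with
  | nil => rfl
  | cons a w ih => simp only [Oc, ih]; split_ifs <;> ring

lemma Oc_mul (c : V) (w : List V) (x : ℤ) (F : List V → List V → ℤ) :
    Oc c w (fun u v => x * F u v) = x * Oc c w F := by
  induction w generalizing F with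
  | nil => simp [Oc]
  | cons a w ih => simp only [Oc, ih]; split_ifs <;> ring

lemma Oc_sub (c : V) (w : List V) (F G : List V → List V → ℤ) :
    Oc c w (fun u v => F u v - G u v) = Oc c w F - Oc c w G := by
  induction w generalizing F G with
  | nil => rfl
  | cons a w ih => simp only [Oc, ih]; split_ifs <;> ring

lemma Oc_append (c : V) (w w' : List V) (F : List V → List V → ℤ) :
    Oc c (w ++ w') F = Oc c w (fun u v => F u (v ++ w')) + Oc c w' fun u v => F (w ++ u) v := by
  induction w generalizing F with
  | nil => simp [Oc]
  | cons a w ih => simp only [List.cons_append, Oc, ih, add_assoc]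

lemma Oc_assoc (c d : V) (w : List V) (G : List V → List V → List V → ℤ) :
    Oc d w (fun u v => Oc c v fun b e => G u b e) =
      Oc c w fun u e => Oc d u fun a b => G a b e := by
  induction w generalizing G with
  | nil => rfl
  | cons x w ih =>
    simp only [Oc, ih, Oc_add, ite_self, zero_add]
    split_ifs <;> simp [Oc_zero]

lemma Oc_map {V' : Type} [DecidableEq V'] {f : V → V'} (hf : Function.Injective f) (c : V)
    (w : List V) (F : List V' → List V' → ℤ) :
    Oc (f c) (w.map f) F = Oc c w fun u v => F (u.map f) (v.map f) := by
  induction w generalizing F with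
  | nil => rfl
  | cons a w ih => simp only [List.map_cons, Oc, ih, hf.eq_iff, List.map_nil]

lemma Oc_bound {c : V} {w : List V} {F : List V → List V → ℤ} {f : ℕ → ℕ → ℤ}
    (hf : ∀ a b, 0 ≤ f a b) (h : ∀ u v, w = u ++ c :: v → |F u v| ≤ f u.length v.length) :
    |Oc c w F| ≤ ∑ l ∈ Finset.range w.length, f l (w.length - 1 - l) := by
  induction w generalizing F f with
  | nil => simp [Oc]
  | cons a w ih =>
    rw [Oc, List.length_cons, Finset.sum_range_succ', add_comm (∑ _ ∈ _, _)]
    refine (abs_add_le _ _).trans (add_le_add ?_ ?_)
    · split_ifs with e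
      · simpa using h [] w (by simp [e])
      · simpa using hf _ _
    · have := ih (f := fun a b => f (a + 1) b) (F := fun u v => F (a :: u) v) (fun _ _ => hf _ _)
        fun u v e => h (a :: u) v (by simp [e])
      refine this.trans (le_of_eq (Finset.sum_congr rfl fun l _ => ?_))
      congr 1
      omega

/-- fuelled recursion -/
def nA : ℕ → List V → ℤ
  | 0, _ => 1
  | _ + 1, [] => 1
  | k + 1, c :: w => nA k w - Oc c w fun u v => nA k (u ++ [c]) * nA k (c :: v)

/-- moments of free elements with mean one and square zero -/
def nn (w : List V) : ℤ := nA w.length w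

lemma nA_eq (k k' : ℕ) (w : List V) (h : w.length ≤ k) (h' : w.length ≤ k') :
    nA k w = nA k' w := by
  induction k generalizing k' w with
  | zero =>
    obtain rfl : w = [] := by simpa using h
    cases k' <;> rfl
  | succ k ih =>
    cases w with
    | nil => cases k' <;> rfl
    | cons c w =>
      cases k' with
      | zero => simp at h'
      | succ k' =>
        simp only [List.length_cons, add_le_add_iff_right] at h h'
        simp only [nA]
        rw [ih k' w h h']
        congr 1
        refine Oc_congr fun u v e => ?_
        have := congrArg List.length e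
        simp only [List.length_append, List.length_cons] at this
        rw [ih k' (u ++ [c]), ih k' (c :: v)] <;> simp <;> omega

@[simp] lemma nn_nil : nn ([] : List V) = 1 := rfl

lemma nn_cons (c : V) (w : List V) :
    nn (c :: w) = nn w - Oc c w fun u v => nn (u ++ [c]) * nn (c :: v) := by
  simp only [nn, List.length_cons, nA]
  congr 1
  refine Oc_congr fun u v e => ?_
  have := congrArg List.length e
  simp only [List.length_append, List.length_cons] at this
  rw [nA_eq w.length (u ++ [c]).length (u ++ [c]), nA_eq w.length (v.length + 1) (c :: v)] <;>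
    simp [nA] <;> omega

@[simp] lemma nn_single (c : V) : nn [c] = 1 := by simp [nn_cons, Oc]

lemma nn_map {V' : Type} [DecidableEq V'] {f : V → V'} (hf : Function.Injective f) (w : List V) :
    nn (w.map f) = nn w := by
  induction hn : w.length using Nat.strong_induction_on generalizing w with
  | _ n ih =>
    cases w with
    | nil => rfl
    | cons c w =>
      subst hn
      rw [List.map_cons, nn_cons, nn_cons, Oc_map hf, ih _ (by simp) w rfl]
      congr 1
      refine Oc_congr fun u v e => ?_
      have := congrArg List.length e
      simp only [List.length_append, List.length_cons] at this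
      rw [← ih _ (by simp; omega) (u ++ [c]) rfl, ← ih _ (by simp; omega) (c :: v) rfl]
      simp

lemma nn_ends (c : V) (w : List V) : nn (c :: (w ++ [c])) = 0 := by
  induction hn : w.length using Nat.strong_induction_on generalizing w with
  | _ n ih =>
    subst hn
    rw [nn_cons, Oc_append, Oc_congr (F' := fun _ _ => 0), Oc_zero]
    · simp [Oc]
    · intro u v e
      have := congrArg List.length e
      simp only [List.length_append, List.length_cons] at this
      rw [ih _ (by omega) v rfl, mul_zero]

lemma nn_cyc (c : V) (w : List V) : nn (w ++ [c]) = nn (c :: w) := by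
  induction hn : w.length using Nat.strong_induction_on generalizing w c with
  | _ n ih =>
    cases w with
    | nil => rfl
    | cons d w =>
      subst hn
      by_cases hcd : d = c
      · subst hcd
        rw [List.cons_append, nn_ends, nn_cons d (d :: w), Oc, Oc_congr (F' := fun _ _ => 0),
          Oc_zero]
        · simp
        · intro u v _
          rw [List.cons_append, nn_ends, zero_mul]
      have e1 : Oc d w (fun u v => nn (u ++ [d]) * nn (d :: (v ++ [c]))) =
          Oc d w (fun u v => nn (u ++ [d]) * nn (d :: v)) - Oc d w fun u v => Oc c v
            fun b e => nn (u ++ [d]) * (nn (d :: (b ++ [c])) * nn (c :: e)) := by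
        rw [← Oc_sub]
        refine Oc_congr fun u v e => ?_
        have := congrArg List.length e
        simp only [List.length_append, List.length_cons] at this
        rw [← List.cons_append, ih _ (by simp; omega) c (d :: v) rfl, nn_cons c (d :: v), Oc,
          if_neg hcd, Oc_mul]
        simp only [List.cons_append]
        ring
      have e2 : Oc c w (fun u v => nn (d :: (u ++ [c])) * nn (c :: v)) =
          Oc c w (fun u v => nn (u ++ [c]) * nn (c :: v)) - Oc c w fun u e => Oc d u
            fun a b => nn (a ++ [d]) * (nn (d :: (b ++ [c])) * nn (c :: e)) := by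
        rw [← Oc_sub]
        refine Oc_congr fun u v _ => ?_
        rw [nn_cons d (u ++ [c]), Oc_append]
        simp only [Oc, if_neg (Ne.symm hcd), add_zero]
        rw [sub_mul, mul_comm (Oc _ _ _), ← Oc_mul]
        congr 1
        exact Oc_congr fun a b _ => by ring
      rw [List.cons_append, nn_cons d (w ++ [c]), Oc_append, nn_cons c (d :: w),
        ih _ (by simp) c w rfl, nn_cons c w, nn_cons d w]
      simp only [Oc, if_neg (Ne.symm hcd), if_neg hcd, add_zero, List.cons_append, zero_add]
      rw [e1, e2, Oc_assoc]
      ring

lemma nn_rot (u v : List V) : nn (u ++ v) = nn (v ++ u) := by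
  induction u generalizing v with
  | nil => simp
  | cons a u ih => rw [List.cons_append, ← nn_cyc, List.append_assoc, ih]; simp

lemma catalan_le (n : ℕ) : catalan n ≤ 4 ^ n := by
  have h1 := succ_mul_catalan_eq_centralBinom n
  have h2 : n.centralBinom ≤ 4 ^ n := by
    rw [Nat.centralBinom_eq_two_mul_choose, show 4 ^ n = 2 ^ (2 * n) by rw [pow_mul]; norm_num]
    exact Nat.choose_le_two_pow _ _
  nlinarith

lemma catalan_mono (n : ℕ) : catalan n ≤ catalan (n + 1) := by
  rw [catalan_succ]
  have := Finset.single_le_sum (f := fun i : Fin n.succ => catalan i * catalan (n - i))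
    (fun _ _ => Nat.zero_le _) (Finset.mem_univ (0 : Fin n.succ))
  simpa using this

lemma nn_cat (j : ℕ) (w : List V) (h : w.length = j + 1) : |nn w| ≤ 2 ^ j * catalan j := by
  induction j using Nat.strong_induction_on generalizing w with
  | _ j ih =>
    cases w with
    | nil => simp at h
    | cons c w =>
      cases j with
      | zero =>
        obtain rfl : w = [] := by simpa using h
        simp
      | succ i =>
        simp only [List.length_cons, add_left_inj] at h
        have h1 := ih i (by omega) w h
        have h2 := Oc_bound (c := c) (w := w) (F := fun u v => nn (u ++ [c]) * nn (c :: v))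
          (f := fun a b => (2 ^ a * catalan a) * (2 ^ b * catalan b)) (fun _ _ => by positivity)
          (fun u v e => by
            have := congrArg List.length e
            simp only [List.length_append, List.length_cons] at this
            rw [abs_mul]
            exact mul_le_mul (ih _ (by omega) _ (by simp)) (ih _ (by omega) _ (by simp))
              (abs_nonneg _) (by positivity))
        have h3 : ∑ l ∈ Finset.range w.length, ((2 : ℤ) ^ l * catalan l) *
            (2 ^ (w.length - 1 - l) * catalan (w.length - 1 - l)) = 2 ^ i * catalan (i + 1) := by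
          rw [catalan_succ, h, Finset.sum_range, Nat.cast_sum, Finset.mul_sum]
          refine Finset.sum_congr rfl fun l _ => ?_
          have : (2 : ℤ) ^ i = 2 ^ (l : ℕ) * 2 ^ (i - l) := by
            rw [← pow_add]; congr 1; have := l.2; omega
          rw [this, Nat.add_sub_cancel]; push_cast; ring
        have h4 : (catalan i : ℤ) ≤ catalan (i + 1) := by exact_mod_cast catalan_mono i
        rw [nn_cons, pow_succ]
        refine (abs_sub _ _).trans ?_
        have : (0 : ℤ) < 2 ^ i := by positivity
        nlinarith

lemma nn_le (w : List V) : |nn w| ≤ 8 ^ w.length := by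
  cases w with
  | nil => simp
  | cons c w =>
    refine (nn_cat w.length _ (by simp)).trans ?_
    have h4 : (catalan w.length : ℤ) ≤ 4 ^ w.length := by exact_mod_cast catalan_le _
    calc (2 : ℤ) ^ w.length * catalan w.length ≤ 2 ^ w.length * 4 ^ w.length := by gcongr
      _ = 8 ^ w.length := by rw [← mul_pow]; norm_num
      _ ≤ _ := by rw [List.length_cons]; gcongr <;> simp

section sep

variable (c : V) (col : V → Bool)

/-- state update -/
def st : Bool × Bool → List V → Bool × Bool
  | s, [] => s
  | s, x :: w => st (if x = c then (s.1, true) else (col x, false)) w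

/-- score -/
def sc : Bool × Bool → List V → ℤ
  | _, [] => 0
  | s, x :: w => (if x = c then 0 else if s.1 = col x then 0 else if s.2 then 1 else -1) +
      sc (if x = c then (s.1, true) else (col x, false)) w

lemma sc_append (s : Bool × Bool) (u v : List V) :
    sc c col s (u ++ v) = sc c col s u + sc c col (st c col s u) v := by
  induction u generalizing s with
  | nil => simp [sc, st]
  | cons x u ih => simp only [List.cons_append, sc, st, ih, add_assoc]

lemma st_append (s : Bool × Bool) (u v : List V) :
    st c col s (u ++ v) = st c col (st c col s u) v := by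
  induction u generalizing s with
  | nil => simp [st]
  | cons x u ih => simp only [List.cons_append, st, ih]

lemma split_first (w : List V) :
    (∃ k, w = List.replicate k c) ∨ ∃ k d v, d ≠ c ∧ w = List.replicate k c ++ d :: v := by
  induction w with
  | nil => exact Or.inl ⟨0, rfl⟩
  | cons x w ih =>
    by_cases h : x = c
    · subst h
      rcases ih with ⟨k, rfl⟩ | ⟨k, d, v, hd, rfl⟩
      · exact Or.inl ⟨k + 1, rfl⟩
      · exact Or.inr ⟨k + 1, d, v, hd, rfl⟩
    · exact Or.inr ⟨0, x, w, h, rfl⟩

lemma sc_rep (s : Bool × Bool) (k : ℕ) : sc c col s (List.replicate k c) = 0 := by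
  induction k generalizing s with
  | zero => rfl
  | succ k ih => simp [List.replicate_succ, sc, ih]

lemma st_rep (s : Bool × Bool) (k : ℕ) :
    st c col s (List.replicate k c) = (s.1, s.2 || decide (k ≠ 0)) := by
  induction k generalizing s with
  | zero => simp [st]
  | succ k ih => simp [List.replicate_succ, st, ih]

lemma st_flag (a : Bool) (v : List V) (h : (st c col (a, false) v).2 = true) :
    ∃ v', v = v' ++ [c] := by
  rcases List.eq_nil_or_concat' v with rfl | ⟨v', x, rfl⟩
  · simp [st] at h
  · rw [st_append] at h
    by_cases e : x = c
    · exact ⟨v', by rw [e]⟩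
    · simp [st, e] at h

lemma sepA (d : V) (hd : d ≠ c) (w : List V) (h : 0 < sc c col (col d, false) (w ++ [d])) :
    nn (d :: w) = 0 := by
  induction hn : w.length using Nat.strong_induction_on generalizing w d with
  | _ n ih =>
    subst hn
    have h1 : nn w = 0 := by
      rcases split_first c w with ⟨k, rfl⟩ | ⟨k, d', v, hd', rfl⟩
      · simp [sc_append, sc_rep, st_rep, sc, hd] at h
      by_cases hf : k ≠ 0 ∧ (st c col (col d', false) v).2 = true
      · obtain ⟨v', rfl⟩ := st_flag c col _ _ hf.2
        obtain ⟨k, rfl⟩ := Nat.exists_eq_succ_of_ne_zero hf.1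
        have := nn_ends c (List.replicate k c ++ d' :: v')
        simpa [List.replicate_succ] using this
      rw [nn_rot, List.cons_append]
      refine ih _ (by simp; omega) d' hd' _ ?_ rfl
      rw [List.append_assoc, List.cons_append, sc_append, sc_rep, st_rep, sc, if_neg hd',
        if_neg hd', sc_append] at h
      rw [List.append_assoc, sc_append, sc_append, sc_rep, st_rep]
      generalize st c col (col d', false) v = s at *
      generalize sc c col (col d', false) v = y at *
      obtain ⟨a, f⟩ := s
      simp only [sc, if_neg hd, if_neg hd', Bool.false_or] at h ⊢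
      clear ih
      generalize col d = x at h ⊢
      generalize col d' = x' at h ⊢
      by_cases hk : k = 0 <;> cases a <;> cases f <;> cases x <;> cases x' <;>
        simp_all <;> omega
    rw [nn_cons, h1, Oc_congr (F' := fun _ _ => 0), Oc_zero, sub_zero]
    rintro u v rfl
    have e : u ++ d :: v ++ [d] = (u ++ [d]) ++ (v ++ [d]) := by simp
    rw [e, sc_append, st_append] at h
    simp only [st, if_neg hd] at h
    by_cases h2 : 0 < sc c col (col d, false) (u ++ [d])
    · rw [nn_cyc, ih _ (by simp) d hd u h2 rfl, zero_mul]
    · rw [ih _ (by simp; omega) d hd v (by omega) rfl, mul_zero]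

lemma sep (s : Bool × Bool) (w : List V) (hs : st c col s w = s) (h : 0 < sc c col s w) :
    nn w = 0 := by
  rcases split_first c w with ⟨k, rfl⟩ | ⟨k, d, v, hd, rfl⟩
  · simp [sc_rep] at h
  rw [nn_rot, List.cons_append]
  refine sepA c col d hd _ ?_
  rw [st_append, st, if_neg hd] at hs
  have e : List.replicate k c ++ d :: v = (List.replicate k c ++ [d]) ++ v := by simp
  rw [e, sc_append, st_append] at h
  simp only [st, if_neg hd] at h
  rw [List.append_assoc, sc_append, hs]
  omega

end sep

end Vale.Agent.P087
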