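import Vale.Agent.P087.Defs
import Vale.Agent.P086.Tr

open scoped InnerProductSpace ComplexConjugate

namespace Vale.Agent.P087

open Vale.Agent.P086

noncomputable section

variable {K : Type} [NormedAddCommGroup K] [InnerProductSpace ℂ K]

/-- rank one operator -/
def ro (a b : K) : K →L[ℂ] K := (innerSL ℂ b).smulRight a

@[simp] lemma ro_apply (a b x : K) : ro a b x = ⟪b, x⟫_ℂ • a := by simp [ro]

lemma mul_ro (T : K →L[ℂ] K) (a b : K) : T * ro a b = ro (T a) b := by
  ext x; simp [mul_apply_eq_comp]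

lemma ro_mul [CompleteSpace K] (T : K →L[ℂ] K) (a b : K) : ro a b * T = ro a (star T b) := by
  ext x; simp [mul_apply_eq_comp, inner_star_left]

/-- invariance under a triangular operator -/
def Adm (N : Submodule ℂ (K × K)) (T D : K →L[ℂ] K) : Prop :=
  ∀ p ∈ N, (T p.1, T p.2 + D p.1) ∈ N

namespace Adm

variable {N : Submodule ℂ (K × K)} {T D T' D' : K →L[ℂ] K}

lemma add (h : Adm N T D) (h' : Adm N T' D') : Adm N (T + T') (D + D') := fun p hp => by
  convert add_mem (h p hp) (h' p hp) using 1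
  simp only [add_apply, Prod.mk_add_mk, Prod.mk.injEq, true_and]
  abel

lemma smul (c : ℂ) (h : Adm N T D) : Adm N (c • T) (c • D) := fun p hp => by
  convert N.smul_mem c (h p hp) using 1
  simp

lemma mul (h : Adm N T D) (h' : Adm N T' D') : Adm N (T * T') (T * D' + D * T') := fun p hp => by
  convert h _ (h' p hp) using 1
  simp [mul_apply_eq_comp, add_assoc]

lemma one : Adm N 1 0 := fun p hp => by simpa using hp

lemma of_span {s : Set (K × K)} (h : ∀ p ∈ s, (T p.1, T p.2 + D p.1) ∈ Submodule.span ℂ s) :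
    Adm (Submodule.span ℂ s) T D := by
  intro p hp
  induction hp using Submodule.span_induction with
  | mem p hp => exact h p hp
  | zero => simp only [Prod.fst_zero, Prod.snd_zero, map_zero, add_zero]; exact zero_mem _
  | add p q _ _ h1 h2 =>
    convert add_mem h1 h2 using 1
    simp only [Prod.fst_add, map_add, Prod.snd_add, Prod.mk_add_mk, Prod.mk.injEq, true_and]
    abel
  | smul c p _ h1 =>
    convert Submodule.smul_mem _ c h1 using 1
    simp

end Adm

/-- `ξ` implements the derivation given by `D` -/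
def Good {Λ : Type} (Ω : K) (T D : Λ → K →L[ℂ] K) (ξ : K) : Prop :=
  ∃ N : Submodule ℂ (K × K), (Ω, 0) ∈ N ∧ (∀ p ∈ N, ⟪Ω, p.2⟫_ℂ = ⟪ξ, p.1⟫_ℂ) ∧
    ∀ a, Adm N (T a) (D a)

variable {Λ : Type} {Ω : K} {T D D' : Λ → K →L[ℂ] K} {ξ ξ' : K}

lemma Good.comb (h : Good Ω T D ξ) (h' : Good Ω T D' ξ') (c : ℂ) :
    Good Ω T (fun a => D a + c • D' a) (ξ + conj c • ξ') := by
  obtain ⟨N, h1, h2, h3⟩ := h
  obtain ⟨N', h1', h2', h3'⟩ := h'
  let M : Submodule ℂ (K × K) :=
    { carrier := {p | ∃ x y, (p.1, x) ∈ N ∧ (p.1, y) ∈ N' ∧ p.2 = x + c • y}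
      add_mem' := by
        rintro p q ⟨x, y, a1, a2, a3⟩ ⟨x', y', b1, b2, b3⟩
        refine ⟨x + x', y + y', add_mem a1 b1, add_mem a2 b2, ?_⟩
        rw [Prod.snd_add, a3, b3, smul_add]
        abel
      zero_mem' := ⟨0, 0, zero_mem _, zero_mem _, by simp⟩
      smul_mem' := by
        rintro e p ⟨x, y, a1, a2, a3⟩
        refine ⟨e • x, e • y, N.smul_mem e a1, N'.smul_mem e a2, ?_⟩
        rw [Prod.smul_snd, a3, smul_add, smul_comm] }
  refine ⟨M, ⟨0, 0, h1, h1', by simp⟩, ?_, ?_⟩
  · rintro p ⟨x, y, a1, a2, a3⟩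
    rw [a3, inner_add_right, inner_smul_right, h2 _ a1, h2' _ a2, inner_add_left, inner_smul_left]
    simp
  · rintro a p ⟨x, y, a1, a2, a3⟩
    refine ⟨T a x + D a p.1, T a y + D' a p.1, h3 a (p.1, x) a1, h3' a (p.1, y) a2, ?_⟩
    simp only [a3, map_add, map_smul, add_apply, smul_apply, smul_add]
    abel

lemma Good.of_Z [CompleteSpace K] (Z : K →L[ℂ] K) (h0 : Z Ω = 0)
    (h : ∀ a, Z * T a = T a * Z + D a) : Good Ω T D (star Z Ω) := by
  refine ⟨LinearMap.range (LinearMap.id.prod (Z : K →ₗ[ℂ] K)), ⟨Ω, by simp [h0]⟩, ?_, ?_⟩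
  · rintro _ ⟨x, rfl⟩
    simp [inner_star_left]
  · rintro a _ ⟨x, rfl⟩
    exact ⟨T a x, by simpa [mul_apply_eq_comp] using congrArg (fun F : K →L[ℂ] K => F x) (h a)⟩

lemma Good.zero [CompleteSpace K] : Good Ω T (fun _ => 0) 0 := by
  simpa using Good.of_Z (Ω := Ω) (T := T) (D := fun _ => 0) 0 rfl (by simp)

lemma Good.sum [CompleteSpace K] {I : Type} (s : Finset I) {D : I → Λ → K →L[ℂ] K} {ξ : I → K}
    (c : I → ℂ) (h : ∀ i, Good Ω T (D i) (ξ i)) :
    Good Ω T (fun a => ∑ i ∈ s, c i • D i a) (∑ i ∈ s, conj (c i) • ξ i) := by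
  classical
  induction s using Finset.induction_on with
  | empty => simpa using Good.zero
  | insert i s hi ih =>
    simp only [Finset.sum_insert hi]
    simpa only [add_comm] using ih.comb (h i) (c i)

@[simp] lemma mono_nil {ι : Type} (X : ι → K →L[ℂ] K) : mono X [] = 1 := rfl

@[simp] lemma mono_cons {ι : Type} (X : ι → K →L[ℂ] K) (i : ι) (w : List ι) :
    mono X (i :: w) = X i * mono X w := by simp [mono]

lemma mono_append {ι : Type} (X : ι → K →L[ℂ] K) (v w : List ι) :
    mono X (v ++ w) = mono X v * mono X w := by simp [mono]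

variable [CompleteSpace K] {ι : Type}

lemma star_mono {X : ι → K →L[ℂ] K} (hX : ∀ i, star (X i) = X i) (w : List ι) :
    star (mono X w) = mono X w.reverse := by
  induction w with
  | nil => simp
  | cons i w ih => simp [mono_append, ih, hX]

lemma tau_star (Ω : K) (T : K →L[ℂ] K) : tau Ω (star T) = conj (tau Ω T) := by
  rw [tau, tau, inner_star_right, inner_conj_symm]

lemma exists_conj [DecidableEq ι] {X : ι → K →L[ℂ] K} (hX : ∀ i, star (X i) = X i) (j : ι)
    (h : Good Ω X (fun i => if i = j then ro Ω Ω else 0) ξ) :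
    ∃ ξ' : K, ‖ξ'‖ ≤ ‖ξ‖ ∧
      ξ' ∈ closure (Submodule.span ℂ (Set.range fun w => mono X w Ω) : Set K) ∧
      ∀ w : List ι, ⟪Ω, mono X w ξ'⟫_ℂ = ∑ l : Fin w.length, if w.get l = j then
        tau Ω (mono X (w.take l)) * tau Ω (mono X (w.drop (l + 1))) else 0 := by
  obtain ⟨N, h1, h2, h3⟩ := h
  have key : ∀ w : List ι, (star (mono X w) Ω, ∑ l ∈ Finset.range w.length, if w[l]? = some j then
      conj (tau Ω (mono X (w.take l))) • star (mono X (w.drop (l + 1))) Ω else 0) ∈ N := by
    intro w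
    induction w using List.reverseRecOn with
    | nil => simpa using h1
    | append_singleton w i ih =>
      convert h3 i _ ih using 2
      · simp [mono_append, hX, mul_apply_eq_comp]
      rw [List.length_append, List.length_singleton, Finset.sum_range_succ, map_sum]
      congr 1
      · refine Finset.sum_congr rfl fun l hl => ?_
        have hl := Finset.mem_range.1 hl
        rw [List.getElem?_append_left hl, List.take_append_of_le_length hl.le,
          List.drop_append_of_le_length hl]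
        split_ifs <;> simp [mono_append, hX, mul_apply_eq_comp]
      · by_cases e : i = j
        · simp [e, tau, inner_star_right]
        · simp [e]
  let K0 := (Submodule.span ℂ (Set.range fun w => mono X w Ω)).topologicalClosure
  haveI : CompleteSpace K0 := (Submodule.isClosed_topologicalClosure _).completeSpace_coe
  refine ⟨K0.starProjection ξ, K0.norm_starProjection_apply_le ξ, K0.starProjection_apply_mem ξ,
    fun w => ?_⟩
  have hm : star (mono X w) Ω ∈ K0 := by
    rw [star_mono hX]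
    exact Submodule.le_topologicalClosure _ (Submodule.subset_span ⟨_, rfl⟩)
  rw [← inner_star_left, ← Submodule.inner_starProjection_left_eq_right,
    Submodule.starProjection_eq_self_iff.2 hm, ← inner_conj_symm, ← h2 _ (key w), inner_sum,
    map_sum, Finset.sum_range]
  refine Finset.sum_congr rfl fun l _ => ?_
  simp only [List.get_eq_getElem, l.2, getElem?_pos, Option.some.injEq]
  split_ifs
  · rw [inner_smul_right, map_mul, Complex.conj_conj, ← tau, tau_star, Complex.conj_conj]
  · simp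

lemma fisher_le [Fintype ι] [DecidableEq ι] {X : ι → K →L[ℂ] K} (hX : ∀ i, star (X i) = X i)
    (B : ι → ℝ) (hB : ∀ j, 0 ≤ B j)
    (h : ∀ j, ∃ ξ, ‖ξ‖ ^ 2 ≤ B j ∧ Good Ω X (fun i => if i = j then ro Ω Ω else 0) ξ) :
    fisher Ω X ≤ ENNReal.ofReal (∑ j, B j) := by
  choose ξ h1 h2 using h
  choose η a1 a2 a3 using fun j => exists_conj hX j (h2 j)
  refine (iInf₂_le η fun j => ⟨a2 j, a3 j⟩).trans ?_
  rw [ENNReal.ofReal_sum_of_nonneg fun j _ => hB j]
  refine Finset.sum_le_sum fun j _ => ENNReal.ofReal_le_ofReal (le_trans ?_ (h1 j))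
  exact pow_le_pow_left₀ (norm_nonneg _) (a1 j) 2

end

end Vale.Agent.P087
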