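import Mathlib

open scoped InnerProductSpace ENNReal
open MeasureTheory Filter

namespace Vale.Agent.P087

noncomputable section

/-- The Hermitian matrix with real coordinates `x`.  The map `x ↦ herm x` is a real-linear
bijection from real `k × k` arrays onto Hermitian matrices with `Tr (herm x ^ 2) = ∑ x p q ^ 2`,
so it carries Lebesgue measure to the Euclidean volume of the Hermitian matrices. -/
def herm {k : ℕ} (x : Fin k → Fin k → ℝ) : Matrix (Fin k) (Fin k) ℂ :=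
  Matrix.of fun p q => (((x p q + x q p : ℝ) : ℂ) + ((x p q - x q p : ℝ) : ℂ) * Complex.I) / 2

/-- operator norm of a matrix -/
def opNorm {k : ℕ} (A : Matrix (Fin k) (Fin k) ℂ) : ℝ :=
  ‖Matrix.toEuclideanCLM (𝕜 := ℂ) (n := Fin k) A‖

/-- The microstate space of a tuple with moments `μ`, in the coordinates `herm`. -/
def Gam {ι : Type} (μ : List ι → ℂ) (R : ℝ) (m k : ℕ) (ε : ℝ) : Set (ι × Fin k × Fin k → ℝ) :=
  {x | (∀ j, opNorm (herm fun p q => x (j, p, q)) ≤ R) ∧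
    ∀ w : List ι, 1 ≤ w.length → w.length ≤ m →
      ‖(w.map fun j => herm fun p q => x (j, p, q)).prod.trace / (k : ℂ) - μ w‖ < ε}

/-- microstates free entropy with norm cutoff `R` -/
def chiR {ι : Type} [Fintype ι] (μ : List ι → ℂ) (R : ℝ) : EReal :=
  ⨅ (m : ℕ) (ε : ℝ) (_ : 0 < ε), limsup (fun k : ℕ =>
    ((((k : ℝ) ^ 2)⁻¹ : ℝ) : EReal) * ENNReal.log (volume (Gam μ R m k ε)) +
      (((Fintype.card ι : ℝ) / 2 * Real.log k : ℝ) : EReal)) atTop

/-- microstates free entropy -/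
def chi {ι : Type} [Fintype ι] (μ : List ι → ℂ) : EReal := ⨆ (R : ℝ) (_ : 0 < R), chiR μ R

variable {E : Type} [NormedAddCommGroup E] [InnerProductSpace ℂ E]

/-- the vector state -/
def tau (Ω : E) (T : E →L[ℂ] E) : ℂ := ⟪Ω, T Ω⟫_ℂ

/-- the monomial `X i₁ * ⋯ * X iₚ` -/
def mono {ι : Type} (X : ι → E →L[ℂ] E) (w : List ι) : E →L[ℂ] E := (w.map X).prod

/-- `ξ` is a family of conjugate variables of `X`, as vectors in the closure of the
polynomials in `X` applied to `Ω`. -/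
def IsConj {ι : Type} [DecidableEq ι] (Ω : E) (X : ι → E →L[ℂ] E) (ξ : ι → E) : Prop :=
  ∀ j, ξ j ∈ closure (Submodule.span ℂ (Set.range fun w => mono X w Ω) : Set E) ∧
    ∀ w : List ι, ⟪Ω, mono X w (ξ j)⟫_ℂ = ∑ l : Fin w.length,
      if w.get l = j then tau Ω (mono X (w.take l)) * tau Ω (mono X (w.drop (l + 1))) else 0

/-- free Fisher information (infinite if there are no conjugate variables) -/
def fisher {ι : Type} [Fintype ι] [DecidableEq ι] (Ω : E) (X : ι → E →L[ℂ] E) : ℝ≥0∞ :=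
  ⨅ (ξ : ι → E) (_ : IsConj Ω X ξ), ∑ j, ENNReal.ofReal (‖ξ j‖ ^ 2)

/-- `(1/2) ∫₀^∞ (n/(1+t) - Φ t) dt + (n/2) log (2 π e)`, the integral being the integral of
the positive part minus the integral of the negative part -/
def entInt (n : ℕ) (Φ : ℝ → ℝ≥0∞) : EReal :=
  ((1 / 2 : ℝ) : EReal) *
    (((∫⁻ t in Set.Ioi (0 : ℝ), (ENNReal.ofReal (n / (1 + t)) - Φ t) : ℝ≥0∞) : EReal) -
      ((∫⁻ t in Set.Ioi (0 : ℝ), (Φ t - ENNReal.ofReal (n / (1 + t))) : ℝ≥0∞) : EReal)) +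
    ((n / 2 * Real.log (2 * Real.pi * Real.exp 1) : ℝ) : EReal)

/-- nonmicrostates free entropy of `X`, computed with the semicircular family `S` -/
def chiStar {ι : Type} [Fintype ι] [DecidableEq ι] (Ω : E) (X S : ι → E →L[ℂ] E) : EReal :=
  entInt (Fintype.card ι) fun t => fisher Ω fun j => X j + (Real.sqrt t : ℂ) • S j

variable [CompleteSpace E]

/-- the vector state of `Ω` is a faithful tracial state on `M` -/
def FaithfulTrace (M : VonNeumannAlgebra E) (Ω : E) : Prop :=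
  ‖Ω‖ = 1 ∧ (∀ S ∈ M, ∀ T ∈ M, tau Ω (S * T) = tau Ω (T * S)) ∧
    ∀ T ∈ M, tau Ω (star T * T) = 0 → T = 0

/-- the unital star-algebras generated by the sets `A i` are free -/
def FreeFam {κ : Type} (Ω : E) (A : κ → Set (E →L[ℂ] E)) : Prop :=
  ∀ l : List (κ × (E →L[ℂ] E)), l ≠ [] → l.IsChain (fun a b => a.1 ≠ b.1) →
    (∀ a ∈ l, a.2 ∈ StarAlgebra.adjoin ℂ (A a.1) ∧ tau Ω a.2 = 0) →
      tau Ω (l.map Prod.snd).prod = 0

/-- `S` is a self-adjoint element with the standard semicircle law -/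
def Semicircular (Ω : E) (S : E →L[ℂ] E) : Prop :=
  IsSelfAdjoint S ∧ ∀ p : ℕ,
    tau Ω (S ^ p) = ((∫ x in (-2 : ℝ)..2, x ^ p * Real.sqrt (4 - x ^ 2) / (2 * Real.pi) : ℝ) : ℂ)

/-- `S` is a free semicircular family, free from `X` -/
def FreeSemi {ι : Type} (Ω : E) (X S : ι → E →L[ℂ] E) : Prop :=
  (∀ j, Semicircular Ω (S j)) ∧
    FreeFam Ω fun i : Option ι => i.elim (Set.range X) fun j => {S j}

end

end Vale.Agent.P087
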