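import Vale.Agent.P087.Wick
import Vale.Agent.P087.Conj

open scoped Classical InnerProductSpace ComplexConjugate
open FreeGroup hiding map_mul map_one map_inv

namespace Vale.Agent.P087

open Vale.Agent.P086 Vale.Agent.P086.W

noncomputable section

variable {R J : Type}

/-- indicator of a half tree -/
def ch (b : Lb R) (y : HH R) : ℂ := if hd y = some (b, true) then 1 else 0

lemma ch_step (b b' : Lb R) (y : HH R) :
    ch b (y * of b') = ch b y + if y = 1 ∧ b' = b then 1 else 0 := by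
  by_cases h1 : y = 1
  · simp [h1, ch]
  by_cases h2 : y = (of b')⁻¹
  · simp [h2, ch]
  · simp [ch, hd_mul_of _ h1 h2, h1]

/-- the cocycle -/
def dd (b : Lb R) (u v h : HH R) : AA R J :=
  (ch b (of b * v) - ch b (of b * v * h⁻¹)) • bv (one (th (h * v⁻¹ * (of b)⁻¹ * u)))

lemma dd_pos (b b' : Lb R) (u v h : HH R) :
    (dd b u v (of b' * h) : AA R J) - mp (lam (th (of b'))) (dd b u v h) =
      if b' = b ∧ v = h then bv (one (th u)) else 0 := by
  have := ch_step b b' (of b * v * h⁻¹ * (of b')⁻¹)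
  rw [inv_mul_cancel_right] at this
  simp only [dd, map_smul, mp_bv, lam_o, ← map_mul, mul_inv_rev, ← mul_assoc, this, ← sub_smul]
  by_cases e : b' = b
  · subst e
    by_cases e2 : v = h
    · simp [e2]
    · have : ¬(of b' * v * h⁻¹ * (of b')⁻¹ = 1) := by
        rw [mul_inv_eq_one, mul_assoc, mul_eq_left, mul_inv_eq_one]; exact e2
      simp [e2, this]
  · simp [e]

lemma dd_neg (b b' : Lb R) (u v h : HH R) :
    (dd b u v ((of b')⁻¹ * h) : AA R J) - mp (lam (th (of b')⁻¹)) (dd b u v h) =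
      if b' = b ∧ of b * v = h then -bv (one (th ((of b)⁻¹ * u))) else 0 := by
  have := ch_step b b' (of b * v * h⁻¹)
  simp only [dd, map_smul, mp_bv, lam_o, ← map_mul, mul_inv_rev, inv_inv, ← mul_assoc, this,
    ← sub_smul, mul_inv_eq_one]
  by_cases e : b' = b
  · subst e
    by_cases e2 : of b' * v = h
    · simp [← e2, ← mul_assoc]
    · simp [e2]
  · simp [e]

lemma dd_apply (b : Lb R) (u v h : HH R) (z : GG R) : (dd b u v h : AA R J) (one z) =
    if th (h * v⁻¹ * (of b)⁻¹ * u) = z then ch b (of b * v) - ch b (of b * v * h⁻¹) else 0 := by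
  simp only [dd, Finsupp.smul_apply, Finsupp.single_apply, one.injEq, smul_eq_mul, mul_ite,
    mul_one, mul_zero]

lemma norm_ch (b : Lb R) (x y : HH R) : ‖ch b x - ch b y‖ ≤ 1 := by
  unfold ch; split_ifs <;> simp

lemma en_concat (a : GG R) (l : List (HH R)) (k : HH R) :
    en a (l ++ [k]) = en a l * gg * th k := by
  induction l generalizing a <;> simp_all [en]

lemma tl_concat (a : GG R) (l : List (HH R)) (k : HH R) :
    tl a (l ++ [k]) = tl a l ++ [vx (en a l * gg * th k)] := by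
  induction l generalizing a <;> simp_all [en, tl]

variable {j0 : J} {ε : ℂ} {T : LL R J → AA R J}

lemma eta_formula {d : HH R → AA R J} (hT : IsT j0 ε d 0 T)
    (hd : ∀ h z, d h (one z) ≠ 0 → vx z = vx 1) (h0 : HH R) (p : LL R J) (x : J × HH R) :
    UU j0 ε d T h0 (p ++ [x]) (one 1) = 0 ∨ ∃ k, ed 1 p * gg = th k ∧
      UU j0 ε d T h0 (p ++ [x]) (one 1) = wt j0 ε (p ++ [x]) * nn (vs 1 p) *
        (d x.2 (one (th (h0 * k)⁻¹)) - d (k * x.2) (one (th h0⁻¹))) := by
  have hinv : ∀ z : GG R, vx z⁻¹ = vx 1 → vx z = vx 1 := fun z hz => by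
    obtain ⟨k, hk⟩ := vx_eq.1 hz.symm
    rw [one_mul, inv_eq_iff_eq_inv, ← map_inv] at hk
    rw [hk, vx_th1]
  let s2 : LL R J → GG R → ℂ := fun r z => match r with
    | [] => 0
    | y :: q => wj j0 ε y.1 * if vx (ed (gg * th y.2) q) = vx 1 then
        co j0 ε (gg * th y.2) q * d (ti (ed (gg * th y.2) q)) (one z) else 0
  have h1 : ∀ (q : LL R J) z, T (q ++ [x]) (one z) =
      (if q = [] then wj j0 ε x.1 * d x.2 (one (gg * z)) else 0) - s2 (q ++ [x]) z := by
    intro q z
    cases q with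
    | nil =>
      simp only [List.nil_append, hT.2, src, Finsupp.add_apply, mp_cons_one, s2, if_true]
      split_ifs <;> simp only [Finsupp.smul_apply, Finsupp.sub_apply, mp_lam_apply, gg_inv, lam_o,
        smul_eq_mul, Finsupp.zero_apply] <;> ring
    | cons y q =>
      have hq : (q ++ [x] = []) = False := by simp
      simp only [List.cons_append, hT.2, src, Finsupp.add_apply, mp_cons_one, s2, hq,
        reduceCtorEq, if_false]
      split_ifs <;> simp
  have h2 : UU j0 ε d T h0 (p ++ [x]) (one 1) = co j0 ε (th h0) p *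
      (wj j0 ε x.1 * d x.2 (one (gg * (ed (th h0) p)⁻¹))) - s2 (p ++ [x]) (th h0)⁻¹ := by
    rw [UU, if_neg (by simp), add_zero, Phi, Sp_concat, hT.1, map_zero, smul_zero, add_zero,
      Sp_map (fun v : AA R J => v (one 1)) fun _ _ => rfl]
    simp only [Finsupp.smul_apply, mp_lam_apply, lam_o, mul_one, h1, smul_eq_mul, mul_sub]
    rw [Sp_sub, Sp_last fun p q hq => by simp [hq], Sp_first]
    · simp
    intro p' q _ hp
    by_cases e : vx (ed (th h0) p') = vx (th h0)
    · rw [co_zero j0 ε hp e, zero_mul]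
    · have : ∀ h, d h (one (ed (th h0) p')⁻¹) = 0 := fun h => by
        by_contra hne
        exact e (by rw [hinv _ (hd _ _ hne), vx_th1])
      cases q <;> simp [s2, this]
  obtain ⟨y, q, hyq⟩ : ∃ y q, p ++ [x] = y :: q := by cases p <;> simp
  have e1 : ed (gg * th y.2) q = ed 1 p * gg * th x.2 := by
    have := ed_append 1 p [x]
    rwa [hyq, ed_cons, one_mul] at this
  have e2 : ed (th h0) p = th h0 * ed 1 p := by rw [← ed_mul, mul_one]
  by_cases hv : vx (ed 1 p * gg) = vx 1
  · right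
    refine ⟨ti (ed 1 p * gg), (th_ti hv).symm, ?_⟩
    have e3 := th_ti hv
    generalize ti (ed 1 p * gg) = k at e3
    have e4 : nn (vs (gg * th y.2) q) = nn (vs 1 p) := by
      have := vs_concat 1 p x
      have h3 : vs 1 p = vx 1 :: tl 1 (p.map Prod.snd) := rfl
      rw [hyq, vs_cons, ed_cons, one_mul, e1, vx_th, hv, h3, List.cons_append,
        List.cons.injEq] at this
      rw [this.2, nn_cyc, h3]
    have e5 : co j0 ε (th h0) p = co j0 ε 1 p := by simpa using co_mul j0 ε (th h0) 1 p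
    have e6 : gg * (ed (th h0) p)⁻¹ = th (h0 * k)⁻¹ := by
      rw [map_inv, map_mul, e3, e2]; simp [mul_assoc]
    have e7 : wt j0 ε (p ++ [x]) = wt j0 ε p * wj j0 ε x.1 := by simp [wt]
    have e8 : wt j0 ε (p ++ [x]) = wj j0 ε y.1 * wt j0 ε q := by simp [wt, hyq]
    rw [h2, e5, e6, mul_sub, co]
    congr 1
    · rw [e7]; ring
    · simp only [hyq, s2, e1, vx_th1, if_true, co, e4, ← e3, ← map_mul, ti_th, map_inv]
      rw [← hyq, e8]; ring
  · left
    have : d x.2 (one (gg * (ed (th h0) p)⁻¹)) = 0 := by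
      by_contra hne
      have h3 := hinv (th h0 * (ed 1 p * gg)) (by simpa [e2, mul_assoc] using hd _ _ hne)
      obtain ⟨k, hk⟩ := vx_eq.1 h3.symm
      rw [one_mul, ← eq_inv_mul_iff_mul_eq, ← map_inv, ← map_mul] at hk
      exact hv (by rw [hk, vx_th1])
    rw [h2, this]
    simp [hyq, s2, e1, hv]

lemma norm_wt (p : LL R J) : ‖wt j0 ε p‖ ≤ ‖ε‖ ^ p.length := by
  induction p with
  | nil => simp [wt]
  | cons x p ih =>
    have : ‖wj j0 ε x.1‖ ≤ ‖ε‖ := by unfold wj; split_ifs <;> simp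
    simp only [wt, List.map_cons, List.prod_cons, norm_mul, List.length_cons, pow_succ'] at ih ⊢
    gcongr

lemma wt_ne {p : LL R J} (h : wt j0 ε p ≠ 0) : ∀ x ∈ p, x.1 = j0 := by
  intro x hx
  by_contra e
  exact h (List.prod_eq_zero (List.mem_map.2 ⟨x, hx, by simp [wj, e]⟩))

lemma eta_bound {b : Lb R} {u v : HH R} (hu : u.norm ≤ 1) (hv : v.norm ≤ 1)
    (hT : IsT j0 ε (dd b u v) 0 T) (h0 : HH R) (l : LL R J) :
    ‖UU j0 ε (dd b u v) T h0 l (one 1)‖ ≤ (8 * ‖ε‖) ^ l.length ∧
    (UU j0 ε (dd b u v) T h0 l (one 1) ≠ 0 → (∀ x ∈ l, x.1 = j0) ∧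
      h0.norm + (l.map fun x => x.2.norm).sum ≤ 27 * l.length + 3) := by
  have n1 : ∀ {x y : HH R} {m n : ℕ}, x.norm ≤ m → y.norm ≤ n → (x * y).norm ≤ m + n :=
    fun h1 h2 => (FreeGroup.norm_mul_le _ _).trans (add_le_add h1 h2)
  have n2 : ∀ {x : HH R} {m : ℕ}, x.norm ≤ m → x⁻¹.norm ≤ m := fun h => by rwa [norm_inv_eq]
  have nb : (of b).norm ≤ 1 := by simp
  rcases List.eq_nil_or_concat' l with rfl | ⟨p, x, rfl⟩
  · simp only [UU, Phi, Sp, hT.1, map_zero, smul_zero, if_true, zero_add, dd_apply]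
    split_ifs with h
    · refine ⟨by simpa using norm_ch _ _ _, fun _ => ⟨by simp, ?_⟩⟩
      rw [map_eq_one_iff _ th_inj] at h
      have : h0 = h0 * v⁻¹ * (of b)⁻¹ * u * (u⁻¹ * of b * v) := by group
      rw [h, one_mul] at this
      simpa [this] using n1 (n1 (n2 hu) nb) hv
    · simp
  rcases eta_formula hT (fun h z hz => by
    rw [dd_apply] at hz
    split_ifs at hz with e
    · rw [← e, vx_th1]
    · exact absurd rfl hz) h0 p x with h | ⟨k, hk, h⟩
  · simp [h]
  have e : ((dd b u v x.2 : AA R J) (one (th (h0 * k)⁻¹)) -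
      (dd b u v (k * x.2) : AA R J) (one (th h0⁻¹))) =
      if h0 * k * x.2 * v⁻¹ * (of b)⁻¹ * u = 1 then
        ch b (of b * v * x.2⁻¹ * k⁻¹) - ch b (of b * v * x.2⁻¹) else 0 := by
    have c1 : x.2 * v⁻¹ * (of b)⁻¹ * u = (h0 * k)⁻¹ ↔ h0 * k * x.2 * v⁻¹ * (of b)⁻¹ * u = 1 := by
      rw [eq_comm, inv_eq_iff_mul_eq_one]; simp only [mul_assoc]
    have c2 : k * x.2 * v⁻¹ * (of b)⁻¹ * u = h0⁻¹ ↔ h0 * k * x.2 * v⁻¹ * (of b)⁻¹ * u = 1 := by
      rw [eq_comm, inv_eq_iff_mul_eq_one]; simp only [mul_assoc]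
    simp only [dd_apply, th_inj.eq_iff, c1, c2]
    simp only [← mul_assoc, mul_inv_rev]
    split_ifs <;> ring
  rw [h, e]
  constructor
  · have h1 : ‖((nn (vs 1 p) : ℤ) : ℂ)‖ ≤ 8 ^ (p ++ [x]).length := by
      rw [Complex.norm_intCast]
      have := nn_le (vs 1 p)
      rw [vs, List.length_cons, length_tl, List.length_map] at this
      rw [List.length_append, List.length_singleton, vs]
      exact_mod_cast this
    have h2 : ‖if h0 * k * x.2 * v⁻¹ * (of b)⁻¹ * u = 1 then
        ch b (of b * v * x.2⁻¹ * k⁻¹) - ch b (of b * v * x.2⁻¹) else 0‖ ≤ 1 := by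
      split_ifs
      · exact norm_ch _ _ _
      · simp
    rw [norm_mul, norm_mul, mul_pow]
    calc _ ≤ ‖ε‖ ^ (p ++ [x]).length * 8 ^ (p ++ [x]).length * 1 := by
          gcongr
          exact norm_wt _
      _ = _ := by ring
  intro hne
  simp only [ne_eq, mul_eq_zero, not_or, Int.cast_eq_zero, ite_eq_right_iff, not_forall] at hne
  obtain ⟨⟨a1, a2⟩, a3, a4⟩ := hne
  refine ⟨wt_ne a1, ?_⟩
  have b1 := loop_bound (a := 1) (l := p.map Prod.snd ++ [k⁻¹])
    (by rw [en_concat, ← ed, hk]; simp) (by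
      rwa [tl_concat, ← ed, hk, ← map_mul, mul_inv_cancel, map_one, nn_cyc])
  have b2 : (of b * v * x.2⁻¹).norm ≤ k.norm + 1 := by
    by_contra hc
    exact a4 (by simp only [ch]; rw [hd_mul_short _ _ (by rw [norm_inv_eq]; omega), sub_self])
  have b3 : x.2.norm ≤ k.norm + 1 + 1 + 1 := by
    have : x.2 = (of b * v * x.2⁻¹)⁻¹ * of b * v := by group
    rw [this]
    exact n1 (n1 (n2 b2) nb) hv
  have b4 : h0.norm ≤ k.norm + (k.norm + 1 + 1 + 1) + 1 + 1 + 1 := by
    have : h0 = (k * x.2 * v⁻¹ * (of b)⁻¹ * u)⁻¹ := by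
      rw [eq_inv_iff_mul_eq_one, ← a3]; simp only [mul_assoc]
    rw [this]
    exact n2 (n1 (n1 (n1 (n1 le_rfl b3) (n2 hv)) (n2 nb)) hu)
  simp only [List.map_append, List.map_map, List.sum_append, List.map_cons, List.map_nil,
    List.sum_cons, List.sum_nil, norm_inv_eq, List.length_append, List.length_map,
    List.length_cons, List.length_nil, Function.comp_def] at b1 ⊢
  omega

lemma list_sum_le {α : Type} (f : α → ℝ) (h0 : ∀ a, 0 ≤ f a)
    (h : ∀ s : Finset α, ∑ a ∈ s, f a ≤ 1 / 2) (S : Finset (List α)) :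
    ∑ l ∈ S, (l.map f).prod ≤ 2 := by
  have hp : ∀ l : List α, 0 ≤ (l.map f).prod := fun l =>
    List.prod_nonneg fun x hx => by obtain ⟨a, -, rfl⟩ := List.mem_map.1 hx; exact h0 a
  have key : ∀ n (S : Finset (List α)), (∀ l ∈ S, l.length < n) → ∑ l ∈ S, (l.map f).prod ≤ 2 := by
    intro n
    induction n with
    | zero =>
      intro S hS
      rw [Finset.eq_empty_of_forall_notMem (s := S) fun l hl => by simpa using hS l hl]
      simp
    | succ n ih =>
      intro S hS
      have h1 := ih ((S.erase []).image List.tail) fun l hl => by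
        obtain ⟨l', hl', rfl⟩ := Finset.mem_image.1 hl
        have := hS l' (Finset.mem_of_mem_erase hl')
        have := List.length_pos_iff.2 (Finset.ne_of_mem_erase hl')
        simp; omega
      have h2 := h (S.biUnion List.toFinset)
      have h3 : S ⊆ insert [] ((S.biUnion List.toFinset ×ˢ (S.erase []).image List.tail).image
          fun p => p.1 :: p.2) := by
        intro l hl
        cases l with
        | nil => simp
        | cons a l =>
          refine Finset.mem_insert_of_mem (Finset.mem_image.2 ⟨(a, l), Finset.mem_product.2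
            ⟨Finset.mem_biUnion.2 ⟨_, hl, by simp⟩, Finset.mem_image.2 ⟨a :: l, by simp [hl], rfl⟩⟩,
            rfl⟩)
      refine (Finset.sum_le_sum_of_subset_of_nonneg h3 fun l _ _ => hp l).trans ?_
      rw [Finset.sum_insert (by simp), Finset.sum_image fun p _ q _ e => by
        simpa [Prod.ext_iff] using e, Finset.sum_product]
      simp only [List.map_cons, List.prod_cons, ← Finset.mul_sum, ← Finset.sum_mul, List.map_nil,
        List.prod_nil]
      have := Finset.sum_nonneg (s := (S.erase []).image List.tail) fun l _ => hp l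
      nlinarith
  exact key (S.sup List.length + 1) S fun l hl => Nat.lt_succ_of_le (Finset.le_sup hl)

variable (R) in
/-- counting constant -/
def La [Fintype R] : ℝ := 2 * Fintype.card (Lb R × Bool) + 1

lemma one_le_La [Fintype R] : 1 ≤ La R := by unfold La; linarith [Nat.cast_nonneg (α := ℝ) (Fintype.card (Lb R × Bool))]

lemma sum_norm_le [Fintype R] (s : Finset (HH R)) : ∑ h ∈ s, (La R)⁻¹ ^ h.norm ≤ 2 := by
  have h1 := one_le_La (R := R)
  have := list_sum_le (fun _ : Lb R × Bool => (La R)⁻¹) (fun _ => by positivity) (fun s => by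
    have : (s.card : ℝ) ≤ Fintype.card (Lb R × Bool) := by exact_mod_cast s.card_le_univ
    rw [Finset.sum_const, nsmul_eq_mul, ← div_eq_mul_inv, div_le_iff₀ (by positivity), La]
    linarith) (s.image toWord)
  rw [Finset.sum_image toWord_injective.injOn] at this
  simpa [FreeGroup.norm] using this

lemma eta_sum [Fintype R] {b : Lb R} {u v : HH R} (hu : u.norm ≤ 1) (hv : v.norm ≤ 1)
    (hε : ‖ε‖ ≤ (16 * La R ^ 14)⁻¹) (hT : IsT j0 ε (dd b u v) 0 T) (s : Finset (HH R × LL R J)) :
    ∑ e ∈ s, ‖UU j0 ε (dd b u v) T e.1 e.2 (one 1)‖ ^ 2 ≤ (2 * La R ^ 2) ^ 2 := by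
  have h1 := one_le_La (R := R)
  let g : J × HH R → ℝ := fun x => if x.1 = j0 then 1 / 4 * (La R)⁻¹ ^ x.2.norm else 0
  have g0 : ∀ x, 0 ≤ g x := fun x => by simp only [g]; split_ifs <;> positivity
  have hp : ∀ l : LL R J, 0 ≤ (l.map g).prod := fun l =>
    List.prod_nonneg fun x hx => by obtain ⟨a, -, rfl⟩ := List.mem_map.1 hx; exact g0 a
  have h2 := list_sum_le g g0 (fun s => by
    have := sum_norm_le ((s.filter fun x => x.1 = j0).image Prod.snd)
    rw [Finset.sum_image fun x hx y hy e => Prod.ext (by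
      rw [(Finset.mem_filter.1 hx).2, (Finset.mem_filter.1 hy).2]) e] at this
    rw [← Finset.sum_filter, ← Finset.mul_sum]
    linarith) (s.image Prod.snd)
  have h3 := sum_norm_le (s.image Prod.fst)
  have h4 : ∀ e : HH R × LL R J, ‖UU j0 ε (dd b u v) T e.1 e.2 (one 1)‖ ^ 2 ≤
      La R ^ 3 * ((La R)⁻¹ ^ e.1.norm * (e.2.map g).prod) := by
    rintro ⟨h, l⟩
    obtain ⟨a1, a2⟩ := eta_bound hu hv hT h l
    by_cases hz : UU j0 ε (dd b u v) T h l (one 1) = 0
    · have := hp l
      simp only [hz, norm_zero, ne_eq, OfNat.ofNat_ne_zero, not_false_eq_true, zero_pow]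
      positivity
    obtain ⟨a3, a4⟩ := a2 hz
    have a5 : (l.map g).prod = (1 / 4) ^ l.length * (La R)⁻¹ ^ (l.map fun x => x.2.norm).sum := by
      clear a1 a2 a4 hz
      induction l with
      | nil => simp
      | cons x l ih =>
        simp only [List.map_cons, List.prod_cons, List.sum_cons, List.length_cons,
          ih fun y hy => a3 y (by simp [hy]), g, a3 x (by simp), if_true]
        ring
    have a6 : (8 * ‖ε‖) ^ 2 ≤ 1 / 4 * (La R)⁻¹ ^ 27 := by
      calc _ ≤ (8 * (16 * La R ^ 14)⁻¹) ^ 2 := by gcongr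
        _ = 1 / 4 * (La R)⁻¹ ^ 28 := by field_simp; norm_num
        _ ≤ _ := by
          gcongr 1 / 4 * ?_
          exact pow_le_pow_of_le_one (by positivity) (inv_le_one_of_one_le₀ h1) (by norm_num)
    calc _ ≤ ((8 * ‖ε‖) ^ l.length) ^ 2 := by gcongr
      _ = ((8 * ‖ε‖) ^ 2) ^ l.length := pow_right_comm _ _ _
      _ ≤ (1 / 4 * (La R)⁻¹ ^ 27) ^ l.length := by gcongr
      _ = La R ^ 3 * ((1 / 4) ^ l.length * (La R)⁻¹ ^ (27 * l.length + 3)) := by
        rw [pow_add, pow_mul, mul_pow]; field_simp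
      _ ≤ La R ^ 3 * ((1 / 4) ^ l.length * (La R)⁻¹ ^ (h.norm + (l.map fun x => x.2.norm).sum)) := by
        gcongr La R ^ 3 * (_ * ?_)
        exact pow_le_pow_of_le_one (by positivity) (inv_le_one_of_one_le₀ h1) a4
      _ = _ := by rw [a5]; ring
  refine (Finset.sum_le_sum fun e _ => h4 e).trans ?_
  refine (Finset.sum_le_sum_of_subset_of_nonneg Finset.subset_product fun e _ _ => ?_).trans ?_
  · have := hp e.2
    positivity
  rw [← Finset.mul_sum, Finset.sum_product]
  simp only [← Finset.mul_sum, ← Finset.sum_mul]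
  have := Finset.sum_nonneg (s := s.image Prod.snd) fun l _ => hp l
  calc _ ≤ La R ^ 3 * (2 * 2) := by gcongr
    _ ≤ La R ^ 4 * (2 * 2) := by gcongr; norm_num
    _ = _ := by ring

end

end Vale.Agent.P087
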