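import Vale.Agent.P087.Model
import Vale.Agent.P086.Haar

open scoped Classical InnerProductSpace ComplexConjugate

namespace Vale.Agent.P087

open Vale.Agent.P086 Vale.Agent.P086.W

noncomputable section

variable {H J : Type} [Group H]

variable (H J) in
/-- the von Neumann algebra -/
def VN : VonNeumannAlgebra (L2 (W H J)) where
  toStarSubalgebra := MM H J
  centralizer_centralizer' := Set.centralizer_centralizer_centralizer (Rset H J ∪ star (Rset H J))

lemma mem_VN {T : L2 (W H J) →L[ℂ] L2 (W H J)} : T ∈ VN H J ↔ T ∈ MM H J := Iff.rfl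

lemma faithful_VN : FaithfulTrace (VN H J) (Om H J) := by
  refine ⟨eb.orthonormal.1 _, fun S hS T hT => tracial_MM S hS T hT, fun T hT h => ?_⟩
  rw [tau, mul_apply_eq_comp, inner_star_right, inner_self_eq_zero] at h
  ext1 ξ
  refine ext_inner_left ℂ fun η => ?_
  refine (cyc_L.apx _ Lset_sub).ext (f := fun ξ => ⟪η, T ξ⟫_ℂ) (g := fun _ => ⟪η, 0⟫_ℂ)
    (by fun_prop) (by fun_prop) (fun x hx => ?_) ξ
  have := tracial_MM.norm_mul hT hx
  rw [h, norm_zero, mul_zero, norm_le_zero_iff] at this
  rw [this]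

lemma semi_ZL (j : J) : Semicircular (Om H J) (ZL j) := by
  refine ⟨star_ZL j, fun p => ?_⟩
  have h1 := moment (H := H) (Om_X0 j) (Om_X0 j) p 0
  rw [if_pos rfl] at h1
  refine h1.trans (congrArg _ ?_)
  have h2 := intervalIntegral.integral_comp_mul_deriv (a := Real.pi) (b := 0)
    (f := fun θ => 2 * Real.cos θ) (f' := fun θ => 2 * -Real.sin θ)
    (g := fun x => x ^ p * Real.sqrt (4 - x ^ 2) / (2 * Real.pi))
    (fun θ _ => (Real.hasDerivAt_cos θ).const_mul 2) (by fun_prop) (by fun_prop)
  simp only [Real.cos_pi, Real.cos_zero, mul_one, mul_neg] at h2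
  rw [← h2, intervalIntegral.integral_symm, ← intervalIntegral.integral_neg, mom,
    ← intervalIntegral.integral_const_mul]
  refine intervalIntegral.integral_congr fun θ hθ => ?_
  rw [Set.uIcc_of_le Real.pi_pos.le] at hθ
  have : Real.sqrt (4 - (2 * Real.cos θ) ^ 2) = 2 * Real.sin θ := by
    rw [Real.sqrt_eq_iff_mul_self_eq (by nlinarith [Real.cos_sq_le_one θ])
      (mul_nonneg zero_le_two (Real.sin_nonneg_of_mem_Icc hθ))]
    nlinarith [Real.sin_sq_add_cos_sq θ]
  simp only [Function.comp, this, Nat.cast_zero, zero_add, one_mul]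
  field_simp

omit [Group H] in
lemma supp_of_inner {S : Set (W H J)} {a : L2 (W H J) →L[ℂ] L2 (W H J)}
    (h : ∀ x y, x ∉ S → y ∉ S → ⟪eb y, a (eb x)⟫_ℂ = 0) {η : L2 (W H J)} (hη : Supp Sᶜ η) :
    Supp S (a η) := by
  intro y hy
  have h1 := ((innerSL ℂ (eb y)).comp a).hasSum (eb.hasSum_repr η)
  rw [show (fun x => ((innerSL ℂ (eb y)).comp a) (eb.repr η x • eb x)) = fun _ => 0
    from funext fun x => ?_] at h1
  · exact h1.unique hasSum_zero
  by_cases hx : x ∈ S
  · simp [eb.repr_apply_apply, hη x (by simpa using hx)]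
  · simp [h x y hx hy]

variable {J0 I : Type}

/-- the part of a word starting at the first colour of the second kind -/
def tail : W H (J0 ⊕ I) → W H (J0 ⊕ I)
  | one _ => one 1
  | cons _ (.inl _) w => tail w
  | cons _ (.inr i) w => cons 1 (.inr i) w

/-- grafting -/
def graft (x : W H J) : W H J → W H J
  | one g => lam g x
  | cons g j w => cons g j (graft x w)

/-- length of a word -/
def len : W H J → ℕ
  | one _ => 0
  | cons _ _ w => len w + 1

lemma len_graft (x w : W H J) : len (graft x w) = len w + len x := by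
  induction w with
  | one g => cases x <;> simp [graft, lam, len]
  | cons g j w ih => simp only [graft, len, ih]; omega

lemma graft_inj (x : W H J) : Function.Injective (graft x) := by
  intro v
  induction v with
  | one g =>
    intro w h
    have h1 := congrArg len h
    cases w with
    | one g' => simpa [graft] using congrArg W.hd h
    | cons g' j w => simp [len_graft, len] at h1
  | cons g j v ih =>
    intro w h
    have h1 := congrArg len h
    cases w with
    | one g' => simp [len_graft, len] at h1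
    | cons g' j' w =>
      simp only [graft, cons.injEq] at h
      rw [h.1, h.2.1, ih h.2.2]

variable (H J0 I) in
/-- generators -/
def gens : Option I → Set (L2 (W H (J0 ⊕ I)) →L[ℂ] L2 (W H (J0 ⊕ I)))
  | none => Set.range Lam ∪ Set.range fun j => ZL (.inl j)
  | some i => {ZL (.inr i)}

variable (H J0) in
/-- supports -/
def YY : Option I → Set (W H (J0 ⊕ I))
  | none => {z | tail z ≠ z}
  | some i => (X0 (.inr i))ᶜ

lemma tail_lam (g : H) (z : W H (J0 ⊕ I)) : tail (lam g z) = tail z := by
  rcases z with _ | ⟨_, _ | _, _⟩ <;> rfl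

lemma tail_cases (z : W H (J0 ⊕ I)) : tail z = one 1 ∨ ∃ i w, tail z = cons 1 (.inr i) w := by
  induction z with
  | one g => exact Or.inl rfl
  | cons g j w ih => cases j; exacts [ih, Or.inr ⟨_, _, rfl⟩]

lemma inner_gens {a} (ha : a ∈ StarAlgebra.adjoin ℂ (gens H J0 I none)) {x y : W H (J0 ⊕ I)}
    (hx : tail x = x) (hy : tail y = y) :
    ⟪eb y, a (eb x)⟫_ℂ = if y = x then tau (Om _ _) a else 0 := by
  split_ifs with e
  · subst e
    let V : L2 (W H (J0 ⊕ I)) →L[ℂ] _ := iso eb (graft y) (graft_inj y)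
    have h1 : ∀ g, V * Lam g = Lam g * V := fun g => ext_basis eb fun w => by
      cases w <;> simp [V, mul_apply_eq_comp, iso_apply, lam_o, lam_c, graft]
    have h2 : ∀ j, V * ZL (.inl j) = ZL (.inl j) * V := fun j =>
      (lift_iso _ _).comm (lift_ZL _) (end_ext fun w => by
        simp only [Module.End.mul_apply, zl, LinearMap.add_apply, mp_bv, op_bv, map_add, graft]
        congr 1
        cases w with
        | one g =>
          have := tail_cases y
          rw [hy] at this
          rcases this with rfl | ⟨i, w, rfl⟩ <;> simp [ells, graft, lam]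
        | cons g k w => simp only [ells, graft]; split_ifs <;> simp)
    have h3 : a ∈ StarSubalgebra.centralizer ℂ {V} := by
      refine StarAlgebra.adjoin_le ?_ ha
      rintro _ (⟨g, rfl⟩ | ⟨j, rfl⟩) <;> refine mem_cent.2 ?_ <;> rintro _ rfl
      · exact ⟨h1 g, by simpa [star_Lam] using (congrArg star (h1 g⁻¹)).symm⟩
      · exact ⟨h2 j, by simpa [star_ZL] using (congrArg star (h2 j)).symm⟩
    have h4 : eb y = V (Om _ _) := by simp [V, iso_apply, graft]
    rw [h4, ← mul_apply_eq_comp, ← (mem_cent.1 h3 V rfl).1, mul_apply_eq_comp]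
    exact (isoOf eb _ (eb.orthonormal.comp _ (graft_inj y))).inner_map_map _ _
  · have key : ∀ ξ, Supp {z | tail z = x} ξ →
        Supp {z | tail z = x} (a ξ) ∧ Supp {z | tail z = x} (star a ξ) := by
      have h1 : ∀ g ξ, Supp {z | tail z = x} ξ → Supp {z | tail z = x} (Lam g ξ) :=
        fun g ξ h z hz => by
          rw [← inner_star_left, star_Lam, Lam_eb]
          exact h _ (by simpa [tail_lam] using hz)
      have h2 : ∀ j ξ, Supp {z | tail z = x} ξ → Supp {z | tail z = x} (ZL (.inl j) ξ) :=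
        fun j ξ h z hz => by
          rw [← inner_star_left, star_ZL, ZL_eb, inner_add_left, h _ (by simpa [tail] using hz)]
          cases z with
          | one g => simp [ells]
          | cons g k w =>
            rw [ells]
            split_ifs with e
            · obtain ⟨rfl, rfl⟩ := e
              simpa using h w hz
            · simp
      clear e
      induction ha using StarAlgebra.adjoin_induction with
      | mem a ha =>
        rcases ha with ⟨g, rfl⟩ | ⟨j, rfl⟩
        · exact fun ξ h => ⟨h1 _ _ h, star_Lam (J := J0 ⊕ I) g ▸ h1 _ _ h⟩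
        · exact fun ξ h => ⟨h2 _ _ h, (star_ZL (H := H) (.inl j : J0 ⊕ I)).symm ▸ h2 _ _ h⟩
      | algebraMap c =>
        intro ξ h
        constructor <;> intro z hz <;> simp [Algebra.algebraMap_eq_smul_one, h z hz]
      | add a b _ _ ia ib =>
        intro ξ h
        constructor <;> intro z hz
        · simp [inner_add_right, (ia ξ h).1 z hz, (ib ξ h).1 z hz]
        · simp [inner_add_right, (ia ξ h).2 z hz, (ib ξ h).2 z hz]
      | mul a b _ _ ia ib =>
        exact fun ξ h => ⟨(ia _ (ib ξ h).1).1, by rw [star_mul]; exact (ib _ (ia ξ h).2).2⟩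
      | star a _ ia => exact fun ξ h => ⟨(ia ξ h).2, by rw [star_star]; exact (ia ξ h).1⟩
    refine (key _ fun z hz => ?_).1 y (by simpa [hy] using e)
    rw [inner_eb, if_neg]
    rintro rfl
    exact hz hx

lemma supp_step {κ : Option I} {a} (ha : a ∈ StarAlgebra.adjoin ℂ (gens H J0 I κ))
    (h0 : tau (Om _ _) a = 0) {η} (hη : Supp (YY H J0 κ)ᶜ η) : Supp (YY H J0 κ) (a η) := by
  refine supp_of_inner (fun x y hx hy => ?_) hη
  cases κ with
  | none => simp [inner_gens ha (not_not.1 hx) (not_not.1 hy), h0]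
  | some i =>
    obtain ⟨f, -, rfl⟩ : a ∈ StarSubalgebra.map (FC H _ (.inr i)) ⊤ :=
      StarAlgebra.adjoin_le (by rintro _ rfl; exact ⟨cs, trivial, FC_cs _⟩) ha
    have h1 := (FC_inner (Om_X0 _) (Om_X0 _) f).symm.trans h0
    rw [if_pos rfl] at h1
    refine (FC_inner (not_not.1 hx) (not_not.1 hy) f).trans ?_
    simp [h1]

lemma one_YY (κ : Option I) : one 1 ∉ YY H J0 κ := by
  cases κ with
  | none => simp [YY, tail]
  | some i => simpa [YY] using Om_X0 _

lemma YY_disj {κ κ' : Option I} (h : κ ≠ κ') : YY H J0 κ' ⊆ (YY H J0 κ)ᶜ := by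
  intro z h1 h2
  rcases κ with _ | i <;> rcases κ' with _ | i'
  · exact h rfl
  · obtain ⟨w, rfl⟩ := compl_X0 h1
    exact h2 rfl
  · obtain ⟨w, rfl⟩ := compl_X0 h2
    exact h1 rfl
  · obtain ⟨w, rfl⟩ := compl_X0 h1
    obtain ⟨w', e⟩ := compl_X0 h2
    simp_all

lemma free_gens : FreeFam (Om H (J0 ⊕ I)) (gens H J0 I) := by
  have key : ∀ (l : List (Option I × _)) (a : Option I × _), (a :: l).IsChain (fun a b => a.1 ≠ b.1) →
      (∀ b ∈ a :: l, b.2 ∈ StarAlgebra.adjoin ℂ (gens H J0 I b.1) ∧ tau (Om _ _) b.2 = 0) →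
      Supp (YY H J0 a.1) (((a :: l).map Prod.snd).prod (Om _ _)) := by
    intro l
    induction l with
    | nil =>
      intro a _ h
      simp only [List.map_cons, List.map_nil, List.prod_cons, List.prod_nil, mul_one]
      refine supp_step (h a (by simp)).1 (h a (by simp)).2 fun z hz => ?_
      rw [inner_eb, if_neg]
      rintro rfl
      exact hz (one_YY _)
    | cons b l ih =>
      intro a h1 h
      rw [List.isChain_cons_cons] at h1
      rw [List.map_cons, List.prod_cons, mul_apply_eq_comp]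
      exact supp_step (h a (by simp)).1 (h a (by simp)).2
        ((ih b h1.2 fun c hc => h c (List.mem_cons_of_mem _ hc)).mono (YY_disj h1.1))
  rintro (_ | ⟨a, l⟩) h0 h1 h2
  · exact absurd rfl h0
  · exact key l a h1 h2 _ (one_YY _)

variable {R : Type}

lemma XX_mem {ε τ : ℝ} (A : StarSubalgebra ℂ (KK R (JJ R) →L[ℂ] KK R (JJ R)))
    (h1 : ∀ g, Lam g ∈ A) (h2 : ∀ j, ZL (.inl j) ∈ A) (j : IX R) : XX ε τ j ∈ A := by
  have s := fun (c : ℂ) {x} (hx : x ∈ A) => SMulMemClass.smul_mem c hx
  refine add_mem ?_ (s _ (h2 _))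
  rcases j with _ | ⟨l, k⟩
  · exact s _ (h1 _)
  · have := add_mem (one_mem A) (s (sg l) (h2 (.inl l)))
    exact s _ (add_mem (s _ (mul_mem (h1 _) this)) (s _ (mul_mem this (h1 _))))

theorem freeSemi (ε τ : ℝ) : FreeSemi (Om (GG R) (JJ R)) (XX ε τ) SS := by
  refine ⟨fun j => semi_ZL _, fun l h0 h1 h2 => free_gens l h0 h1 fun a ha => ⟨?_, (h2 a ha).2⟩⟩
  have := (h2 a ha).1
  obtain ⟨_ | i, a⟩ := a
  · refine StarAlgebra.adjoin_le ?_ this
    rintro _ ⟨j, rfl⟩
    exact XX_mem _ (fun g => StarAlgebra.subset_adjoin _ _ (Or.inl ⟨g, rfl⟩))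
      (fun j => StarAlgebra.subset_adjoin _ _ (Or.inr ⟨j, rfl⟩)) j
  · exact this

end

end Vale.Agent.P087
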