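import Vale.Agent.P087.Comb

open FreeGroup hiding map_mul map_one map_inv
open scoped Classical

namespace Vale.Agent.P087

noncomputable section

section fg

variable {α : Type} [DecidableEq α]

/-- first letter -/
def hd (w : FreeGroup α) : Option (α × Bool) := w.toWord.head?

lemma hd_mul {x w : FreeGroup α} (hx : x ≠ 1) (h : hd w ≠ hd x⁻¹) : hd (x * w) = hd x := by
  have hr : IsReduced (x.toWord ++ w.toWord) := by
    refine List.IsChain.append isReduced_toWord isReduced_toWord fun a ha b hb e => ?_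
    by_contra hne
    apply h
    simp only [hd, toWord_inv, invRev, List.head?_reverse, List.getLast?_map]
    rw [Option.mem_def] at ha hb
    rw [ha, hb]
    obtain ⟨a1, a2⟩ := a
    obtain ⟨b1, b2⟩ := b
    simp only at e hne
    subst e
    cases a2 <;> cases b2 <;> simp_all
  have h0 : x.toWord ≠ [] := by simpa using hx
  rw [hd, toWord_mul, hr.reduce_eq, hd, List.head?_append_of_ne_nil _ h0]

@[simp] lemma hd_one : hd (1 : FreeGroup α) = none := rfl

@[simp] lemma hd_of (a : α) : hd (of a) = some (a, true) := by simp [hd]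

@[simp] lemma hd_of_inv (a : α) : hd (of a)⁻¹ = some (a, false) := by simp [hd, invRev]

lemma hd_mul_of {y : FreeGroup α} (a : α) (h1 : y ≠ 1) (h2 : y ≠ (of a)⁻¹) :
    hd (y * of a) = hd y := by
  by_cases h : hd (of a) = hd y⁻¹
  · have h3 : y * of a ≠ 1 := fun e => h2 (eq_inv_of_mul_eq_one_left e)
    have := hd_mul (w := (of a)⁻¹) h3 ?_
    · simpa using this.symm
    rw [hd_of, hd] at h
    obtain ⟨L, hL⟩ : ∃ L, (y⁻¹).toWord = (a, true) :: L := by
      cases hy : (y⁻¹).toWord with
      | nil => simp [hy] at h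
      | cons b L => exact ⟨L, by simp [hy] at h; rw [h]⟩
    have hr : IsReduced ((a, true) :: L) := hL ▸ isReduced_toWord
    have e : (y * of a)⁻¹ = mk L := by
      rw [mul_inv_rev, ← mk_toWord (x := y⁻¹), hL, ← List.singleton_append, ← mul_mk]
      exact inv_mul_cancel_left _ _
    rw [e, hd_of_inv, hd, toWord_mk, IsReduced.reduce_eq (List.IsChain.of_cons hr)]
    cases L with
    | nil => simp
    | cons b L =>
      have := (isReduced_cons_cons.1 hr).1
      intro e
      simp only [List.head?_cons, Option.some.injEq] at e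
      subst e
      simp at this
  · exact hd_mul h1 h

lemma hd_congr {β : Type} [DecidableEq β] (e : α ≃ β) (w : FreeGroup α) :
    hd (freeGroupCongr e w) = (hd w).map fun a => (e a.1, a.2) := by
  have hr : IsReduced (w.toWord.map fun a => (e a.1, a.2)) := by
    rw [FreeGroup.IsReduced, List.isChain_map]
    exact (isReduced_toWord (x := w)).imp fun a b h => by simpa using h
  conv_lhs => rw [← mk_toWord (x := w)]
  rw [freeGroupCongr_apply, map.mk, hd, toWord_mk, hr.reduce_eq, List.head?_map, hd]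

omit [DecidableEq α] in
lemma mk_cons (a : α × Bool) (w : List (α × Bool)) : mk (a :: w) = mk [a] * mk w := by
  rw [mul_mk]; rfl

omit [DecidableEq α] in
lemma mk_letter (a : α × Bool) : mk [a] = if a.2 then of a.1 else (of a.1)⁻¹ := by
  obtain ⟨a, s⟩ := a
  cases s
  · simp [of, inv_mk, invRev]
  · rfl

lemma hd_mul_letter {y : FreeGroup α} (a : α × Bool) (h : 2 ≤ y.norm) :
    hd (y * mk [a]) = hd y := by
  have h1 : ∀ z : FreeGroup α, z.norm ≤ 1 → y ≠ z := by rintro z hz rfl; omega
  rw [mk_letter]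
  split_ifs
  · exact hd_mul_of _ (h1 _ (by simp)) (h1 _ (by simp))
  · have := hd_mul_of (y := y * (of a.1)⁻¹) a.1 ?_ ?_
    · simpa using this.symm
    · rw [Ne, mul_inv_eq_one]; exact h1 _ (by simp)
    · rw [Ne, mul_eq_right]; exact h1 _ (by simp)

lemma norm_letter (a : α × Bool) : (mk [a] : FreeGroup α).norm ≤ 1 := norm_mk_le

lemma hd_mul_short (y k : FreeGroup α) (h : k.norm + 2 ≤ y.norm) : hd (y * k) = hd y := by
  have key : ∀ (L : List (α × Bool)) (y : FreeGroup α), L.length + 2 ≤ y.norm →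
      hd (y * mk L) = hd y := by
    intro L
    induction L with
    | nil => intro y _; rw [← one_eq_mk, mul_one]
    | cons a L ih =>
      intro y hy
      simp only [List.length_cons] at hy
      have h1 := norm_mul_le (y * mk [a]) (mk [a])⁻¹
      have h2 := norm_letter a
      rw [mul_inv_cancel_right, norm_inv_eq] at h1
      rw [mk_cons, ← mul_assoc, ih _ (by omega), hd_mul_letter _ (by omega)]
  have := key k.toWord y h
  rwa [mk_toWord] at this

end fg

variable {R : Type}

/-- the free normal subgroup -/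
abbrev NN (R : Type) := FreeGroup ((R × Bool) × Bool)

variable (R) in
/-- the swap action -/
def phi : Equiv.Perm Bool →* MulAut (NN R) where
  toFun σ := freeGroupCongr (Equiv.prodCongr (Equiv.refl _) σ)
  map_one' := MulEquiv.toMonoidHom_injective (by ext; simp)
  map_mul' σ τ := MulEquiv.toMonoidHom_injective (by ext ⟨a, b⟩; simp)

lemma phi_of (σ : Equiv.Perm Bool) (p : R × Bool) (b : Bool) :
    phi R σ (of (p, b)) = of (p, σ b) := by simp [phi]

/-- the group -/
abbrev GG (R : Type) := NN R ⋊[phi R] Equiv.Perm Bool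

/-- the involution -/
def gg : GG R := SemidirectProduct.inr (Equiv.swap false true)

/-- corners of a triangle -/
def PP (ρ : R) (i : ZMod 3) : GG R :=
  if i = 0 then 1 else SemidirectProduct.inl (of ((ρ, decide (i = 2)), false))

/-- labels -/
abbrev Lb (R : Type) := R × ZMod 3

/-- group element of a label -/
def bb (l : Lb R) : GG R := gg * (PP l.1 l.2)⁻¹ * PP l.1 (l.2 + 1)

/-- the free group on the labels -/
abbrev HH (R : Type) := FreeGroup (Lb R)

/-- the embedding -/
def th : HH R →* GG R := FreeGroup.lift bb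

@[simp] lemma gg_gg : (gg * gg : GG R) = 1 := by
  rw [gg, ← map_mul, Equiv.swap_mul_self, map_one]

@[simp] lemma gg_inv : (gg⁻¹ : GG R) = gg := inv_eq_of_mul_eq_one_right gg_gg

@[simp] lemma mul_gg_gg (x : GG R) : x * gg * gg = x := by rw [mul_assoc, gg_gg, mul_one]

lemma rel (ρ : R) : bb (ρ, 2) = gg * (bb (ρ, 1))⁻¹ * gg * (bb (ρ, 0))⁻¹ * gg := by
  have h0 : PP ρ 0 = 1 := by simp [PP]
  have h1 : (2 : ZMod 3) + 1 = 0 := by decide
  have h2 : (1 : ZMod 3) + 1 = 2 := by decide
  simp [bb, h0, h1, h2, mul_assoc]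

/-- class of a first letter -/
def cls (ρ : R) (o : Option (((R × Bool) × Bool) × Bool)) : ZMod 3 :=
  if o = some (((ρ, false), false), true) then 1
  else if o = some (((ρ, true), false), true) then 2 else 0

/-- the side of a triangle -/
def side (t : GG R × R) (x : GG R) : ZMod 3 := cls t.2 (hd (t.1⁻¹ * x).left)

lemma cls_ne {ρ : R} {o : Option (((R × Bool) × Bool) × Bool)} (h : cls ρ o ≠ 0) :
    ∃ b, o = some (((ρ, b), false), true) := by
  unfold cls at h
  split_ifs at h with h1 h2
  exacts [⟨_, h1⟩, ⟨_, h2⟩, absurd rfl h]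

lemma perm_eq_one {σ : Equiv.Perm Bool} (h : σ false = false) : σ = 1 := by
  ext b
  cases b
  · exact h
  · have : σ true ≠ σ false := fun e => by simpa using σ.injective e
    rw [h] at this
    simpa using this

@[simp] lemma side_gg (t : GG R × R) (x : GG R) : side t (x * gg) = side t x := by
  simp [side, ← mul_assoc, gg]

lemma side_PP {t : GG R × R} {δ : GG R} {ρ : R} (h : t ≠ (δ, ρ)) (i : ZMod 3) :
    side t (δ * PP ρ i) = side t δ := by
  unfold PP
  split_ifs with hi
  · rw [mul_one]
  obtain ⟨y, hy⟩ : ∃ y, y = t.1⁻¹ * δ := ⟨_, rfl⟩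
  simp only [side, ← mul_assoc, ← hy, SemidirectProduct.mul_left, SemidirectProduct.left_inl,
    phi_of]
  by_cases h1 : y.left = 1
  · rw [h1, one_mul, hd_of, hd_one]
    by_contra hne
    obtain ⟨b, hb⟩ := cls_ne (ρ := t.2) (fun e => hne (by rw [e]; simp [cls]))
    simp only [Option.some.injEq, Prod.mk.injEq, and_true] at hb
    have h2 : y = 1 := SemidirectProduct.ext h1 (perm_eq_one hb.2)
    rw [h2, eq_comm, inv_mul_eq_one] at hy
    exact h (Prod.ext hy hb.1.1.symm)
  by_cases h2 : y.left = (of ((ρ, decide (i = 2)), y.right false))⁻¹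
  · rw [h2]; simp [cls]
  · rw [hd_mul_of _ h1 h2]

lemma side_self (δ : GG R) (ρ : R) (i : ZMod 3) : side (δ, ρ) (δ * PP ρ i) = i := by
  simp only [side, inv_mul_cancel_left, PP]
  have : i = 0 ∨ i = 1 ∨ i = 2 := by revert i; decide
  have h1 : (1 : ZMod 3) ≠ 0 := by decide
  have h2 : (2 : ZMod 3) ≠ 0 := by decide
  have h3 : (1 : ZMod 3) ≠ 2 := by decide
  rcases this with rfl | rfl | rfl <;> simp [cls, h1, h2, h3]

lemma nested {t t' : GG R × R} (h : t ≠ t') : ∃ s s', ∀ x, side t x = s ∨ side t' x = s' := by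
  obtain ⟨y, hy⟩ : ∃ y, y = t.1⁻¹ * t'.1 := ⟨_, rfl⟩
  have key : ∀ x, side t' x = cls t'.2 ((hd (y.left⁻¹ * (t.1⁻¹ * x).left)).map
      fun a => ((a.1.1, y.right⁻¹ a.1.2), a.2)) := by
    intro x
    have e : t'.1⁻¹ * x = y⁻¹ * (t.1⁻¹ * x) := by rw [hy]; group
    rw [side, e, SemidirectProduct.mul_left, SemidirectProduct.inv_left,
      SemidirectProduct.inv_right, ← map_mul]
    exact congrArg _ (hd_congr _ _)
  by_cases h1 : y.left = 1
  · refine ⟨0, 0, fun x => ?_⟩
    by_contra hne
    push Not at hne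
    rw [key, h1, inv_one, one_mul] at hne
    obtain ⟨b, hb⟩ := cls_ne hne.1
    obtain ⟨b', hb'⟩ := cls_ne hne.2
    rw [hb] at hb'
    simp only [Option.map_some, Option.some.injEq, Prod.mk.injEq, and_true] at hb'
    have h2 : y = 1 := SemidirectProduct.ext h1 (inv_eq_one.1 (perm_eq_one hb'.2))
    rw [h2, eq_comm, inv_mul_eq_one] at hy
    exact h (Prod.ext hy hb'.1.1)
  · refine ⟨cls t.2 (hd y.left), cls t'.2 ((hd y.left⁻¹).map
      fun a => ((a.1.1, y.right⁻¹ a.1.2), a.2)), fun x => ?_⟩
    by_cases h2 : hd (t.1⁻¹ * x).left = hd y.left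
    · left; rw [side, h2]
    · right; rw [key, hd_mul (by simpa using h1) (by simpa using h2)]

/-- the triangle crossed by a step -/
def tri (a : GG R) (β : Lb R × Bool) : GG R × R :=
  (if β.2 then a * gg * (PP β.1.1 β.1.2)⁻¹ else a * (PP β.1.1 (β.1.2 + 1))⁻¹, β.1.1)

/-- side before the step -/
def fr (β : Lb R × Bool) : ZMod 3 := if β.2 then β.1.2 else β.1.2 + 1

/-- side after the step -/
def too (β : Lb R × Bool) : ZMod 3 := if β.2 then β.1.2 + 1 else β.1.2

lemma fr_ne (β : Lb R × Bool) : fr β ≠ too β := by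
  have : ∀ i : ZMod 3, i ≠ i + 1 := by decide
  unfold fr too
  split_ifs
  exacts [this _, (this _).symm]

lemma tri_fr (a : GG R) (β : Lb R × Bool) :
    a = (tri a β).1 * PP β.1.1 (fr β) * if β.2 then gg else 1 := by
  obtain ⟨l, s⟩ := β
  cases s <;> simp [tri, fr]

lemma tri_too (a : GG R) (β : Lb R × Bool) :
    a * th (mk [β]) = (tri a β).1 * PP β.1.1 (too β) * if β.2 then 1 else gg := by
  obtain ⟨l, s⟩ := β
  cases s <;> simp [tri, too, mk_letter, th, bb, mul_assoc]

lemma side_ite (t : GG R × R) (x : GG R) (p : Prop) [Decidable p] :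
    side t (x * if p then gg else 1) = side t x ∧ side t (x * if p then 1 else gg) = side t x := by
  split_ifs <;> simp

lemma side_fr (a : GG R) (β : Lb R × Bool) : side (tri a β) a = fr β := by
  have := side_self (tri a β).1 β.1.1 (fr β)
  rwa [← (side_ite _ _ (β.2 = true)).1, ← tri_fr] at this

lemma side_too (a : GG R) (β : Lb R × Bool) : side (tri a β) (a * th (mk [β])) = too β := by
  rw [tri_too, (side_ite _ _ _).2]
  exact side_self (tri a β).1 β.1.1 (too β)

lemma side_step {t : GG R × R} {a : GG R} {β : Lb R × Bool} (h : t ≠ tri a β) :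
    side t (a * th (mk [β])) = side t a := by
  have h' : t ≠ ((tri a β).1, β.1.1) := h
  rw [tri_too, (side_ite _ _ _).2, side_PP h']
  conv_rhs => rw [tri_fr a β, (side_ite _ _ _).1, side_PP h']

lemma PP_right (ρ : R) (i : ZMod 3) : (PP ρ i).right = 1 := by
  unfold PP; split_ifs <;> simp

lemma tri_ne (a : GG R) {β β' : Lb R × Bool} (h : β.1 = β'.1 → β.2 = β'.2) :
    tri a β ≠ tri (a * th (mk [β])) β' := by
  intro e
  have h1 := side_too a β
  rw [e, side_fr] at h1
  have h2 := tri_fr (a * th (mk [β])) β'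
  rw [← e] at h2
  have h3 := congrArg SemidirectProduct.right ((tri_too a β).symm.trans h2)
  have h4 : β.1.1 = β'.1.1 := congrArg Prod.snd e
  have h5 : (gg : GG R).right ≠ 1 := by simp [gg]
  clear e h2
  generalize (tri a β).1 = δ at h3
  obtain ⟨⟨ρ, i⟩, s⟩ := β
  obtain ⟨⟨ρ', i'⟩, s'⟩ := β'
  cases s <;> cases s' <;> simp_all [PP_right, fr, too]

lemma side_word (a : GG R) (β : Lb R × Bool) (w : List (Lb R × Bool)) (h : IsReduced (β :: w)) :
    side (tri a β) (a * th (mk (β :: w))) = too β := by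
  induction w generalizing a β with
  | nil => exact side_too a β
  | cons β' w ih =>
    obtain ⟨h1, h2⟩ := isReduced_cons_cons.1 h
    have hne := tri_ne a h1
    have i1 := ih (a * th (mk [β])) β' h2
    rw [mk_cons, map_mul, ← mul_assoc]
    obtain ⟨s, s', hs⟩ := nested hne
    have a1 := hs a
    have a2 := hs (a * th (mk [β]))
    have a3 := hs (a * th (mk [β]) * th (mk [β']))
    have a4 := hs (a * th (mk [β]) * th (mk (β' :: w)))
    rw [side_fr, ← side_step hne.symm, side_fr] at a1
    rw [side_too, side_fr] at a2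
    rw [side_step hne, side_too, side_too] at a3
    rw [i1] at a4
    have := fr_ne β
    have := fr_ne β'
    grind

end

end Vale.Agent.P087
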