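import Vale.Agent.P087.Eta

open scoped Classical InnerProductSpace ComplexConjugate
open FreeGroup hiding map_mul map_one map_inv

namespace Vale.Agent.P087

open Vale.Agent.P086 Vale.Agent.P086.W

noncomputable section

lemma exists_vec {E X K : Type} [NormedAddCommGroup K] [InnerProductSpace ℂ K] [CompleteSpace K]
    (e : HilbertBasis X ℂ K) {emb : E → X} (hemb : Function.Injective emb) (L : E → ℂ) {C : ℝ}
    (hC : 0 ≤ C) (h : ∀ s : Finset E, ∑ a ∈ s, ‖L a‖ ^ 2 ≤ C ^ 2) :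
    ∃ ξ : K, ‖ξ‖ ≤ C ∧ ∀ (a : E) (v : X →₀ ℂ), (∀ a', v (emb a') = if a = a' then 1 else 0) →
      ⟪ξ, iota e v⟫_ℂ = L a := by
  have h' : ∀ s : Finset E, ∑ a ∈ s, ‖conj (L a)‖ ^ (2 : ENNReal).toReal ≤
      C ^ (2 : ENNReal).toReal := fun s => by simpa using h s
  let x : L2 E := ⟨fun a => conj (L a), memℓp_gen' h'⟩
  let b : HilbertBasis E ℂ (L2 E) := default
  let I := isoOf b (e ∘ emb) (e.orthonormal.comp emb hemb)
  refine ⟨I (b.repr.symm x), ?_, fun a v hv => ?_⟩
  · rw [I.norm_map, b.repr.symm.norm_map]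
    exact lp.norm_le_of_forall_sum_le (by simp) hC h'
  have : (innerSL ℂ (iota e v)).comp I.toContinuousLinearMap = innerSL ℂ (b a) := by
    refine ext_basis b fun a' => ?_
    have h1 : I (b a') = e (emb a') := isoOf_apply b _ _ a'
    simp only [ContinuousLinearMap.comp_apply, LinearIsometry.coe_toContinuousLinearMap, h1,
      innerSL_apply_apply, inner_iota_e, hv, orthonormal_iff_ite.1 b.orthonormal]
    split_ifs <;> simp
  have h2 := congrArg (fun F : L2 E →L[ℂ] ℂ => F (b.repr.symm x)) this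
  simp only [ContinuousLinearMap.comp_apply, LinearIsometry.coe_toContinuousLinearMap,
    innerSL_apply_apply, ← b.repr_apply_apply, LinearIsometryEquiv.apply_symm_apply] at h2
  rw [← inner_conj_symm, h2]
  simp [x]

variable {R J : Type}

/-- the Hilbert space -/
abbrev KK (R J : Type) := L2 (W (GG R) J)

/-- basis vector of a group element -/
def dl (g : GG R) : KK R J := eb (one g)

lemma dl_one : (dl 1 : KK R J) = Om (GG R) J := rfl

@[simp] lemma Lam_dl (g h : GG R) : Lam g (dl h : KK R J) = dl (g * h) := by simp [dl, lam_o]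

variable (j0 : J) (ε : ℂ)

/-- letters -/
def opL : (Lb R × Bool) ⊕ J → KK R J →L[ℂ] KK R J
  | .inl β => Lam (th (mk [β]))
  | .inr j => ZL j + wj j0 ε j • Lam gg

/-- the elementary derivations -/
def DL (b : Lb R) (u v : HH R) : (Lb R × Bool) ⊕ J → KK R J →L[ℂ] KK R J
  | .inl (b', true) => if b' = b then ro (dl (th u)) (dl (th v)) else 0
  | .inl (b', false) => if b' = b then -ro (dl (th ((of b)⁻¹ * u))) (dl (th (of b * v))) else 0
  | .inr _ => 0

/-- right side of the recursion -/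
def comb {M : Type} [AddCommGroup M] [Module ℂ M] (U : HH R → LL R J → M) (j : J) (h : HH R)
    (l : LL R J) : M :=
  U 1 ((j, h) :: l) + Ann U j h l + Sp l fun p q => if vx (ed (gg * th h) p) = vx 1 then
    (wj j0 ε j * co j0 ε (gg * th h) p) • U (ti (ed (gg * th h) p)) q else 0

lemma map_comb {M M' : Type} [AddCommGroup M] [Module ℂ M] [AddCommGroup M'] [Module ℂ M']
    (φ : M →ₗ[ℂ] M') (U : HH R → LL R J → M) (j : J) (h : HH R) (l : LL R J) :
    φ (comb j0 ε U j h l) = comb j0 ε (fun h l => φ (U h l)) j h l := by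
  simp only [comb, map_add]
  congr 1
  · congr 1
    cases l <;> simp only [Ann, apply_ite φ, map_zero]
  · rw [Sp_map _ (map_add φ)]
    exact Sp_congr fun p q _ => by simp only [apply_ite φ, map_zero, map_smul]

lemma comb_mem {M : Type} [AddCommGroup M] [Module ℂ M] (S : Submodule ℂ M)
    {U : HH R → LL R J → M} (hU : ∀ h l, U h l ∈ S) (j : J) (h : HH R) (l : LL R J) :
    comb j0 ε U j h l ∈ S := by
  refine add_mem (add_mem (hU _ _) ?_) (Sp_mem S l fun p q => ?_)
  · cases l with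
    | nil => exact zero_mem _
    | cons x l =>
      rw [Ann]
      split_ifs
      exacts [hU _ _, zero_mem _]
  · split_ifs
    exacts [S.smul_mem _ (hU _ _), zero_mem _]

theorem good_DL [Fintype R] (b : Lb R) {u v : HH R} (hu : u.norm ≤ 1) (hv : v.norm ≤ 1)
    (hε : ‖ε‖ ≤ (16 * La R ^ 14)⁻¹) :
    ∃ ξ, ‖ξ‖ ≤ 2 * La R ^ 2 ∧ Good (Om (GG R) J) (opL j0 ε) (DL b u v) ξ := by
  obtain ⟨T1, h1⟩ := exists_T j0 ε (0 : HH R → AA R J) (bv (one 1))
  obtain ⟨T2, h2⟩ := exists_T j0 ε (dd b u v : HH R → AA R J) 0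
  have hLa := one_le_La (R := R)
  obtain ⟨ξ, a1, a2⟩ := exists_vec (eb (H := GG R) (J := J))
    (emb := fun e : HH R × LL R J => mkW (th e.1) e.2)
    (fun e e' h => Prod.ext (th_inj (mkW_inj h).1) (mkW_inj h).2) _ (by positivity)
    (eta_sum hu hv hε h2)
  let st : HH R → LL R J → KK R J × KK R J := fun h l =>
    (iota eb (UU j0 ε 0 T1 h l), iota eb (UU j0 ε (dd b u v) T2 h l))
  let s : Set (KK R J × KK R J) := Set.range fun e : HH R × LL R J => st e.1 e.2
  have hs : ∀ h l, st h l ∈ Submodule.span ℂ s := fun h l => Submodule.subset_span ⟨(h, l), rfl⟩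
  refine ⟨ξ, a1, Submodule.span ℂ s, ?_, fun p hp => ?_, fun a => Adm.of_span ?_⟩
  · convert hs 1 [] using 1
    simp [st, UU, Phi, Sp, h1.1, h2.1, dd, lam_o]
  · induction hp using Submodule.span_induction with
    | mem p hp =>
      obtain ⟨e, rfl⟩ := hp
      rw [a2 e _ fun e' => by rw [psi_apply h1]; simp only [Prod.ext_iff]]
      exact inner_e_iota _ _ _
    | zero => simp
    | add p q _ _ h1 h2 => simp only [Prod.fst_add, Prod.snd_add, inner_add_right, h1, h2]
    | smul c p _ h1 => simp only [Prod.smul_fst, Prod.smul_snd, inner_smul_right, h1]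
  rintro _ ⟨⟨h, l⟩, rfl⟩
  have hro : ∀ x y : HH R, ro (dl (th x)) (dl (th y)) (iota eb (UU j0 ε 0 T1 h l)) =
      iota eb (if l = [] then if y = h then bv (one (th x)) else 0 else 0) := by
    intro x y
    have := psi_apply h1 h y l []
    rw [ro_apply, dl, inner_e_iota, show (one (th y) : W (GG R) J) = mkW (th y) [] from rfl, this]
    by_cases e1 : l = [] <;> by_cases e2 : y = h <;> simp [e1, e2, dl, eq_comm (a := h)]
  rcases a with ⟨b', σ⟩ | j
  · convert hs (mk [(b', σ)] * h) l using 2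
    · simp [st, opL, lam_U, lift_Lam _ _]
    · simp only [st, opL, lam_U, lift_Lam _ _, map_add]
      congr 1
      cases σ
      · rw [mk_letter, if_neg Bool.false_ne_true, dd_neg, DL]
        by_cases e : b' = b
        · simp only [e, if_true, neg_apply, hro, true_and]
          split_ifs <;> simp
        · simp [e]
      · rw [mk_letter, if_pos rfl, dd_pos, DL]
        by_cases e : b' = b
        · simp only [e, if_true, hro, true_and]
        · simp [e]
  · have z1 : ZP (bv (one 1) : AA R J) := by simpa using ZP_single (J := J) (1 : GG R) 1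
    have y1 := y_U h1 z1 (fun _ => ZP_zero) j h l
    have y2 := y_U h2 ZP_zero (fun _ => ZP_single _ _) j h l
    rw [← comb] at y1 y2
    convert comb_mem j0 ε _ hs j h l using 1
    refine Prod.ext ?_ ?_
    · refine Eq.trans ?_ (map_comb j0 ε (LinearMap.fst ℂ _ _) st j h l).symm
      refine Eq.trans ?_ (map_comb j0 ε (iota eb) _ j h l)
      simp [← y1, opL, st, lift_Lam _ _, lift_ZL _ _]
    · refine Eq.trans ?_ (map_comb j0 ε (LinearMap.snd ℂ _ _) st j h l).symm
      refine Eq.trans ?_ (map_comb j0 ε (iota eb) _ j h l)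
      simp [← y2, opL, st, DL, lift_Lam _ _, lift_ZL _ _]

/-- right creation -/
def Cr (i : J) : KK R J →L[ℂ] KK R J := iso eb (app i) (app_inj i)

lemma lift_Cr (i : J) : Lift eb (star (Cr i : KK R J →L[ℂ] _)) (op (rs i)) :=
  (lift_iso _ _).star (transp_app i)

lemma Cr_Lam (i : J) (g : GG R) :
    star (Cr i : KK R J →L[ℂ] _) * Lam g = Lam g * star (Cr i) := by
  refine (lift_Cr i).comm (lift_Lam g) (end_ext fun w => ?_)
  cases w with
  | one x => simp [lam, rs]
  | cons x k w =>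
    simp only [Module.End.mul_apply, mp_bv, op_bv, lam, rs, map_add, mp_mp]
    congr 1
    split_ifs <;> simp [lam]

lemma Cr_ZL (i j : J) : star (Cr i : KK R J →L[ℂ] _) * ZL j =
    ZL j * star (Cr i) + if j = i then ro (Om _ _) (Om _ _) else 0 := by
  have key : ∀ w : W (GG R) J, op (rs i) (zl j (bv w)) = zl j (op (rs i) (bv w)) +
      if j = i ∧ w = one 1 then bv (one 1) else 0 := by
    intro w
    simp only [zl, LinearMap.add_apply, mp_bv, op_bv, map_add]
    cases w with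
    | one x => simp [ells, rs, and_comm]
    | cons x k w =>
      have h0 : op (ells j) (if w = one 1 ∧ k = i then bv (one x) else 0 : W (GG R) J →₀ ℂ) = 0 := by
        split_ifs <;> simp [ells]
      simp only [ells, rs, map_add, ells_mp_cons, h0, reduceCtorEq, false_and, if_false,
        zero_add, and_false, add_zero]
      split_ifs <;> simp
  refine ext_basis eb fun w => ?_
  have e1 : (eb w : KK R J) = iota eb (bv w) := by simp
  rw [add_apply, mul_apply_eq_comp, mul_apply_eq_comp, e1, lift_ZL, lift_Cr, lift_Cr, lift_ZL, key,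
    map_add]
  congr 1
  by_cases h : j = i
  · simp only [h, if_true, true_and, ro_apply, inner_e_iota, Finsupp.single_apply]
    split_ifs <;> simp
  · simp [h]

/-- operators commuting with the left generators -/
def Cm (P : KK R J →L[ℂ] KK R J) : Prop :=
  (∀ g, P * Lam g = Lam g * P) ∧ ∀ j, P * ZL j = ZL j * P

lemma Cm_Rho (g : GG R) : Cm (Rho g : KK R J →L[ℂ] _) :=
  ⟨fun h => (mem_cent.1 (Lam_mem h) _ (Or.inl ⟨g, rfl⟩)).1,
    fun j => (mem_cent.1 (ZL_mem j) _ (Or.inl ⟨g, rfl⟩)).1⟩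

lemma Cm_ZR (i : J) : Cm (ZR i : KK R J →L[ℂ] _) :=
  ⟨fun h => (mem_cent.1 (Lam_mem h) _ (Or.inr ⟨i, rfl⟩)).1,
    fun j => (mem_cent.1 (ZL_mem j) _ (Or.inr ⟨i, rfl⟩)).1⟩

lemma Cm.mul {P Q : KK R J →L[ℂ] KK R J} (hP : Cm P) (hQ : Cm Q) : Cm (P * Q) :=
  ⟨fun g => by rw [mul_assoc, hQ.1, ← mul_assoc, hP.1, mul_assoc],
    fun g => by rw [mul_assoc, hQ.2, ← mul_assoc, hP.2, mul_assoc]⟩

/-- derivation supported on one colour -/
def DZ (i : J) (D : KK R J →L[ℂ] KK R J) : (Lb R × Bool) ⊕ J → KK R J →L[ℂ] KK R J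
  | .inl _ => 0
  | .inr j => if j = i then D else 0

theorem good_DZ (i : J) {P Q : KK R J →L[ℂ] KK R J} (hP : Cm P) (hQ : Cm Q)
    (h0 : star (Cr i : KK R J →L[ℂ] _) (Q (Om _ _)) = 0) :
    Good (Om (GG R) J) (opL j0 ε) (DZ i (ro (P (Om _ _)) (star Q (Om _ _))))
      (star Q (Cr i (star P (Om _ _)))) := by
  have hL : ∀ g, P * star (Cr i) * Q * Lam g = Lam g * (P * star (Cr i) * Q) := fun g => by
    rw [mul_assoc, hQ.1, ← mul_assoc, mul_assoc P, Cr_Lam, ← mul_assoc, hP.1]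
    simp only [mul_assoc]
  have := Good.of_Z (Ω := Om (GG R) J) (T := opL j0 ε)
    (D := DZ i (ro (P (Om _ _)) (star Q (Om _ _)))) (P * star (Cr i) * Q)
    (by simp only [mul_apply_eq_comp, h0, map_zero]) ?_
  · simpa only [star_mul, star_star, mul_apply_eq_comp] using this
  rintro (β | j)
  · simp [opL, DZ, hL]
  · simp only [opL, DZ, mul_add, add_mul, mul_smul_comm, smul_mul_assoc, hL]
    rw [mul_assoc, hQ.2, ← mul_assoc, mul_assoc P, Cr_ZL, mul_add, ← mul_assoc, hP.2, add_mul,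
      add_right_comm]
    simp only [mul_assoc, add_right_inj]
    split_ifs
    · rw [ro_mul, mul_ro]
    · simp

lemma Cr_eb (i : J) (w : W (GG R) J) : (Cr i : KK R J →L[ℂ] _) (eb w) = eb (app i w) :=
  iso_apply _ _ _ _

lemma ZR_Om (i : J) : (ZR i : KK R J →L[ℂ] _) (Om _ _) = eb (cons 1 i (one 1)) := by
  rw [(lift_ZR i).apply_eb]
  simp [zr, app, rs]

lemma norm_ZR (j : J) : ‖(ZR j : KK R J →L[ℂ] _)‖ ≤ 2 := by
  have := norm_iso_le (eb (H := GG R) (J := J)) (app j) (app_inj j)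
  refine (norm_add_le _ _).trans ?_
  rw [norm_star_op]
  linarith

lemma good_grp (i : J) (u v : GG R) : Good (Om (GG R) J) (opL j0 ε) (DZ i (ro (dl u) (dl v)))
    (eb (cons u⁻¹ i (one v))) := by
  have := good_DZ j0 ε i (Cm_Rho u) (Cm_Rho v⁻¹) (by
    rw [Rho_eb, (lift_Cr i).apply_eb]; simp [rho, rs])
  simpa [star_Rho, rho, Cr_eb, app, dl] using this

lemma norm_eb (w : W (GG R) J) : ‖(eb w : KK R J)‖ = 1 := eb.orthonormal.1 w

lemma ZL_dl (k : J) (u : GG R) : (ZL k (dl u) : KK R J) = Rho u (ZR k (Om _ _)) := by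
  simp [ZR_Om, dl, ZL_eb, ells, rho]

lemma Rho_Om (u : GG R) : (Rho u (Om _ _) : KK R J) = dl u := by simp [rho, dl]

lemma norm_Rho (u : GG R) (x : KK R J) : ‖Rho u x‖ = ‖x‖ := norm_iso_apply _ _ _ _

lemma norm_Cr (i : J) (x : KK R J) : ‖Cr i x‖ = ‖x‖ := norm_iso_apply _ _ _ _

lemma norm_ZR_le (k : J) {x : KK R J} (hx : ‖x‖ = 1) : ‖ZR k x‖ ≤ 2 :=
  ((ZR k).le_opNorm _).trans (by rw [hx, mul_one]; exact norm_ZR k)

lemma good_sL {i k : J} (u v : GG R) : ∃ ξ, ‖ξ‖ ≤ 2 ∧
    Good (Om (GG R) J) (opL j0 ε) (DZ i (ro (ZL k (dl u)) (dl v))) ξ := by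
  have := good_DZ j0 ε i ((Cm_Rho u).mul (Cm_ZR k)) (Cm_Rho v⁻¹) (by
    rw [Rho_eb, (lift_Cr i).apply_eb]; simp [rho, rs])
  rw [star_mul, star_Rho, star_Rho, star_ZR, inv_inv, Rho_Om, mul_apply_eq_comp, ← ZL_dl,
    mul_apply_eq_comp] at this
  refine ⟨_, ?_, this⟩
  rw [norm_Rho, norm_Cr]
  exact norm_ZR_le k (by rw [norm_Rho, norm_eb])

lemma good_sR {i k : J} (hik : k ≠ i) (u v : GG R) : ∃ ξ, ‖ξ‖ ≤ 2 ∧
    Good (Om (GG R) J) (opL j0 ε) (DZ i (ro (dl u) (ZL k (dl v)))) ξ := by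
  have := good_DZ j0 ε i (Cm_Rho u) ((Cm_ZR k).mul (Cm_Rho v⁻¹)) (by
    rw [mul_apply_eq_comp, Rho_eb, (lift_ZR k).apply_eb, lift_Cr]
    simp [rho, rs, zr, app, hik])
  rw [star_mul, star_Rho, star_Rho, star_ZR, inv_inv, Rho_Om, mul_apply_eq_comp, ← ZL_dl,
    mul_apply_eq_comp] at this
  refine ⟨_, ?_, this⟩
  rw [norm_Rho]
  exact norm_ZR_le k (by rw [norm_Cr, norm_Rho, norm_eb])

end

end Vale.Agent.P087
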