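import Vale.Agent.P087.Geo

open FreeGroup hiding map_mul map_one map_inv
open scoped Classical

namespace Vale.Agent.P087

noncomputable section

variable {R : Type}

/-- vertices -/
abbrev VX (R : Type) := GG R ⧸ (th (R := R)).range

/-- vertex of a half-edge -/
def vx (a : GG R) : VX R := QuotientGroup.mk a

lemma vx_eq {a b : GG R} : vx a = vx b ↔ ∃ h, b = a * th h := by
  rw [vx, vx, QuotientGroup.eq, MonoidHom.mem_range]
  refine exists_congr fun h => ?_
  rw [eq_inv_mul_iff_mul_eq, eq_comm]

@[simp] lemma vx_th (a : GG R) (h : HH R) : vx (a * th h) = vx a := (vx_eq.2 ⟨h, rfl⟩).symm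

lemma vx_mul (g a : GG R) : vx (g * a) = g • vx a := rfl

/-- vertices of a triangle -/
def VV (t : GG R × R) (i : ZMod 3) : VX R := vx (t.1 * PP t.2 i)

lemma vx_tri (a : GG R) (β : Lb R × Bool) : vx a = VV (tri a β) (β.1.2 + 1) := by
  obtain ⟨l, s⟩ := β
  cases s
  · have := tri_fr a (l, false)
    simp only [fr, Bool.false_eq_true, if_false, mul_one] at this
    exact congrArg vx this
  · have := tri_too a (l, true)
    simp only [too, if_true, mul_one] at this
    rw [← vx_th a (mk [(l, true)]), this]
    rfl

lemma lemS_aux (t : GG R × R) (w : List (Lb R × Bool)) (hw : FreeGroup.IsReduced w) (a : GG R)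
    (h : side t (a * th (mk w)) ≠ side t a) : ∃ i, vx a = VV t (i + 1) ∧
      ((side t a = i ∧ side t (a * th (mk w)) = i + 1) ∨
        (side t a = i + 1 ∧ side t (a * th (mk w)) = i)) := by
  induction w generalizing a with
  | nil => simp [← one_eq_mk] at h
  | cons β w ih =>
    by_cases e : t = tri a β
    · subst e
      refine ⟨β.1.2, vx_tri a β, ?_⟩
      rw [side_word a β w hw, side_fr, fr, too]
      split_ifs <;> simp
    · rw [mk_cons, map_mul, ← mul_assoc, ← side_step e] at *
      simpa using ih (List.IsChain.of_cons hw) _ h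

lemma lemS (t : GG R × R) {a b : GG R} (hv : vx a = vx b) (h : side t b ≠ side t a) :
    ∃ i, vx a = VV t (i + 1) ∧
      ((side t a = i ∧ side t b = i + 1) ∨ (side t a = i + 1 ∧ side t b = i)) := by
  obtain ⟨k, rfl⟩ := vx_eq.1 hv
  have := lemS_aux t k.toWord isReduced_toWord a
  rw [mk_toWord] at this
  exact this h

lemma lemS' (t : GG R × R) (i : ZMod 3) {x : GG R} (h : vx x = VV t (i + 1)) :
    side t x = i ∨ side t x = i + 1 := by
  obtain ⟨k, rfl⟩ := vx_eq.1 h.symm
  have e1 : tri (t.1 * PP t.2 i * gg) ((t.2, i), true) = t := by simp [tri]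
  have e2 : t.1 * PP t.2 i * gg * th (mk [((t.2, i), true)]) = t.1 * PP t.2 (i + 1) := by
    rw [tri_too, e1]; simp [too]
  have e3 : tri (t.1 * PP t.2 (i + 1)) ((t.2, i), false) = t := by simp [tri]
  rw [← mk_toWord (x := k)]
  have hr : FreeGroup.IsReduced k.toWord := isReduced_toWord
  generalize k.toWord = w at hr
  by_cases hh : w.head? = some ((t.2, i), false)
  · obtain ⟨w, rfl⟩ : ∃ w', w = ((t.2, i), false) :: w' := by
      cases w with
      | nil => simp at hh
      | cons b w => exact ⟨w, by simp at hh; rw [hh]⟩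
    have := side_word (t.1 * PP t.2 (i + 1)) _ w hr
    rw [e3] at this
    exact Or.inl this
  · have hr' : FreeGroup.IsReduced (((t.2, i), true) :: w) := by
      cases w with
      | nil => exact IsReduced.singleton
      | cons b w =>
        refine isReduced_cons_cons.2 ⟨fun e => ?_, hr⟩
        obtain ⟨l, s⟩ := b
        cases s <;> simp_all
    have := side_word (t.1 * PP t.2 i * gg) _ w hr'
    rw [e1, mk_cons, map_mul, ← mul_assoc, e2] at this
    exact Or.inr this

lemma exists_tris (w : List (Lb R × Bool)) (hw : FreeGroup.IsReduced w) (a : GG R) :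
    ∃ T : Finset (GG R × R), T.card = w.length ∧ ∀ t ∈ T, side t (a * th (mk w)) ≠ side t a := by
  induction w generalizing a with
  | nil => exact ⟨∅, by simp⟩
  | cons β w ih =>
    obtain ⟨T, h1, h2⟩ := ih (List.IsChain.of_cons hw) (a * th (mk [β]))
    have h3 := side_word a β w hw
    have e : a * th (mk (β :: w)) = a * th (mk [β]) * th (mk w) := by
      rw [mk_cons, map_mul, mul_assoc]
    have h4 : tri a β ∉ T := fun h => h2 _ h (by rw [← e, h3, side_too])
    refine ⟨insert (tri a β) T, by rw [Finset.card_insert_of_notMem h4, h1]; rfl, fun t ht => ?_⟩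
    rcases Finset.mem_insert.1 ht with rfl | ht
    · rw [h3, side_fr]; exact (fr_ne β).symm
    · rw [e, ← side_step (a := a) (β := β) fun e => h4 (e ▸ ht)]
      exact h2 t ht

lemma exists_tris' (k : HH R) (a : GG R) :
    ∃ T : Finset (GG R × R), T.card = k.norm ∧ ∀ t ∈ T, side t (a * th k) ≠ side t a := by
  have := exists_tris k.toWord isReduced_toWord a
  rwa [mk_toWord] at this

lemma eq_one_of_side {k : HH R} {a : GG R} (h : ∀ t, side t (a * th k) = side t a) : k = 1 := by
  obtain ⟨T, h1, h2⟩ := exists_tris' k a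
  rw [Finset.eq_empty_of_forall_notMem fun t ht => h2 t ht (h t), Finset.card_empty] at h1
  exact norm_eq_zero.1 h1.symm

lemma th_inj : Function.Injective (th (R := R)) :=
  (injective_iff_map_eq_one _).2 fun k hk => eq_one_of_side (a := 1) fun t => by rw [hk, mul_one]

lemma vx_gg (a : GG R) : vx (a * gg) ≠ vx a := by
  intro h
  obtain ⟨k, hk⟩ := vx_eq.1 h.symm
  have h1 : k = 1 := eq_one_of_side (a := a) fun t => by rw [← hk, side_gg]
  have := congrArg SemidirectProduct.right hk
  simp [h1, gg] at this

/-- end of a path -/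
def en : GG R → List (HH R) → GG R
  | a, [] => a
  | a, h :: l => en (a * gg * th h) l

/-- vertices of a path -/
def tl : GG R → List (HH R) → List (VX R)
  | _, [] => []
  | a, h :: l => vx (a * gg * th h) :: tl (a * gg * th h) l

/-- last incoming half-edge -/
def lg : GG R → GG R → List (HH R) → GG R
  | γ, _, [] => γ
  | _, a, h :: l => lg (a * gg) (a * gg * th h) l

/-- counting steps -/
def cnt (P : GG R → GG R → Prop) : GG R → List (HH R) → ℤ
  | _, [] => 0
  | a, h :: l => (if P (a * gg) (a * gg * th h) then 1 else 0) + cnt P (a * gg * th h) l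

lemma vx_lg {γ a : GG R} (h : vx γ = vx a) (l : List (HH R)) : vx (lg γ a l) = vx (en a l) := by
  induction l generalizing γ a with
  | nil => exact h
  | cons k l ih => exact ih (by simp)

section B

variable (t : GG R × R) (s : ZMod 3) (c d : VX R)

/-- colouring -/
def col (v : VX R) : Bool := decide (∃ x, vx x = v ∧ side t x = s)

/-- canonical state -/
def can (γ a : GG R) : Bool × Bool :=
  if vx a = c then (col t s (vx (γ * gg)), true) else (col t s (vx a), false)

/-- potential -/
def pot (γ a : GG R) : ℤ :=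
  (if vx a = c ∧ side t a ≠ side t γ then 1 else 0) - if vx a = d then 1 else 0

variable {t s c d} {s1 : ZMod 3}
  (hc : ∀ x, vx x = c → side t x = s ∨ side t x = s1)
  (hc2 : ∀ x x', vx x = vx x' → side t x = s → side t x' = s1 → vx x = c)
  (hd : ∀ x x', vx x = vx x' → side t x = s → side t x' ≠ s → vx x = c ∨ vx x = d)

lemma col_true {x : GG R} (h : side t x = s) : col t s (vx x) = true := by
  simp only [col, decide_eq_true_eq]
  exact ⟨x, rfl, h⟩

include hc2 in
lemma col_false {x : GG R} (h : side t x = s1) (hx : vx x ≠ c) : col t s (vx x) = false := by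
  simp only [col, decide_eq_false_iff_not]
  rintro ⟨y, hy, hs⟩
  exact hx (hy ▸ hc2 y x hy hs h)

include hd in
lemma col_ne {x : GG R} (h1 : vx x ≠ c) (h2 : vx (x * gg) ≠ c)
    (h : col t s (vx x) = true) (h' : col t s (vx (x * gg)) = false) : vx x = d := by
  have h3 : side t x ≠ s := fun e => by
    rw [col_true (by rw [side_gg, e])] at h'
    simp at h'
  simp only [col, decide_eq_true_eq] at h
  obtain ⟨y, hy, hs⟩ := h
  rw [← hy] at h1 ⊢
  exact (hd y x hy hs h3).resolve_left h1

include hc hc2 hd in
lemma stepB {γ a : GG R} (hγ : vx γ = vx a) (k : HH R) :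
    (if vx (a * gg * th k) = c then ((can t s c γ a).1, true)
      else (col t s (vx (a * gg * th k)), false)) = can t s c (a * gg) (a * gg * th k) ∧
    pot t c d γ a - (if vx (a * gg * th k) = d then 1 else 0) ≤
      (if vx (a * gg * th k) = c then 0 else if (can t s c γ a).1 = col t s (vx (a * gg * th k))
        then 0 else if (can t s c γ a).2 then 1 else -1 : ℤ) := by
  have h0 := vx_gg a
  simp only [can, pot, vx_th, mul_gg_gg]
  by_cases h1 : vx (a * gg) = c
  · have h2 : vx a ≠ c := fun e => h0 (h1.trans e.symm)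
    simp only [h1, h2, if_true, if_false, false_and, true_and]
    split_ifs <;> omega
  by_cases h2 : vx a = c
  · simp only [h1, h2, if_true, if_false, true_and]
    by_cases h3 : side t a = side t γ
    · simp only [h3, ne_eq, not_true, if_false]
      split_ifs <;> omega
    have h4 : vx (γ * gg) ≠ c := fun e => vx_gg γ (e.trans (hγ.trans h2).symm)
    have h5 : col t s (vx (γ * gg)) ≠ col t s (vx (a * gg)) := by
      rcases hc a h2 with ha | ha <;> rcases hc γ (hγ.trans h2) with hg | hg
      · exact absurd (ha.trans hg.symm) h3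
      · rw [col_false hc2 (by rw [side_gg, hg]) h4, col_true (by rw [side_gg, ha])]; simp
      · rw [col_false hc2 (by rw [side_gg, ha]) h1, col_true (by rw [side_gg, hg])]; simp
      · exact absurd (ha.trans hg.symm) h3
    simp only [h5, if_false]
    split_ifs <;> omega
  · simp only [h1, h2, if_false, false_and, true_and, Bool.false_eq_true]
    by_cases h3 : col t s (vx a) = col t s (vx (a * gg))
    · simp only [h3, if_true]
      split_ifs <;> omega
    have h4 : vx a = d ∨ vx (a * gg) = d := by
      cases h5 : col t s (vx a) <;> cases h6 : col t s (vx (a * gg))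
      · exact absurd (h5.trans h6.symm) h3
      · exact Or.inr (col_ne hd h1 (by rwa [mul_gg_gg]) h6 (by rwa [mul_gg_gg]))
      · exact Or.inl (col_ne hd h2 h1 h5 h6)
      · exact absurd (h5.trans h6.symm) h3
    simp only [h3, if_false]
    rcases h4 with h4 | h4 <;> simp only [h4, if_true] <;> split_ifs <;> omega

include hc hc2 hd in
lemma pathB (l : List (HH R)) {γ a : GG R} (hγ : vx γ = vx a) :
    st c (col t s) (can t s c γ a) (tl a l) = can t s c (lg γ a l) (en a l) ∧
    pot t c d γ a + cnt (fun x y => vx y = c ∧ side t y ≠ side t x) a l - 2 * (tl a l).count d ≤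
      sc c (col t s) (can t s c γ a) (tl a l) + pot t c d (lg γ a l) (en a l) := by
  induction l generalizing γ a with
  | nil => simp [st, sc, tl, lg, en, cnt]
  | cons k l ih =>
    obtain ⟨h1, h2⟩ := stepB hc hc2 hd hγ k
    obtain ⟨h3, h4⟩ := ih (γ := a * gg) (a := a * gg * th k) (by simp)
    simp only [st, sc, tl, lg, en, cnt, h1, h3, true_and, List.count_cons, beq_iff_eq]
    rw [pot] at h4
    push_cast
    split_ifs at h2 h4 ⊢ <;> omega

lemma lg_ne (γ γ' a : GG R) {l : List (HH R)} (h : l ≠ []) : lg γ a l = lg γ' a l := by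
  cases l with
  | nil => exact absurd rfl h
  | cons k l => rfl

include hc hc2 hd in
lemma loopB {l : List (HH R)} {a : GG R} (ha : en a l = a) (hn : nn (tl a l) ≠ 0) :
    cnt (fun x y => vx y = c ∧ side t y ≠ side t x) a l ≤ 2 * (tl a l).count d := by
  by_cases hl : l = []
  · simp [hl, cnt]
  obtain ⟨h1, h2⟩ := pathB hc hc2 hd l (γ := lg a a l) (a := a) ((vx_lg rfl l).trans (by rw [ha]))
  rw [lg_ne (lg a a l) a a hl, ha] at h1 h2
  by_contra h
  have h3 : 0 < sc c (col t s) (can t s c (lg a a l) a) (tl a l) := by omega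
  exact hn (sep c _ _ _ h1 h3)

end B

lemma cnt_le_count (P : GG R → GG R → Prop) (c : VX R) (a : GG R) (l : List (HH R)) :
    cnt (fun x y => vx y = c ∧ P x y) a l ≤ (tl a l).count c := by
  induction l generalizing a with
  | nil => simp [cnt]
  | cons k l ih =>
    have := ih (a * gg * th k)
    simp only [cnt, tl, List.count_cons, beq_iff_eq]
    push_cast
    split_ifs with h1 h2
    · omega
    · exact absurd h1.1 h2
    · omega
    · omega

lemma corner_le (t : GG R × R) (i f : ZMod 3) {l : List (HH R)} {a : GG R} (ha : en a l = a)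
    (hn : nn (tl a l) ≠ 0) : cnt (fun x y => vx y = VV t (i + 1) ∧ side t y ≠ side t x) a l ≤
      2 * (tl a l).count (VV t f) := by
  have z1 : ∀ i : ZMod 3, i + 1 ≠ i := by decide
  have z2 : ∀ i j : ZMod 3, i = j ∧ i + 1 = j + 1 ∨ i = j + 1 ∧ i + 1 = j → i = j := by decide
  have z3 : ∀ i j : ZMod 3, i + 1 = j ∧ i = j + 1 ∨ i + 1 = j + 1 ∧ i = j → i = j := by decide
  have hf : f = i + 1 ∨ f = i ∨ f = i + 1 + 1 := by revert i f; decide
  rcases hf with rfl | rfl | rfl
  · have := cnt_le_count (fun x y => side t y ≠ side t x) (VV t (i + 1)) a l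
    omega
  · refine loopB (s := f) (s1 := f + 1) (fun x hx => lemS' t f hx) (fun x x' hx h1 h2 => ?_)
      (fun x x' hx h1 h2 => ?_) ha hn
    · obtain ⟨j, h3, h4⟩ := lemS t hx (by rw [h1, h2]; exact z1 _)
      rw [h1, h2] at h4
      rwa [z2 _ _ h4]
    · obtain ⟨j, h3, h4 | h4⟩ := lemS t hx (by rwa [h1])
      · exact Or.inl (by rwa [← h1, h4.1])
      · exact Or.inr (by rwa [← h1, h4.1])
  · refine loopB (s := i + 1) (s1 := i) (fun x hx => (lemS' t i hx).symm)
      (fun x x' hx h1 h2 => ?_) (fun x x' hx h1 h2 => ?_) ha hn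
    · obtain ⟨j, h3, h4⟩ := lemS t hx (by rw [h1, h2]; exact (z1 _).symm)
      rw [h1, h2] at h4
      rwa [z3 _ _ h4]
    · obtain ⟨j, h3, h4 | h4⟩ := lemS t hx (by rwa [h1])
      · exact Or.inr (by rwa [← h1, h4.1])
      · exact Or.inl (by rwa [← h1, h4.1])

lemma cnt_diff (t : GG R × R) (a : GG R) (l : List (HH R)) :
    cnt (fun x y => side t y ≠ side t x) a l ≤
      ∑ i : ZMod 3, cnt (fun x y => vx y = VV t (i + 1) ∧ side t y ≠ side t x) a l := by
  induction l generalizing a with
  | nil => simp [cnt]
  | cons k l ih =>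
    simp only [cnt, Finset.sum_add_distrib]
    refine add_le_add ?_ (ih _)
    split_ifs with h
    · obtain ⟨j, h3, -⟩ := lemS t (vx_th (a * gg) k).symm h
      refine le_trans ?_ (Finset.single_le_sum (fun i _ => ?_) (Finset.mem_univ j))
      · rw [if_pos ⟨by rwa [vx_th], h⟩]
      · split_ifs <;> simp
    · exact Finset.sum_nonneg fun i _ => by split_ifs <;> simp

lemma far_inj (a : GG R) : Function.Injective fun t : GG R × R => VV t (side t a + 1 + 1) := by
  have key : ∀ {t t' : GG R × R} {s'}, VV t (side t a + 1 + 1) = VV t' (side t' a + 1 + 1) →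
      ¬∀ x, side t x = side t a ∨ side t' x = s' := by
    intro t t' s' h hs
    have h1 : ∀ x, vx x = VV t' (side t' a + 1 + 1) → side t' x = s' := fun x hx =>
      (hs x).resolve_left fun e => by
        have := lemS' t _ (hx.trans h.symm)
        rw [e] at this
        revert this
        generalize side t a = u
        revert u
        decide
    have h2 := h1 _ rfl
    have h3 := h1 (t'.1 * PP t'.2 (side t' a + 1) * gg) (by
      have := vx_tri (t'.1 * PP t'.2 (side t' a + 1) * gg) ((t'.2, side t' a + 1), true)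
      simpa [tri] using this)
    rw [side_gg, side_self] at h3
    rw [side_self, ← h3] at h2
    simp at h2
  intro t t' h
  by_contra hne
  obtain ⟨s, s', hs⟩ := nested hne
  rcases hs a with rfl | rfl
  · exact key h hs
  · exact key h.symm fun x => (hs x).symm

lemma exists_cover (a : GG R) (l : List (HH R)) : ∃ T : Finset (GG R × R), ∀ T', T ⊆ T' →
    ((l.map FreeGroup.norm).sum : ℤ) ≤ ∑ t ∈ T', cnt (fun x y => side t y ≠ side t x) a l := by
  induction l generalizing a with
  | nil => exact ⟨∅, by simp [cnt]⟩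
  | cons k l ih =>
    obtain ⟨T1, h1⟩ := ih (a * gg * th k)
    obtain ⟨T2, h2, h3⟩ := exists_tris' k (a * gg)
    refine ⟨T1 ∪ T2, fun T' hT => ?_⟩
    simp only [cnt, Finset.sum_add_distrib, List.map_cons, List.sum_cons, Nat.cast_add]
    refine add_le_add ?_ (h1 T' (Finset.subset_union_left.trans hT))
    refine le_trans ?_ (Finset.sum_le_sum_of_subset_of_nonneg
      (Finset.subset_union_right.trans hT) fun _ _ _ => by split_ifs <;> simp)
    rw [Finset.sum_congr rfl (g := fun _ => 1) fun t ht => by rw [if_pos (h3 t ht)]]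
    simp [h2]

lemma length_tl (a : GG R) (l : List (HH R)) : (tl a l).length = l.length := by
  induction l generalizing a <;> simp_all [tl]

theorem loop_bound {l : List (HH R)} {a : GG R} (ha : en a l = a) (hn : nn (tl a l) ≠ 0) :
    (l.map FreeGroup.norm).sum ≤ 6 * l.length := by
  obtain ⟨T, hT⟩ := exists_cover a l
  have h1 := hT T subset_rfl
  have h2 : ∑ t ∈ T, cnt (fun x y => side t y ≠ side t x) a l ≤
      ∑ t ∈ T, 6 * (((tl a l).count (VV t (side t a + 1 + 1)) : ℕ) : ℤ) := by
    refine Finset.sum_le_sum fun t _ => (cnt_diff t a l).trans ?_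
    refine (Finset.sum_le_sum fun i _ => corner_le t i (side t a + 1 + 1) ha hn).trans ?_
    simp only [Finset.sum_const, Finset.card_univ, ZMod.card, nsmul_eq_mul]
    omega
  have h3 : ∑ t ∈ T, (tl a l).count (VV t (side t a + 1 + 1)) ≤ l.length := by
    rw [← Finset.sum_image (f := fun v => (tl a l).count v) (far_inj a).injOn, ← length_tl a l]
    have := Multiset.sum_count_eq_card (m := (tl a l : Multiset (VX R)))
      (s := T.image (fun t : GG R × R => VV t (side t a + 1 + 1)) ∪ (tl a l).toFinset)
      (fun x hx => Finset.mem_union_right _ (by simpa using hx))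
    simp only [Multiset.coe_count, Multiset.coe_card] at this
    rw [← this]
    exact Finset.sum_le_sum_of_subset Finset.subset_union_left
  rw [← Finset.mul_sum, ← Nat.cast_sum] at h2
  omega

end

end Vale.Agent.P087
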