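import Vale.Agent.P087.GoodB

open scoped Classical InnerProductSpace ComplexConjugate
open FreeGroup hiding map_mul map_one map_inv

namespace Vale.Agent.P087

open Vale.Agent.P086 Vale.Agent.P086.W

noncomputable section

/-- index set of the tuple -/
abbrev IX (R : Type) := Option (Lb R × Bool)

/-- colours of the semicircular variables -/
abbrev JJ (R : Type) := (Lb R ⊕ IX R) ⊕ IX R

variable {R : Type}

/-- real or imaginary direction -/
def om (k : Bool) : ℂ := if k then Complex.I else 1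

/-- size of the radial perturbation -/
def sg (l : Lb R) : ℂ := if l.2 = 2 then 0 else 1 / 32

/-- size of the initial noise -/
def am (ε τ : ℝ) : IX R → ℝ
  | none => ε * τ
  | some _ => τ

/-- main part of the tuple in any algebra -/
def XH {A : Type} [Ring A] [Algebra ℂ A] (ε : ℝ) (U : GG R → A) (Z : Lb R → A) : IX R → A
  | none => (ε : ℂ) • U gg
  | some (l, k) => (1 / 2 : ℂ) • (conj (om k) • (U (bb l) * (1 + sg l • Z l)) +
      om k • ((1 + sg l • Z l) * U (bb l)⁻¹))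

/-- the tuple -/
def XX (ε τ : ℝ) (j : IX R) : KK R (JJ R) →L[ℂ] KK R (JJ R) :=
  XH ε Lam (fun l => ZL (.inl (.inl l))) j + (am ε τ j : ℂ) • ZL (.inl (.inr j))

/-- the semicircular family -/
def SS (j : IX R) : KK R (JJ R) →L[ℂ] KK R (JJ R) := ZL (.inr j)

lemma conj_sg (l : Lb R) : conj (sg l) = sg l := by
  unfold sg; split_ifs <;> simp [map_ofNat]

lemma star_XX (ε τ : ℝ) (j : IX R) : star (XX ε τ j) = XX ε τ j := by
  rcases j with _ | ⟨l, k⟩
  · simp [XX, XH, star_Lam, star_ZL]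
  · simp only [XX, XH, star_add, star_smul, star_mul, star_Lam, star_ZL, star_one, inv_inv,
      RCLike.star_def, conj_sg, Complex.conj_conj, Complex.conj_ofReal, map_div₀, map_one,
      map_ofNat]
    rw [add_comm (om k • _)]

/-- the induced derivation -/
def DX (ε τ : ℝ) (r : ℂ) (D : (Lb R × Bool) ⊕ JJ R → KK R (JJ R) →L[ℂ] KK R (JJ R)) :
    IX R → KK R (JJ R) →L[ℂ] KK R (JJ R)
  | none => r • D (.inr (.inr none)) + ((ε * τ : ℝ) : ℂ) • D (.inr (.inl (.inr none)))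
  | some (l, k) => (1 / 2 : ℂ) • (conj (om k) • (Lam (bb l) * (sg l • D (.inr (.inl (.inl l)))) +
        D (.inl (l, true)) * (1 + sg l • ZL (.inl (.inl l)))) +
      om k • ((1 + sg l • ZL (.inl (.inl l))) * D (.inl (l, false)) +
        (sg l • D (.inr (.inl (.inl l)))) * Lam (bb l)⁻¹)) +
      (τ : ℂ) • D (.inr (.inl (.inr (some (l, k))))) + r • D (.inr (.inr (some (l, k))))

lemma good_X {ε τ : ℝ} {r : ℂ} (hr : r ≠ 0) {D ξ}
    (h : Good (Om (GG R) (JJ R)) (opL (.inr none) (ε / r)) D ξ) :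
    Good (Om (GG R) (JJ R)) (fun j => XX ε τ j + r • SS j) (DX ε τ r D) ξ := by
  obtain ⟨N, h1, h2, h3⟩ := h
  refine ⟨N, h1, h2, ?_⟩
  have hz : ∀ j, j ≠ .inr none → Adm N (ZL j) (D (.inr j)) := fun j hj => by
    simpa [opL, wj, hj] using h3 (.inr j)
  rintro (_ | ⟨l, k⟩)
  · convert ((h3 (.inr (.inr none))).smul r).add
      ((hz (.inl (.inr none)) (by simp)).smul ((ε * τ : ℝ) : ℂ)) using 1
    · simp only [XX, XH, SS, am, opL, wj, if_true, smul_add, smul_smul, mul_div_cancel₀ _ hr]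
      abel
    · rfl
  · have a1 : Adm N (Lam (bb l)) (D (.inl (l, true))) := by
      simpa [opL, mk_letter, th] using h3 (.inl (l, true))
    have a2 : Adm N (Lam (bb l)⁻¹) (D (.inl (l, false))) := by
      simpa [opL, mk_letter, th] using h3 (.inl (l, false))
    have a3 := Adm.one.add ((hz (.inl (.inl l)) (by simp)).smul (sg l))
    rw [zero_add] at a3
    exact ((((((a1.mul a3).smul _).add ((a3.mul a2).smul _)).smul _).add
      ((hz _ (by simp)).smul _)).add ((hz _ (by simp)).smul _))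

/-- existence of an implementing vector with a norm bound -/
def GB {Λ K : Type} [NormedAddCommGroup K] [InnerProductSpace ℂ K] (Ω : K)
    (T D : Λ → K →L[ℂ] K) (c : ℝ) : Prop := ∃ ξ, ‖ξ‖ ≤ c ∧ Good Ω T D ξ

lemma GB.comb {Λ K : Type} [NormedAddCommGroup K] [InnerProductSpace ℂ K] {Ω : K}
    {T D D' : Λ → K →L[ℂ] K} {c c' : ℝ} (h : GB Ω T D c) (h' : GB Ω T D' c') (a : ℂ) {m : ℝ}
    (ha : ‖a‖ ≤ m) : GB Ω T (fun x => D x + a • D' x) (c + m * c') := by
  obtain ⟨ξ, h1, h2⟩ := h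
  obtain ⟨ξ', h1', h2'⟩ := h'
  refine ⟨_, (norm_add_le _ _).trans (add_le_add h1 ?_), h2.comb h2' a⟩
  rw [norm_smul, Complex.norm_conj]
  exact mul_le_mul ha h1' (norm_nonneg _) ((norm_nonneg _).trans ha)

lemma GB.zero {Λ K : Type} [NormedAddCommGroup K] [InnerProductSpace ℂ K] [CompleteSpace K] {Ω : K}
    {T : Λ → K →L[ℂ] K} : GB Ω T (fun _ => 0) 0 := ⟨0, by simp, Good.zero⟩

lemma GB.smul {Λ K : Type} [NormedAddCommGroup K] [InnerProductSpace ℂ K] [CompleteSpace K] {Ω : K}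
    {T D' : Λ → K →L[ℂ] K} {c' : ℝ} (h' : GB Ω T D' c') (a : ℂ) {m : ℝ}
    (ha : ‖a‖ ≤ m) : GB Ω T (fun x => a • D' x) (m * c') := by
  simpa only [zero_add] using GB.zero.comb h' a ha

lemma GB.mono {Λ K : Type} [NormedAddCommGroup K] [InnerProductSpace ℂ K] {Ω : K}
    {T D : Λ → K →L[ℂ] K} {c c' : ℝ} (h : GB Ω T D c) (hc : c ≤ c') : GB Ω T D c' := by
  obtain ⟨ξ, h1, h2⟩ := h
  exact ⟨ξ, h1.trans hc, h2⟩

lemma GB_sL {J : Type} (j0 : J) (ε : ℂ) (i k : J) (u v : GG R) :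
    GB (Om (GG R) J) (opL j0 ε) (DZ i (ro (ZL k (dl u)) (dl v))) 2 := good_sL j0 ε u v

lemma GB_sR {J : Type} (j0 : J) (ε : ℂ) (i k : J) (h : k ≠ i) (u v : GG R) :
    GB (Om (GG R) J) (opL j0 ε) (DZ i (ro (dl u) (ZL k (dl v)))) 2 := good_sR j0 ε h u v

lemma GB_DL0 [Fintype R] {J : Type} (j0 : J) {ε : ℂ} (hε : ‖ε‖ ≤ (16 * La R ^ 14)⁻¹) (b : Lb R)
    (u v : HH R) (hu : u.norm ≤ 1) (hv : v.norm ≤ 1) :
    GB (Om (GG R) J) (opL j0 ε) (DL b u v) (2 * La R ^ 2) := good_DL j0 ε b hu hv hε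

lemma GB_grp {J : Type} (j0 : J) (ε : ℂ) (i : J) (u v : GG R) :
    GB (Om (GG R) J) (opL j0 ε) (DZ i (ro (dl u) (dl v))) 1 :=
  ⟨_, (norm_eb _).le, good_grp j0 ε i u v⟩

/-- target derivation -/
def tg (j : IX R) (i : IX R) : KK R (JJ R) →L[ℂ] KK R (JJ R) :=
  if i = j then ro (Om _ _) (Om _ _) else 0

lemma GB.toX {ε τ : ℝ} {r : ℂ} (hr : r ≠ 0) {D c c'} {j : IX R}
    (h : GB (Om (GG R) (JJ R)) (opL (.inr none) (ε / r)) D c) (hD : DX ε τ r D = tg j)
    (hc : c ≤ c') : GB (Om (GG R) (JJ R)) (fun j => XX ε τ j + r • SS j) (tg j) c' := by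
  obtain ⟨ξ, h1, h2⟩ := h
  exact ⟨ξ, h1.trans hc, hD ▸ good_X hr h2⟩

lemma crude_ini {ε τ : ℝ} {r : ℂ} (hr : r ≠ 0) (j : IX R) (ha : 0 < am ε τ j) :
    GB (Om (GG R) (JJ R)) (fun j => XX ε τ j + r • SS j) (tg j) (am ε τ j)⁻¹ := by
  refine (GB.zero.comb (GB_grp _ _ (.inl (.inr j)) 1 1) (am ε τ j : ℂ)⁻¹ (m := (am ε τ j)⁻¹)
    (by simp [abs_of_pos ha])).toX hr ?_ (by simp)
  have h0 : (am ε τ j : ℂ) ≠ 0 := by exact_mod_cast ha.ne'
  funext i
  by_cases e : i = j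
  · subst e
    rcases i with _ | ⟨l, k⟩ <;> simp only [am] at h0 <;>
      simp [DX, DZ, tg, dl_one, am, smul_smul, -Complex.ofReal_mul, mul_inv_cancel₀ h0]
  · rcases i with _ | ⟨l, k⟩ <;> simp [DX, DZ, tg, e]

lemma crude_fl {ε τ : ℝ} {r : ℂ} (hr : r ≠ 0) (j : IX R) :
    GB (Om (GG R) (JJ R)) (fun j => XX ε τ j + r • SS j) (tg j) ‖r‖⁻¹ := by
  refine (GB.zero.comb (GB_grp _ _ (.inr j) 1 1) r⁻¹ (m := ‖r‖⁻¹) (by simp)).toX hr ?_ (by simp)
  funext i
  by_cases e : i = j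
  · subst e
    rcases i with _ | ⟨l, k⟩ <;> simp [DX, DZ, tg, dl_one, smul_smul, mul_inv_cancel₀ hr]
  · rcases i with _ | ⟨l, k⟩ <;> simp [DX, DZ, tg, e]

lemma norm_om (k : Bool) : ‖om k‖ = 1 := by cases k <;> simp [om]

lemma GB_DL [Fintype R] {ε : ℂ} (hε : ‖ε‖ ≤ (16 * La R ^ 14)⁻¹) (l : Lb R) (k : Bool) :
    GB (Om (GG R) (JJ R)) (opL (.inr none) ε)
      (fun x => (om k / 2) • DL l 1 1 x + (-conj (om k) / 2) • DL l (of l) (of l)⁻¹ x)
      (2 * La R ^ 2) := by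
  have a1 := (GB_DL0 (.inr none : JJ R) hε l 1 1 (by simp) (by simp)).smul (om k / 2) (m := 1 / 2)
    (by simp [norm_om])
  have a2 := GB_DL0 (.inr none : JJ R) hε l (of l) (of l)⁻¹ (by simp) (by simp)
  have a3 := a1.comb a2 (-conj (om k) / 2) (m := 1 / 2) (by simp [norm_om])
  exact a3.mono (le_of_eq (by ring))

lemma th_of (l : Lb R) : th (of l) = bb l := by simp [th]

lemma main_free [Fintype R] {ε τ : ℝ} {r : ℂ} (hr : r ≠ 0)
    (hε : ‖ε / r‖ ≤ (16 * La R ^ 14)⁻¹) (l : Lb R) (k : Bool) (hl : l.2 ≠ 2) :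
    GB (Om (GG R) (JJ R)) (fun j => XX ε τ j + r • SS j) (tg (some (l, k)))
      (2 * La R ^ 2 + 32 + ‖r‖⁻¹ / 8) := by
  have n1 : ∀ a b : Bool, ‖conj (om a) * om b / (128 * r)‖ ≤ ‖r‖⁻¹ / 128 := fun a b => by
    simp [norm_om]; exact le_of_eq (by ring)
  have n2 : ∀ a b : Bool, ‖conj (om a) * conj (om b) / (128 * r)‖ ≤ ‖r‖⁻¹ / 128 := fun a b => by
    simp [norm_om]; exact le_of_eq (by ring)
  have n3 : ∀ a b : Bool, ‖om a * om b / (128 * r)‖ ≤ ‖r‖⁻¹ / 128 := fun a b => by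
    simp [norm_om]; exact le_of_eq (by ring)
  have step : ∀ (k' : Bool) {D c}, GB (Om (GG R) (JJ R)) (opL (.inr none) (ε / r)) D c →
      GB (Om (GG R) (JJ R)) (opL (.inr none) (ε / r)) (fun x => D x +
        (-(conj (om k') * om k / (128 * r))) • DZ (.inr (some (l, k')))
          (ro (dl 1) (ZL (.inl (.inl l)) (dl 1))) x +
        (conj (om k') * conj (om k) / (128 * r)) • DZ (.inr (some (l, k')))
          (ro (dl (bb l)) (ZL (.inl (.inl l)) (dl (bb l)⁻¹))) x +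
        (om k' * om k / (128 * r)) • DZ (.inr (some (l, k')))
          (ro (ZL (.inl (.inl l)) (dl (bb l)⁻¹)) (dl (bb l))) x +
        (-(conj (om k) * om k' / (128 * r))) • DZ (.inr (some (l, k')))
          (ro (ZL (.inl (.inl l)) (dl 1)) (dl 1)) x) (c + ‖r‖⁻¹ / 16) := by
    intro k' D c h
    exact ((((h.comb (GB_sR _ _ _ _ (by simp) 1 1) _ ((norm_neg _).trans_le (n1 k' k))).comb
      (GB_sR _ _ _ _ (by simp) (bb l) (bb l)⁻¹) _ (n2 k' k)).comb
      (GB_sL _ _ _ _ (bb l)⁻¹ (bb l)) _ (n3 k' k)).comb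
      (GB_sL _ _ _ _ 1 1) _ ((norm_neg _).trans_le (n1 k k'))).mono (le_of_eq (by ring))
  have h0 := ((GB_DL hε l k).comb (GB_grp _ _ (.inl (.inl l)) (bb l)⁻¹ 1) (16 * om k) (m := 16)
    (by simp [norm_om])).comb (GB_grp _ _ (.inl (.inl l)) 1 (bb l)⁻¹) (16 * conj (om k)) (m := 16)
    (by simp [norm_om])
  refine (step true (step false h0)).toX hr ?_ (le_of_eq (by ring))
  funext i
  rcases i with _ | ⟨l', k'⟩
  · simp [DX, DZ, DL, tg]
  by_cases e : l' = l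
  · subst e
    simp only [DX, DZ, DL, tg, sg, if_neg hl, if_true, reduceCtorEq, if_false, Sum.inr.injEq,
      Option.some.injEq, Prod.mk.injEq, true_and, smul_zero, add_zero, zero_add, map_one, map_mul,
      map_inv, th_of, mul_one, mul_add, add_mul, mul_smul_comm, smul_mul_assoc, mul_ro, ro_mul,
      star_Lam, star_ZL, Lam_dl, mul_inv_cancel, inv_mul_cancel, inv_inv, one_mul, mul_neg,
      ← dl_one, Sum.inl.injEq]
    cases k <;> cases k' <;> simp only [om, reduceCtorEq, if_true, if_false, map_one,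
      Complex.conj_I, smul_zero] <;> match_scalars <;> field_simp <;> ring_nf <;> simp
  · simp [DX, DZ, DL, tg, e]

lemma main_det [Fintype R] {ε τ : ℝ} {r : ℂ} (hr : r ≠ 0)
    (hε : ‖ε / r‖ ≤ (16 * La R ^ 14)⁻¹) (l : Lb R) (k : Bool) (hl : l.2 = 2) :
    GB (Om (GG R) (JJ R)) (fun j => XX ε τ j + r • SS j) (tg (some (l, k)))
      (2 * La R ^ 2 + 32 + ‖r‖⁻¹ * (5 / 7 : ℝ)) := by
  let u : Fin 3 → GG R := ![1, bb l, (bb l)⁻¹]
  let c : Bool × Fin 3 → ℂ := fun x => ![conj (om x.1) * om k + om x.1 * conj (om k),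
    conj (om x.1) * conj (om k), om x.1 * om k] x.2 / 4
  have h1 := Good.sum Finset.univ c fun x : Bool × Fin 3 =>
    good_grp (.inr none : JJ R) (ε / r) (.inr (some (l, x.1))) (u x.2) (u x.2)⁻¹
  have hu : Function.Injective u := by
    have a1 : bb l ≠ 1 := by rw [← th_of, Ne, map_eq_one_iff _ th_inj]; simp
    have a2 : (bb l)⁻¹ ≠ bb l := by
      rw [← th_of, ← map_inv, th_inj.ne_iff]
      intro e
      simpa using congrArg hd e
    intro a b h
    fin_cases a <;> fin_cases b <;> simp_all [u, eq_comm]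
  have ho : Orthonormal ℂ fun x : Bool × Fin 3 =>
      (eb (cons (u x.2)⁻¹ (.inr (some (l, x.1))) (one (u x.2)⁻¹)) : KK R (JJ R)) :=
    eb.orthonormal.comp _ fun x y h => by
      simp only [cons.injEq, inv_inj, Sum.inr.injEq, Option.some.injEq, Prod.mk.injEq] at h
      exact Prod.ext h.2.1.2 (hu h.1)
  have h2 := ho.inner_sum (fun x => conj (c x)) (fun x => conj (c x)) Finset.univ
  have h3 : ∑ x, conj (conj (c x)) * conj (c x) = 1 / 2 := by
    cases k <;> simp [c, Fintype.sum_prod_type, Fin.sum_univ_three, om, map_ofNat] <;> ring_nf <;>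
      simp <;> norm_num
  rw [h3, inner_self_eq_norm_sq_to_K] at h2
  have h4 : GB (Om (GG R) (JJ R)) (opL (.inr none) (ε / r)) _ (5 / 7) := ⟨_, by
    have := congrArg Complex.re h2
    simp only [Complex.coe_algebraMap, ← Complex.ofReal_pow, Complex.ofReal_re] at this
    refine le_of_sq_le_sq ?_ (by norm_num)
    rw [this]
    norm_num, h1⟩
  refine ((GB_DL hε l k).comb h4 r⁻¹ (m := ‖r‖⁻¹) (by simp)).toX hr ?_ (by linarith)
  funext i
  rcases i with _ | ⟨l', k'⟩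
  · simp [DX, DZ, DL, tg]
  by_cases e : l' = l
  · subst e
    simp only [DX, DZ, DL, tg, sg, if_pos hl, if_true, reduceCtorEq, if_false, Sum.inr.injEq,
      Option.some.injEq, Prod.mk.injEq, true_and, smul_zero, add_zero, zero_add, map_one, map_mul,
      map_inv, th_of, mul_one, zero_smul, mul_zero, zero_mul,
      mul_inv_cancel, inv_mul_cancel, inv_inv, one_mul, Finset.sum_const_zero,
      ← dl_one, Fintype.sum_prod_type, Fin.sum_univ_three, Fintype.sum_bool, c, u]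
    cases k <;> cases k' <;> simp [om] <;> match_scalars <;> field_simp <;> ring_nf <;> simp <;>
      norm_num
  · simp [DX, DZ, DL, tg, e]

end

end Vale.Agent.P087
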