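import Vale.Agent.P087.Geo

open Filter
open scoped Classical

namespace Vale.Agent.P087

/-- The ball of radius `ρ` in a free group. -/
abbrev Ball (S : Type) [DecidableEq S] (ρ : ℕ) : Type := {w : FreeGroup S // w.norm ≤ ρ}

lemma finite_ball (S : Type) [DecidableEq S] [Finite S] (ρ : ℕ) : Finite (Ball S ρ) := by
  have h : ({l : List (S × Bool) | l.length ≤ ρ}).Finite := List.finite_length_le _ _
  have h2 : ({w : FreeGroup S | w.norm ≤ ρ}).Finite := by
    refine (h.image FreeGroup.mk).subset fun w hw => ⟨w.toWord, hw, FreeGroup.mk_toWord⟩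
  exact h2.to_subtype

theorem exists_quot (S : Type) [DecidableEq S] [Finite S] (ρ : ℕ) :
    ∃ π : FreeGroup S →* Equiv.Perm (Ball S ρ), ∀ w : FreeGroup S, w.norm ≤ ρ → π w = 1 → w = 1 := by
  have := finite_ball S ρ
  have hs : ∀ s : S, ∃ σ : Equiv.Perm (Ball S ρ), ∀ (w : Ball S ρ)
      (h : (FreeGroup.of s * w.1).norm ≤ ρ), σ w = ⟨FreeGroup.of s * w.1, h⟩ := by
    intro s
    obtain ⟨σ, hσ⟩ := Equiv.Perm.exists_extending_pair
      (α := {w : Ball S ρ // (FreeGroup.of s * w.1).norm ≤ ρ}) (β := Ball S ρ)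
      (f := fun w => w.1) (g := fun w => ⟨FreeGroup.of s * w.1.1, w.2⟩)
      Subtype.val_injective (fun a b h => by
        apply Subtype.ext; apply Subtype.ext
        simpa using h)
    exact ⟨σ, fun w h => hσ ⟨w, h⟩⟩
  choose σ hσ using hs
  let o : Ball S ρ := ⟨1, by simp⟩
  have key : ∀ l : List (S × Bool), l.length ≤ ρ →
      ((FreeGroup.lift σ (FreeGroup.mk l)) o).1 = FreeGroup.mk l := by
    intro l
    induction l with
    | nil => intro _; rw [← FreeGroup.one_eq_mk]; simp [o]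
    | cons a l ih =>
      intro hl
      have hl' : l.length ≤ ρ := by simp at hl; omega
      have hn : (FreeGroup.mk (a :: l)).norm ≤ ρ := FreeGroup.norm_mk_le.trans hl
      have hmul : FreeGroup.mk (a :: l) = FreeGroup.mk [a] * FreeGroup.mk l := by
        rw [FreeGroup.mul_mk]; rfl
      have hn' : (FreeGroup.mk l).norm ≤ ρ := FreeGroup.norm_mk_le.trans hl'
      have ih' : (FreeGroup.lift σ (FreeGroup.mk l)) o = ⟨FreeGroup.mk l, hn'⟩ :=
        Subtype.ext (ih hl')
      rw [hmul, map_mul, Equiv.Perm.mul_apply, ih']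
      obtain ⟨s, b⟩ := a
      cases b
      · have e1 : FreeGroup.mk [(s, false)] = (FreeGroup.of s)⁻¹ := rfl
        rw [hmul, e1] at hn
        rw [e1, map_inv, FreeGroup.lift_apply_of]
        have := hσ s ⟨_, hn⟩ (by simpa using hn')
        have h3 : (σ s)⁻¹ ⟨FreeGroup.mk l, hn'⟩ = ⟨_, hn⟩ := by
          rw [Equiv.Perm.inv_eq_iff_eq, this]
          apply Subtype.ext
          simp
        rw [h3]
      · have e1 : FreeGroup.mk [(s, true)] = FreeGroup.of s := rfl
        rw [hmul, e1] at hn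
        rw [e1, FreeGroup.lift_apply_of, hσ s ⟨_, hn'⟩ hn]
  refine ⟨FreeGroup.lift σ, fun w hw h => ?_⟩
  have h1 := key w.toWord hw
  rw [FreeGroup.mk_toWord, h] at h1
  exact h1.symm

theorem exists_perm (R : Type) [Finite R] (l : ℕ) : ∃ k, l < k ∧ ∃ π : GG R →* Equiv.Perm (Fin k),
    ∀ g : GG R, g ≠ 1 → g.left.norm ≤ l → ∀ i, π g i ≠ i := by
  obtain ⟨q, hq⟩ := exists_quot ((R × Bool) × Bool) l
  have := finite_ball ((R × Bool) × Bool) l
  let X := (Equiv.Perm Bool → Equiv.Perm (Ball ((R × Bool) × Bool) l)) × Equiv.Perm Bool × Fin (l + 1)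
  let : MulAction (GG R) X :=
    { smul := fun g x => (fun a => q (phi R a⁻¹ g.left) * x.1 (g.right⁻¹ * a), g.right * x.2.1, x.2.2)
      one_smul := fun x => by
        show (fun a => _, _, _) = _
        simp
      mul_smul := fun g h x => by
        show (fun a => _, _, _) = (fun a => _ * (_ * _), _ * (_ * _), _)
        simp [mul_assoc]
        rfl }
  let e := Finite.equivFin X
  refine ⟨Nat.card X, ?_, e.permCongrHom.toMonoidHom.comp (MulAction.toPermHom (GG R) X), ?_⟩
  · have := Nat.card_le_card_of_surjective (fun x : X => x.2.2) fun i => ⟨(1, 1, i), rfl⟩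
    simpa using this
  intro g hg hn i hi
  have h1 : g • e.symm i = e.symm i := by
    apply e.injective
    simpa using hi
  have h2 : g.right * (e.symm i).2.1 = (e.symm i).2.1 := congrArg (fun x : X => x.2.1) h1
  have h3 : q (phi R 1⁻¹ g.left) * (e.symm i).1 (g.right⁻¹ * 1) = (e.symm i).1 1 :=
    congrArg (fun x : X => x.1 1) h1
  rw [mul_eq_right] at h2
  simp only [h2, inv_one, mul_one, map_one, mul_eq_right, MulAut.one_apply] at h3
  exact hg (SemidirectProduct.ext (hq _ hn h3) h2)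

open scoped Matrix.Norms.L2Operator in
theorem exists_model (R : Type) [Finite R] : ∃ (k : ℕ → ℕ)
    (U : ∀ l, GG R →* Matrix (Fin (k l)) (Fin (k l)) ℂ), (∀ l, l < k l) ∧
    (∀ l g, star (U l g) = U l g⁻¹) ∧ (∀ l g, ‖U l g‖ ≤ 1) ∧
    ∀ g, g ≠ 1 → ∀ᶠ l in atTop, (U l g).trace = 0 := by
  choose k h1 π h2 using exists_perm R
  refine ⟨k, fun l => Matrix.permMatrixHom.comp (π l), h1, fun l g => ?_,
    fun l g => Matrix.permMatrix_l2_opNorm_le _, fun g hg => ?_⟩
  · simp [Matrix.star_eq_conjTranspose]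
  filter_upwards [eventually_ge_atTop g⁻¹.left.norm] with l hl
  have : Function.fixedPoints (π l g⁻¹) = ∅ :=
    Set.eq_empty_of_forall_notMem (h2 l g⁻¹ (inv_ne_one.2 hg) hl)
  simp only [MonoidHom.comp_apply, Matrix.permMatrixHom_apply, Matrix.trace_permutation, ← map_inv,
    this]
  simp

end Vale.Agent.P087
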