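import Vale.Agent.P087.Tail
import Vale.Agent.P087.Perm
import Vale.Agent.P087.Model

open MeasureTheory ProbabilityTheory Filter Topology
open scoped Classical ComplexConjugate InnerProductSpace Matrix.Norms.L2Operator ENNReal

namespace Vale.Agent.P087

open Vale.Agent.P086

noncomputable section

lemma gam_le (I : Type) [Fintype I] (s : Set (I → ℝ)) : gam I s ≤ volume s := by
  have h : gaussianReal 0 1 ≤ volume := by
    rw [gaussianReal_of_var_ne_zero _ one_ne_zero]
    refine (withDensity_mono (ae_of_all _ fun x => ?_)).trans_eq withDensity_one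
    rw [gaussianPDF, Pi.one_apply, ENNReal.ofReal_le_one, gaussianPDFReal]
    refine mul_le_one₀ (inv_le_one_of_one_le₀ (Real.one_le_sqrt.2 ?_)) (by positivity) ?_
    · simp only [NNReal.coe_one]; linarith [Real.pi_gt_three]
    · exact Real.exp_le_one_iff.2 (div_nonpos_of_nonpos_of_nonneg (by simp [sq_nonneg]) (by simp))
  refine Measure.le_iff'.1 (Measure.le_iff.2 fun s hs => ?_) s
  rw [volume_pi, gam, Measure.pi_def, Measure.pi_def, toMeasure_apply _ _ hs, toMeasure_apply _ _ hs]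
  refine OuterMeasure.le_pi.2 (fun t _ => (OuterMeasure.pi_pi_le _ _).trans ?_) s
  exact Finset.prod_le_prod' fun i _ => h _

lemma vol_lower {I I1 I2 : Type} [Fintype I] [Fintype I1] [Fintype I2] (e : I1 ⊕ I2 ≃ I)
    (S : Set (I2 → ℝ)) (c : (I1 → ℝ) → I2 → ℝ) {d : I2 → ℝ} (hd : ∀ i, 0 < d i)
    (h : (gam I).real {x | ¬ (c (fun a => x (e (.inl a))) + fun i => d i * x (e (.inr i))) ∈ S} <
      1 / 2) : ENNReal.ofReal ((∏ i, d i) / 2) ≤ volume S := by
  have h1 := (measurePreserving_piCongrLeft (fun _ : I => gaussianReal 0 1) e).comp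
    (measurePreserving_sumPiEquivProdPi_symm (X := fun _ : I1 ⊕ I2 => ℝ) fun _ => gaussianReal 0 1)
  let B := {p : (I1 → ℝ) × (I2 → ℝ) | ¬ (c p.1 + fun i => d i * p.2 i) ∈ S}
  have h2 : ((gam I1).prod (gam I2)) B < 1 / 2 := by
    rw [measureReal_def, ← MeasurePreserving.measure_preimage_equiv
      (f := (MeasurableEquiv.sumPiEquivProdPi fun _ : I1 ⊕ I2 => ℝ).symm.trans
        (.piCongrLeft (fun _ : I => ℝ) e)) h1,
      ← ENNReal.lt_ofReal_iff_toReal_lt (measure_ne_top _ _)] at h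
    convert h using 2
    · ext p
      simp [B, MeasurableEquiv.piCongrLeft_apply_apply, MeasurableEquiv.coe_sumPiEquivProdPi_symm]
    · simp [ENNReal.ofReal_inv_of_pos]
  obtain ⟨y, hy⟩ : ∃ y, gam I2 (Prod.mk y ⁻¹' B) < 1 / 2 := by
    by_contra hc
    push Not at hc
    refine h2.not_ge ?_
    rw [← measure_toMeasurable, Measure.prod_apply (measurableSet_toMeasurable _ _)]
    refine le_trans (by simp) (lintegral_mono (g := fun y => _) fun y =>
      (hc y).trans (measure_mono (Set.preimage_mono (subset_toMeasurable _ _))))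
  have h3 : 1 / 2 ≤ gam I2 (Prod.mk y ⁻¹' B)ᶜ := by
    by_contra hc
    have := ((measure_univ_le_add_compl (μ := gam I2) _).trans_lt (ENNReal.add_lt_add hy (not_le.1 hc)))
    simp [ENNReal.inv_two_add_inv_two] at this
  have h4 : (Prod.mk y ⁻¹' B)ᶜ = Matrix.toLin' (Matrix.diagonal d) ⁻¹' ((c y + ·) ⁻¹' S) := by
    ext z
    have : (Matrix.diagonal d).mulVec z = fun i => d i * z i := funext (Matrix.mulVec_diagonal d z)
    simp [B, this]
  have h5 : 0 < ∏ i, d i := Finset.prod_pos fun i _ => hd i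
  have h6 := h3.trans (gam_le _ _)
  rw [h4, Measure.addHaar_preimage_linearMap _ (by simpa using h5.ne'), measure_preimage_add,
    LinearMap.det_toLin', Matrix.det_diagonal, abs_of_pos (inv_pos.2 h5)] at h6
  rw [div_eq_mul_one_div, ENNReal.ofReal_mul h5.le]
  refine (mul_le_mul_right (le_trans (by simp [ENNReal.ofReal_inv_of_pos]) h6) _).trans_eq ?_
  rw [← mul_assoc, ← ENNReal.ofReal_mul h5.le, mul_inv_cancel₀ h5.ne']
  simp

variable {R : Type}

lemma map_XH {A B : Type} [Ring A] [Algebra ℂ A] [Ring B] [Algebra ℂ B] (φ : A →ₐ[ℂ] B) (ε : ℝ)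
    (U : GG R → A) (Z : Lb R → A) (j : IX R) :
    φ (XH ε U Z j) = XH ε (fun g => φ (U g)) (fun l => φ (Z l)) j := by
  rcases j with _ | ⟨l, k⟩ <;> simp [XH, -Complex.coe_smul]

lemma star_XH {A : Type} [Ring A] [Algebra ℂ A] [StarRing A] [StarModule ℂ A] (ε : ℝ)
    {U : GG R → A} {Z : Lb R → A} (hU : ∀ g, star (U g) = U g⁻¹) (hZ : ∀ l, star (Z l) = Z l)
    (j : IX R) : star (XH ε U Z j) = XH ε U Z j := by
  rcases j with _ | ⟨l, k⟩
  · simp [XH, hU]
  · simp only [XH, star_add, star_smul, star_mul, hU, hZ, star_one, inv_inv,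
      RCLike.star_def, conj_sg, Complex.conj_conj, map_div₀, map_one, map_ofNat]
    rw [add_comm (om k • _)]

lemma norm_sg (l : Lb R) : ‖sg l‖ ≤ 1 / 32 := by unfold sg; split_ifs <;> simp

lemma norm_XH {A : Type} [NormedRing A] [NormedAlgebra ℂ A] {ε c : ℝ} (hε : |ε| ≤ 1)
    {U : GG R → A} {Z : Lb R → A} (hU : ∀ g, ‖U g‖ ≤ 1) (h1 : ‖(1 : A)‖ ≤ 1) (hc : 0 ≤ c)
    (hZ : ∀ l, ‖Z l‖ ≤ c) (j : IX R) : ‖XH ε U Z j‖ ≤ 1 + c := by
  rcases j with _ | ⟨l, k⟩
  · rw [XH, norm_smul, Complex.norm_real, Real.norm_eq_abs]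
    linarith [mul_le_one₀ hε (norm_nonneg _) (hU gg)]
  · have a : ‖1 + sg l • Z l‖ ≤ 1 + c := (norm_add_le _ _).trans (add_le_add h1 (by
      rw [norm_smul]; nlinarith [norm_sg l, hZ l, norm_nonneg (Z l), norm_nonneg (sg l)]))
    have b1 := (norm_mul_le (U (bb l)) _).trans (mul_le_mul (hU _) a (norm_nonneg _) zero_le_one)
    have b2 := (norm_mul_le _ (U (bb l)⁻¹)).trans (mul_le_mul a (hU _) (norm_nonneg _) (by linarith))
    rw [XH, norm_smul]
    refine (mul_le_mul_of_nonneg_left (norm_add_le _ _) (norm_nonneg _)).trans ?_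
    simp only [norm_smul, Complex.norm_conj, norm_om, norm_div, norm_one, Complex.norm_ofNat]
    linarith

/-- reordering of the colours -/
def eJ (R K : Type) : (Lb R ⊕ IX R) × K ⊕ IX R × K ≃ JJ R × K where
  toFun := Sum.elim (fun x => (x.1.elim (fun l => .inl (.inl l)) .inr, x.2))
    fun x => (.inl (.inr x.1), x.2)
  invFun x := x.1.elim (Sum.elim (fun l => .inl (.inl l, x.2)) fun j => .inr (j, x.2))
    fun j => .inl (.inr j, x.2)
  left_inv := by rintro (⟨_ | _, _⟩ | _) <;> rfl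
  right_inv := by rintro ⟨(_ | _) | _, _⟩ <;> rfl

theorem chi_gt [Fintype R] {ε τ : ℝ} (h1 : 0 < ε) (h2 : ε ≤ 1) (h3 : 0 < τ) (h4 : τ ≤ 1) :
    ⊥ < chi fun w => tau (Om (GG R) (JJ R)) (mono (XX ε τ) w) := by
  obtain ⟨k, U, hk, hs, hn, h0⟩ := exists_model R
  have ha : ∀ j : IX R, 0 < am ε τ j ∧ am ε τ j ≤ 1 := by
    rintro (_ | _)
    exacts [⟨mul_pos h1 h3, mul_le_one₀ h2 h3.le h4⟩, ⟨h3, h4⟩]
  let XP : IX R → PA (GG R ⊕ JJ R) := fun j =>
    XH ε (fun g => wd [.inl g]) (fun l => wd [.inr (.inl (.inl l))]) j +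
      (am ε τ j : ℂ) • wd [.inr (.inl (.inr j))]
  let c : ∀ l, ((Lb R ⊕ IX R) × Fin (k l) × Fin (k l) → ℝ) → IX R × Fin (k l) × Fin (k l) → ℝ :=
    fun l y i => unherm (XH ε (U l)
      (fun a => (scl (k l) : ℂ) • herm fun p q => y (.inl a, p, q)) i.1) i.2.1 i.2.2
  let Ψ : ∀ l, (JJ R × Fin (k l) × Fin (k l) → ℝ) → IX R × Fin (k l) × Fin (k l) → ℝ := fun l x =>
    c l (fun a => x (eJ R _ (.inl a))) + fun i => am ε τ i.1 * scl (k l) * x (eJ R _ (.inr i))
  have e1 : ∀ j, evA opG (XP j) = XX ε τ j := fun j => by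
    simp [XP, map_XH, XX, opG, -Complex.coe_smul]
  have e2 : ∀ l x j, evA (mat (U l) x) (XP j) = herm fun p q => Ψ l x (j, p, q) := fun l x j => by
    have : (fun p q => Ψ l x (j, p, q)) = unherm (XH ε (U l)
        (fun a => (scl (k l) : ℂ) • herm fun p q => x (.inl (.inl a), p, q)) j) +
        (am ε τ j * scl (k l)) • fun p q => x (.inl (.inr j), p, q) := rfl
    rw [this, herm_add, herm_unherm (star_XH _ (hs l) (fun a => by simp [star_herm]) _), herm_smul]
    simp [XP, map_XH, mat, smul_smul, -Complex.coe_smul]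
  refine lt_of_lt_of_le (EReal.bot_lt_coe (∑ j : IX R, Real.log (am ε τ j) - 1))
    (le_iSup₂_of_le 53 (by norm_num) (le_iInf fun m => le_iInf₂ fun δ hδ => ?_))
  have w1 := (whp_norm (J := JJ R) hk).and (WHP.all (List.finite_length_le (IX R) m) fun w _ =>
    whp_poly hk h0 hs (w.map XP).prod δ hδ)
  have w2 : WHP (JJ R) k fun l x =>
      Ψ l x ∈ Gam (fun w => tau (Om (GG R) (JJ R)) (mono (XX ε τ) w)) 53 m (k l) δ := by
    refine w1.mono fun l x h => ⟨fun j => ?_, fun w _ hw => ?_⟩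
    · rw [← e2]
      have := norm_XH (by rwa [abs_of_pos h1]) (hn l) (by simpa using hn l 1) (by norm_num)
        (fun a => h.1 (.inl (.inl a))) j
      have h5 := mul_le_mul (ha j).2 (h.1 (.inl (.inr j))) (norm_nonneg _) zero_le_one
      simp only [XP, map_add, map_XH, map_smul, evA_wd, List.map_cons, List.map_nil, List.prod_cons,
        List.prod_nil, mul_one, mat]
      rw [opNorm, Matrix.l2_opNorm_toEuclideanCLM]
      refine (norm_add_le _ _).trans ?_
      rw [norm_smul, Complex.norm_real, Real.norm_of_nonneg (ha j).1.le]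
      linarith
    · simpa only [map_list_prod, List.map_map, Function.comp_def, e1, e2, ntr, inv_mul_eq_div, mono]
        using h.2 w hw
  refine le_limsup_of_frequently_le ?_
  refine (tendsto_atTop_mono (fun l => (hk l).le) tendsto_id).frequently (Eventually.frequently ?_)
  filter_upwards [w2.eventually (gt_mem_nhds (show (0 : ℝ) < 1 / 2 by norm_num))] with l hl
  have p0 : (1 : ℝ) ≤ k l := by exact_mod_cast Nat.one_le_of_lt (hk l)
  have p1 : 0 < scl (k l) := inv_pos.2 (Real.sqrt_pos.2 (by linarith))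
  have p2 : ∀ i : IX R × Fin (k l) × Fin (k l), 0 < am ε τ i.1 * scl (k l) := fun i =>
    mul_pos (ha _).1 p1
  have h5 := ENNReal.log_le_log (vol_lower (eJ R _) _ (c l) p2 hl)
  have p3 := Finset.prod_pos fun i (_ : i ∈ Finset.univ) => p2 i
  rw [ENNReal.log_ofReal_of_pos (half_pos p3)] at h5
  refine le_trans ?_ (add_le_add_left (mul_le_mul_of_nonneg_left h5 (by positivity)) _)
  rw [← EReal.coe_mul, ← EReal.coe_add, EReal.coe_le_coe_iff, Real.log_div p3.ne' two_ne_zero,
    Real.log_prod fun i _ => (p2 i).ne']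
  simp only [Real.log_mul (ha _).1.ne' p1.ne', Fintype.sum_prod_type, Finset.sum_const,
    Finset.card_univ, Fintype.card_fin, nsmul_eq_mul, ← Finset.mul_sum, Finset.sum_add_distrib,
    Fintype.card_prod, Nat.cast_mul]
  rw [scl, Real.log_inv, Real.log_sqrt (by linarith)]
  have p4 : ((k l : ℝ) ^ 2)⁻¹ * Real.log 2 ≤ 1 :=
    mul_le_one₀ (inv_le_one_of_one_le₀ (one_le_pow₀ p0)) (Real.log_nonneg one_le_two)
      (by linarith [Real.log_two_lt_d9])
  refine le_of_sub_nonneg (le_trans (sub_nonneg.2 p4) (le_of_eq ?_))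
  field_simp
  ring

end

end Vale.Agent.P087
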