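import Vale.Agent.P087.Defs

open scoped ComplexConjugate
open Matrix

namespace Vale.Agent.P087

noncomputable section

/-- noncommutative polynomials -/
abbrev PA (Λ : Type) := MonoidAlgebra ℂ (FreeMonoid Λ)

variable {Λ A B : Type} [Ring A] [Algebra ℂ A] [Ring B] [Algebra ℂ B]

/-- evaluation -/
def evA (f : Λ → A) : PA Λ →ₐ[ℂ] A := MonoidAlgebra.lift ℂ A _ (FreeMonoid.lift f)

/-- monomials -/
def wd (w : List Λ) : PA Λ := MonoidAlgebra.of ℂ _ (FreeMonoid.ofList w)

@[simp] lemma evA_wd (f : Λ → A) (w : List Λ) : evA f (wd w) = (w.map f).prod := by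
  simp [evA, wd, FreeMonoid.lift_ofList]

lemma PA_ind {p : PA Λ → Prop} (h1 : ∀ w, p (wd w)) (h2 : ∀ x y, p x → p y → p (x + y))
    (h3 : ∀ (c : ℂ) x, p x → p (c • x)) (x : PA Λ) : p x :=
  MonoidAlgebra.induction_on x (fun m => h1 m.toList) h2 h3

variable {k : ℕ}

/-- coordinates of a Hermitian matrix -/
def unherm (F : Matrix (Fin k) (Fin k) ℂ) (p q : Fin k) : ℝ := (F p q).re + (F p q).im

lemma herm_unherm {F : Matrix (Fin k) (Fin k) ℂ} (h : star F = F) : herm (unherm F) = F := by
  ext p q
  have : F q p = conj (F p q) := (congrFun (congrFun h q) p).symm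
  apply Complex.ext <;> simp [herm, unherm, this]
  ring

lemma herm_add (x y : Fin k → Fin k → ℝ) : herm (x + y) = herm x + herm y := by
  ext p q; simp [herm]; ring

lemma herm_sub (x y : Fin k → Fin k → ℝ) : herm (x - y) = herm x - herm y := by
  ext p q; simp [herm]; ring

lemma herm_smul (c : ℝ) (x : Fin k → Fin k → ℝ) : herm (c • x) = (c : ℂ) • herm x := by
  ext p q; simp [herm]; ring

lemma star_herm (x : Fin k → Fin k → ℝ) : star (herm x) = herm x := by
  ext p q
  apply Complex.ext <;> simp [herm] <;> ring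

lemma trace_herm_sq (x : Fin k → Fin k → ℝ) :
    (herm x * herm x).trace = ((∑ p, ∑ q, x p q ^ 2 : ℝ) : ℂ) := by
  have h : ∀ p q, herm x p q * herm x q p = ((x p q ^ 2 / 2 + x q p ^ 2 / 2 : ℝ) : ℂ) := by
    intro p q
    apply Complex.ext <;> simp [herm, sq] <;> ring
  simp only [trace, diag, mul_apply, h, ← Complex.ofReal_sum, Finset.sum_add_distrib]
  rw [Finset.sum_comm (f := fun p q => x q p ^ 2 / 2)]
  simp only [← Finset.sum_add_distrib, add_halves]

lemma cont_herm {X : Type} [TopologicalSpace X] {x : X → Fin k → Fin k → ℝ}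
    (h : ∀ p q, Continuous fun a => x a p q) : Continuous fun a => herm (x a) :=
  continuous_matrix fun p q => by simp only [herm, of_apply]; fun_prop

lemma cont_evA {X : Type} [TopologicalSpace X] {f : X → Λ → Matrix (Fin k) (Fin k) ℂ}
    (h : ∀ a, Continuous fun x => f x a) (P : PA Λ) : Continuous fun x => evA (f x) P := by
  induction P using PA_ind with
  | h1 w => simpa using continuous_list_prod w fun a _ => h a
  | h2 x y h1 h2 => simp only [map_add]; exact h1.add h2
  | h3 c x h1 => simp only [map_smul]; exact h1.const_smul c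

end

end Vale.Agent.P087
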