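import Vale.Agent.P087.Stein
import Vale.Agent.P087.GoodB

open MeasureTheory ProbabilityTheory Filter Topology
open scoped ComplexConjugate InnerProductSpace

namespace Vale.Agent.P087

open Vale.Agent.P086 Vale.Agent.P086.W

noncomputable section

variable {J : Type} [Fintype J] {k : ℕ → ℕ}

variable (J k) in
/-- with high probability -/
def WHP (P : ∀ l, (J × Fin (k l) × Fin (k l) → ℝ) → Prop) : Prop :=
  Tendsto (fun l => (gam _).real {x | ¬ P l x}) atTop (𝓝 0)

variable {P Q : ∀ l, (J × Fin (k l) × Fin (k l) → ℝ) → Prop}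

lemma WHP.mono (h : WHP J k P) (h' : ∀ l x, P l x → Q l x) : WHP J k Q :=
  squeeze_zero (fun _ => measureReal_nonneg)
    (fun l => measureReal_mono fun x hx => mt (h' l x) hx) h

lemma WHP.and (h : WHP J k P) (h' : WHP J k Q) : WHP J k fun l x => P l x ∧ Q l x := by
  refine squeeze_zero (fun _ => measureReal_nonneg) (fun l => ?_) (by simpa using h.add h')
  simp only [not_and_or, Set.ofPred_or]
  exact measureReal_union_le _ _

lemma WHP.all {α : Type} {s : Set α} (hs : s.Finite)
    {P : α → ∀ l, (J × Fin (k l) × Fin (k l) → ℝ) → Prop} (h : ∀ a ∈ s, WHP J k (P a)) :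
    WHP J k fun l x => ∀ a ∈ s, P a l x := by
  induction s, hs using Set.Finite.induction_on with
  | empty => simp [WHP]
  | insert _ _ ih =>
    exact ((h _ (Set.mem_insert _ _)).and (ih fun a ha => h a (Set.mem_insert_of_mem _ ha))).mono
      fun l x hx => by simpa using hx

variable {R : Type}

/-- the limiting operators -/
def opG : GG R ⊕ J → KK R J →L[ℂ] KK R J := Sum.elim Lam ZL

/-- the limiting moments -/
def tt (w : List (GG R ⊕ J)) : ℂ := tau (Om _ _) (mono opG w)

omit [Fintype J] in
lemma mono_mem (w : List (GG R ⊕ J)) : mono opG w ∈ MM (GG R) J := by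
  refine list_prod_mem fun x hx => ?_
  obtain ⟨_ | _, -, rfl⟩ := List.mem_map.1 hx
  exacts [Lam_mem _, ZL_mem _]

omit [Fintype J] in
lemma tt_cyc (u v : List (GG R ⊕ J)) : tt (u ++ v) = tt (v ++ u) := by
  simp only [tt, mono_append]
  exact tracial_MM _ (mono_mem u) _ (mono_mem v)

omit [Fintype J] in
lemma tt_sd [DecidableEq J] (j : J) (w : List (GG R ⊕ J)) :
    tt (.inr j :: w) = ((spl j w).map fun x => tt x.1 * tt x.2).sum := by
  have key : star (Cr j : KK R J →L[ℂ] _) (mono opG w (Om _ _)) =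
      ((spl j w).map fun x => tt x.2 • mono opG x.1 (Om _ _)).sum := by
    induction w with
    | nil => simp [spl, (lift_Cr j).apply_eb, rs]
    | cons a w ih =>
      have h : star (Cr j : KK R J →L[ℂ] _) * opG a = opG a * star (Cr j) +
          if isJ j a then ro (Om _ _) (Om _ _) else 0 := by
        cases a with
        | inl g => simpa [opG, isJ] using Cr_Lam j g
        | inr i => by_cases e : i = j <;> simpa [opG, isJ, e] using Cr_ZL (R := R) j i
      rw [mono_cons, mul_apply_eq_comp, ← mul_apply_eq_comp (star _), h, add_apply,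
        mul_apply_eq_comp, ih, spl, List.map_append, List.sum_append, add_comm, map_list_sum]
      congr 1
      · split_ifs <;> simp [tt, tau]
      · simp [Function.comp_def, mul_apply_eq_comp]
  have h1 : (ZL j : KK R J →L[ℂ] _) (Om _ _) = Cr j (Om _ _) := by rw [ZL_Om, Cr_eb]; rfl
  rw [tt, tau, mono_cons, mul_apply_eq_comp, ← inner_star_left, opG, Sum.elim_inr, star_ZL, h1,
    ← inner_star_right, ← opG, key, ← innerSL_apply_apply ℂ, map_list_sum]
  simp only [List.map_map, Function.comp_def, innerSL_apply_apply, inner_smul_right]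
  exact congrArg _ (List.map_congr_left fun x _ => mul_comm _ _)

/-- product of the group letters -/
def gp (w : List (GG R ⊕ J)) : GG R := (w.map (Sum.elim id fun _ => 1)).prod

omit [Fintype J] in
lemma prod_gp {A : Type} [Monoid A] (U : GG R →* A) {f : GG R ⊕ J → A} (hf : ∀ g, f (.inl g) = U g)
    {w : List (GG R ⊕ J)} (hw : gct w = 0) : (w.map f).prod = U (gp w) := by
  rw [gp, map_list_prod, List.map_map]
  refine congrArg _ (List.map_congr_left ?_)
  rintro (g | j) h
  · simp [hf]
  · simpa using List.countP_eq_zero.1 hw _ h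

/-- adjoint word -/
def sw (w : List (GG R ⊕ J)) : List (GG R ⊕ J) := (w.map (Sum.map Inv.inv id)).reverse

omit [Fintype J] in
lemma star_sw {A : Type} [Monoid A] [StarMul A] {f : GG R ⊕ J → A}
    (hf : ∀ a, star (f a) = f (Sum.map Inv.inv id a)) (w : List (GG R ⊕ J)) :
    star (w.map f).prod = ((sw w).map f).prod := by
  induction w with
  | nil => simp [sw]
  | cons a w ih => simp [sw, ih, hf]

variable [DecidableEq J] {U : ∀ l, GG R →* Matrix (Fin (k l)) (Fin (k l)) ℂ}

lemma mom_lim (hk : ∀ l, l < k l) (h0 : ∀ g, g ≠ 1 → ∀ᶠ l in atTop, (U l g).trace = 0)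
    (L : List (List (GG R ⊕ J))) :
    Tendsto (fun l => EE ((gm (U l)).prd L)) atTop (𝓝 (L.map tt).prod) := by
  classical
  refine sd_limit (fun l => gm (U l)) tt tt_cyc tt_sd (fun L hL => ?_) ?_ L
  · have hL' : ∀ w ∈ L, gct w = 0 := by simpa [gcts, List.sum_eq_zero_iff] using hL
    have h1 : ∀ l, (gm (U l)).E ((gm (U l)).prd L) = (L.map fun w => ntr (U l (gp w))).prod := by
      intro l
      have : ∀ x, ev x ((gm (U l)).prd L) = (L.map fun w => ntr (U l (gp w))).prod := fun x => by
        rw [Mod.prd, map_list_prod, List.map_map]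
        refine congrArg _ (List.map_congr_left fun w hw => ?_)
        rw [Function.comp, ev_tr, prod_gp (U l) (fun _ => rfl) (hL' w hw)]
      show ∫ x, ev x _ ∂gam _ = _
      simp only [this]
      simp
    simp only [h1]
    refine tendsto_list_prod L fun w hw => tendsto_const_nhds.congr' ?_
    let La : GG R →* (KK R J →L[ℂ] KK R J) := ⟨⟨Lam, Lam_one⟩, fun a b => (Lam_mul a b).symm⟩
    have h2 : tt w = if 1 = gp w then 1 else 0 := by
      rw [tt, mono, prod_gp La (fun _ => rfl) (hL' w hw)]
      simp [tau, La, lam, orthonormal_iff_ite.1 eb.orthonormal]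
    rw [h2]
    split_ifs with e
    · refine Eventually.of_forall fun l => ?_
      have : (k l : ℂ) ≠ 0 := by exact_mod_cast (Nat.zero_lt_of_lt (hk l)).ne'
      simp [← e, ntr, this]
    · exact (h0 _ (Ne.symm e)).mono fun l hl => by simp [ntr, hl]
  · exact (tendsto_inv_atTop_nhds_zero_nat (𝕜 := ℂ)).comp
      (tendsto_atTop_mono (fun l => (hk l).le) tendsto_id)

lemma whp_word (hk : ∀ l, l < k l) (h0 : ∀ g, g ≠ 1 → ∀ᶠ l in atTop, (U l g).trace = 0)
    (hs : ∀ l g, star (U l g) = U l g⁻¹) (w : List (GG R ⊕ J)) {ε : ℝ} (hε : 0 < ε) :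
    WHP J k fun l x => ‖ntr (w.map (mat (U l) x)).prod - tt w‖ < ε := by
  have h1 : tt (sw w) = conj (tt w) := by
    rw [tt, tt, ← tau_star, mono, mono, star_sw]
    rintro (g | j) <;> simp [opG, star_Lam, star_ZL]
  let p : ∀ l, MvPolynomial (J × Fin (k l) × Fin (k l)) ℂ := fun l =>
    (gm (U l)).prd [w, sw w] - conj (tt w) • (gm (U l)).prd [w] - tt w • (gm (U l)).prd [sw w] +
      (tt w * conj (tt w)) • (gm (U l)).prd []
  have h2 : ∀ l x, ev x (p l) = ((‖ntr (w.map (mat (U l) x)).prod - tt w‖ ^ 2 : ℝ) : ℂ) := by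
    intro l x
    have : ntr ((sw w).map (mat (U l) x)).prod = conj (ntr (w.map (mat (U l) x)).prod) := by
      rw [← star_sw]
      · simp [ntr, Matrix.star_eq_conjTranspose]
      rintro (g | j) <;> simp [mat, hs, star_herm]
    simp only [p, Mod.prd, List.map_cons, List.map_nil, List.prod_cons, List.prod_nil, map_add,
      map_sub, map_smul, map_mul, ev_tr, map_one, this, smul_eq_mul, Complex.ofReal_pow,
      ← Complex.mul_conj']
    ring
  have h3 : Tendsto (fun l => EE (p l)) atTop (𝓝 0) := by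
    have m := mom_lim (J := J) hk h0
    simp only [p, map_add, map_sub, map_smul, smul_eq_mul]
    convert (((m _).sub ((m _).const_mul _)).sub ((m _).const_mul _)).add ((m _).const_mul _)
    simp [h1, mul_comm]
  have h4 := ((Complex.continuous_re.tendsto _).comp h3).div_const (ε ^ 2)
  refine squeeze_zero (fun _ => measureReal_nonneg) (fun l => ?_) (by simpa using h4)
  have h5 := mul_meas_ge_le_integral_of_nonneg (μ := gam _) (f := fun x => (ev x (p l)).re)
    (ae_of_all _ fun x => by simp only [h2, Complex.ofReal_re]; positivity) (int_ev _).re (ε ^ 2)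
  rw [le_div_iff₀' (by positivity)]
  refine le_trans (le_of_eq ?_) (h5.trans_eq (integral_re (int_ev _)))
  congr 3 with x
  rw [h2, Complex.ofReal_re, not_lt, pow_le_pow_iff_left₀ hε.le (norm_nonneg _) two_ne_zero]

theorem whp_poly (hk : ∀ l, l < k l) (h0 : ∀ g, g ≠ 1 → ∀ᶠ l in atTop, (U l g).trace = 0)
    (hs : ∀ l g, star (U l g) = U l g⁻¹) (P : PA (GG R ⊕ J)) : ∀ ε : ℝ, 0 < ε →
    WHP J k fun l x => ‖ntr (evA (mat (U l) x) P) - tau (Om _ _) (evA opG P)‖ < ε := by
  induction P using PA_ind with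
  | h1 w => exact fun ε hε => by simpa [tt, mono] using whp_word hk h0 hs w hε
  | h2 x y h1 h2 =>
    refine fun ε hε => ((h1 _ (half_pos hε)).and (h2 _ (half_pos hε))).mono fun l z h => ?_
    simp only [map_add, ntr, tau, Matrix.trace_add, mul_add, add_apply, inner_add_right] at h ⊢
    rw [add_sub_add_comm]
    exact (norm_add_le _ _).trans_lt (by linarith)
  | h3 c x h1 =>
    refine fun ε hε => (h1 (ε / (‖c‖ + 1)) (by positivity)).mono fun l z h => ?_
    simp only [map_smul, ntr, tau, Matrix.trace_smul, smul_apply, inner_smul_right,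
      smul_eq_mul] at h ⊢
    rw [mul_left_comm, ← mul_sub, norm_mul]
    rw [lt_div_iff₀ (by positivity)] at h
    nlinarith [norm_nonneg ((k l : ℂ)⁻¹ * (evA (mat (U l) z) x).trace -
      ⟪Om (GG R) J, evA opG x (Om (GG R) J)⟫_ℂ)]

end

end Vale.Agent.P087
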