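import Mathlib

open Filter Topology Matrix

namespace Vale.Agent.P087

noncomputable section

variable {Γ J : Type} [DecidableEq J]

/-- number of random letters -/
def gct (w : List (Γ ⊕ J)) : ℕ := w.countP Sum.isRight

/-- total number of random letters -/
def gcts (L : List (List (Γ ⊕ J))) : ℕ := (L.map gct).sum

/-- is it the letter `j` -/
def isJ (j : J) : Γ ⊕ J → Bool
  | .inl _ => false
  | .inr i => decide (i = j)

/-- splittings at the letter `j` -/
def spl (j : J) : List (Γ ⊕ J) → List (List (Γ ⊕ J) × List (Γ ⊕ J))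
  | [] => []
  | a :: w => (if isJ j a then [([], w)] else []) ++ (spl j w).map fun p => (a :: p.1, p.2)

/-- error terms -/
def er (j : J) (w : List (Γ ⊕ J)) : List (List (Γ ⊕ J)) → List (List (List (Γ ⊕ J)))
  | [] => []
  | v :: L => (er j w L).map (v :: ·) ++ (spl j v).map fun x => (w ++ (x.2 ++ x.1)) :: L

omit [DecidableEq J] in
lemma gct_append (v w : List (Γ ⊕ J)) : gct (v ++ w) = gct v + gct w := List.countP_append

omit [DecidableEq J] in
lemma gct_cons (a : Γ ⊕ J) (w : List (Γ ⊕ J)) : gct (a :: w) = gct [a] + gct w :=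
  gct_append [a] w

lemma gct_spl {j : J} {w : List (Γ ⊕ J)} : ∀ p ∈ spl j w, gct p.1 + gct p.2 + 1 = gct w := by
  induction w with
  | nil => simp [spl]
  | cons a w ih =>
    intro p hp
    rw [spl, List.mem_append, List.mem_map] at hp
    rcases hp with hp | ⟨p, hp, rfl⟩
    · rcases a with a | a <;> simp_all [isJ, gct, List.countP_cons]
    · rw [gct_cons a, gct_cons a w, ← ih p hp]; ring

lemma gct_er {j : J} {w : List (Γ ⊕ J)} {L : List (List (Γ ⊕ J))} :
    ∀ L' ∈ er j w L, gcts L' + 1 = gct w + gcts L := by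
  induction L with
  | nil => simp [er]
  | cons v L ih =>
    intro p hp
    simp only [er, List.mem_append, List.mem_map] at hp
    rcases hp with ⟨p, hp, rfl⟩ | ⟨p, hp, rfl⟩
    · have := ih p hp
      simp only [gcts, List.map_cons, List.sum_cons] at this ⊢
      omega
    · have := gct_spl p hp
      simp only [gcts, List.map_cons, List.sum_cons, gct_append]
      omega

variable (Γ J) in
/-- abstract Gaussian matrix model -/
structure Mod (A : Type) [CommRing A] [Algebra ℂ A] (k : ℕ) where
  E : A →ₗ[ℂ] ℂ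
  M : Γ ⊕ J → Matrix (Fin k) (Fin k) A
  δ : J → Fin k → Fin k → Derivation ℂ A A
  h1 : ∀ j p q a, (M a).map (δ j p q) = if isJ j a then (k : ℂ)⁻¹ • single q p 1 else 0
  h2 : ∀ j p q f, E (M (.inr j) p q * f) = E (δ j p q f)

namespace Mod

variable {A : Type} [CommRing A] [Algebra ℂ A] {k : ℕ} (m : Mod Γ J A k)

/-- matrix of a word -/
def Wd (w : List (Γ ⊕ J)) : Matrix (Fin k) (Fin k) A := (w.map m.M).prod

/-- normalized trace of a word -/
def tr (w : List (Γ ⊕ J)) : A := (k : ℂ)⁻¹ • (m.Wd w).trace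

/-- product of traces -/
def prd (L : List (List (Γ ⊕ J))) : A := (L.map m.tr).prod

lemma Wd_append (v w : List (Γ ⊕ J)) : m.Wd (v ++ w) = m.Wd v * m.Wd w := by simp [Wd]

lemma Wd_cons (a : Γ ⊕ J) (w : List (Γ ⊕ J)) : m.Wd (a :: w) = m.M a * m.Wd w := by simp [Wd]

lemma tr_cyc (v w : List (Γ ⊕ J)) : m.tr (v ++ w) = m.tr (w ++ v) := by
  rw [tr, tr, Wd_append, Wd_append, trace_mul_comm]

lemma map_Wd (j : J) (p q : Fin k) (w : List (Γ ⊕ J)) : (m.Wd w).map (m.δ j p q) =
    ((spl j w).map fun x => (k : ℂ)⁻¹ • (m.Wd x.1 * single q p 1 * m.Wd x.2)).sum := by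
  induction w with
  | nil =>
    ext r s
    simp only [Wd, spl, List.map_nil, List.prod_nil, List.sum_nil, map_apply, one_apply]
    split_ifs <;> simp
  | cons a w ih =>
    have : (m.M a * m.Wd w).map (m.δ j p q) =
        (m.M a).map (m.δ j p q) * m.Wd w + m.M a * (m.Wd w).map (m.δ j p q) := by
      ext r s
      simp only [map_apply, mul_apply, map_sum, Derivation.leibniz, smul_eq_mul, Matrix.add_apply,
        ← Finset.sum_add_distrib]
      exact Finset.sum_congr rfl fun _ _ => by ring
    rw [Wd_cons, this, ih, m.h1, spl, List.map_append, List.sum_append, ← List.sum_map_mul_left,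
      List.map_map]
    congr 1
    · split_ifs <;> simp [Wd, -smul_single]
    · simp only [Function.comp_def, Wd_cons, mul_smul_comm, mul_assoc]

/-- contraction -/
def P (j : J) (B : Matrix (Fin k) (Fin k) A) (F : A) : A := ∑ p, ∑ q, B q p * m.δ j p q F

lemma P_tr (j : J) (w v : List (Γ ⊕ J)) : m.P j (m.Wd w) (m.tr v) =
    (k : ℂ)⁻¹ • ((spl j v).map fun x => m.tr (w ++ (x.2 ++ x.1))).sum := by
  have h : ∀ p q, m.δ j p q (m.Wd v).trace =
      ((spl j v).map fun x => (k : ℂ)⁻¹ • m.Wd (x.2 ++ x.1) p q).sum := by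
    intro p q
    have := congrArg (traceLinearMap (Fin k) ℂ A) (m.map_Wd j p q v)
    rw [map_list_sum, List.map_map] at this
    simp only [trace, diag, map_sum]
    refine this.trans (congrArg _ (List.map_congr_left fun x _ => ?_))
    simp only [Function.comp, map_smul, traceLinearMap_apply]
    rw [trace_mul_cycle, ← Wd_append, trace_mul_single]
    simp
  simp only [P, tr, Derivation.map_smul, h, mul_smul_comm, ← Finset.smul_sum]
  congr 1
  induction spl j v with
  | nil => simp
  | cons x l ih =>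
    simp only [List.map_cons, List.sum_cons, mul_add, Finset.sum_add_distrib, ih, mul_smul_comm,
      ← Finset.smul_sum]
    congr 2
    rw [Finset.sum_comm, Wd_append m w]
    rfl

lemma P_prd (j : J) (w : List (Γ ⊕ J)) (L : List (List (Γ ⊕ J))) :
    m.P j (m.Wd w) (m.prd L) = (k : ℂ)⁻¹ • ((er j w L).map m.prd).sum := by
  induction L with
  | nil => simp [P, prd, er]
  | cons v L ih =>
    have : m.P j (m.Wd w) (m.tr v * m.prd L) =
        m.tr v * m.P j (m.Wd w) (m.prd L) + m.P j (m.Wd w) (m.tr v) * m.prd L := by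
      simp only [P, Derivation.leibniz, smul_eq_mul, Finset.mul_sum, Finset.sum_mul,
        ← Finset.sum_add_distrib]
      exact Finset.sum_congr rfl fun _ _ => Finset.sum_congr rfl fun _ _ => by ring
    have h : ∀ v L, m.prd (v :: L) = m.tr v * m.prd L := fun v L => by simp [prd]
    rw [h, this, ih, P_tr, er, List.map_append, List.sum_append, smul_add, mul_smul_comm,
      smul_mul_assoc, ← List.sum_map_mul_left, ← List.sum_map_mul_right]
    simp only [List.map_map, Function.comp_def, h]

lemma loop (j : J) (w : List (Γ ⊕ J)) (L : List (List (Γ ⊕ J))) :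
    m.E (m.prd ((.inr j :: w) :: L)) = ((spl j w).map fun x => m.E (m.prd (x.1 :: x.2 :: L))).sum +
      (k : ℂ)⁻¹ * ((k : ℂ)⁻¹ * ((er j w L).map fun L' => m.E (m.prd L')).sum) := by
  have h : ∀ v L, m.prd (v :: L) = m.tr v * m.prd L := fun v L => by simp [prd]
  have h1 : ∑ p, ∑ q, m.δ j p q (m.Wd w q p) =
      ((spl j w).map fun x => (k : ℂ)⁻¹ • ((m.Wd x.1).trace * (m.Wd x.2).trace)).sum := by
    have h2 : ∀ p q, m.δ j p q (m.Wd w q p) =
        ((spl j w).map fun x => (k : ℂ)⁻¹ • (m.Wd x.1 q q * m.Wd x.2 p p)).sum := by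
      intro p q
      have := congrArg (entryLinearMap ℂ A q p) (m.map_Wd j p q w)
      rw [map_list_sum, List.map_map] at this
      refine this.trans (congrArg _ (List.map_congr_left fun x _ => ?_))
      simp [mul_apply, single, ite_and]
    simp only [h2]
    induction spl j w with
    | nil => simp
    | cons x l ih =>
      simp only [List.map_cons, List.sum_cons, Finset.sum_add_distrib, ih, ← Finset.smul_sum]
      congr 2
      rw [Finset.sum_comm, trace, trace, Finset.sum_mul_sum]
      rfl
  have h2 : m.E ((m.Wd (.inr j :: w)).trace * m.prd L) =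
      m.E ((∑ p, ∑ q, m.δ j p q (m.Wd w q p)) * m.prd L + m.P j (m.Wd w) (m.prd L)) := by
    simp only [Wd_cons, trace, diag, mul_apply, Finset.sum_mul, P, ← Finset.sum_add_distrib,
      map_sum, mul_assoc, m.h2, Derivation.leibniz, smul_eq_mul]
    exact Finset.sum_congr rfl fun _ _ => Finset.sum_congr rfl fun _ _ => congrArg _ (by ring)
  rw [h, tr, smul_mul_assoc, map_smul, h2, h1, P_prd, map_add, map_smul, map_list_sum,
    ← List.sum_map_mul_right, map_list_sum, smul_add, List.smul_sum]
  simp only [List.map_map, Function.comp_def, h, tr, smul_eq_mul, smul_mul_assoc, map_smul,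
    mul_smul_comm, mul_assoc]

end Mod

theorem sd_limit {A : ℕ → Type} [∀ l, CommRing (A l)] [∀ l, Algebra ℂ (A l)] {k : ℕ → ℕ}
    (m : ∀ l, Mod Γ J (A l) (k l)) (t : List (Γ ⊕ J) → ℂ)
    (cyc : ∀ u v, t (u ++ v) = t (v ++ u))
    (sd : ∀ j w, t (.inr j :: w) = ((spl j w).map fun x => t x.1 * t x.2).sum)
    (base : ∀ L, gcts L = 0 → Tendsto (fun l => (m l).E ((m l).prd L)) atTop (𝓝 (L.map t).prod))
    (hk : Tendsto (fun l => (k l : ℂ)⁻¹) atTop (𝓝 0)) (L : List (List (Γ ⊕ J))) :
    Tendsto (fun l => (m l).E ((m l).prd L)) atTop (𝓝 (L.map t).prod) := by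
  induction hn : gcts L using Nat.strong_induction_on generalizing L with
  | _ n ih =>
  by_cases h0 : gcts L = 0
  · exact base L h0
  obtain ⟨w, hw, h1⟩ : ∃ w ∈ L, gct w ≠ 0 := by
    by_contra h
    push Not at h
    exact h0 (List.sum_eq_zero (by simpa using h))
  obtain ⟨a, ha, h2⟩ : ∃ a ∈ w, a.isRight := by simpa [gct] using h1
  obtain ⟨L1, L2, rfl⟩ := List.append_of_mem hw
  obtain ⟨u, v, rfl⟩ := List.append_of_mem ha
  obtain ⟨j, rfl⟩ := Sum.isRight_iff.1 h2
  have e1 : ∀ l, (m l).prd (L1 ++ (u ++ .inr j :: v) :: L2) =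
      (m l).prd ((.inr j :: (v ++ u)) :: (L1 ++ L2)) := fun l => by
    simp only [Mod.prd, List.map_append, List.map_cons, List.prod_append, List.prod_cons,
      (m l).tr_cyc u, List.cons_append]
    ring
  have e2 : n = gct (v ++ u) + gcts (L1 ++ L2) + 1 := by
    simp only [← hn, gcts, gct, List.map_append, List.map_cons, List.sum_append, List.sum_cons,
      List.countP_append, List.countP_cons, Sum.isRight_inr, if_true]
    ring
  have t1 := tendsto_list_sum (spl j (v ++ u)) fun x hx =>
    ih _ (by have := gct_spl x hx; simp only [gcts, List.map_cons, List.sum_cons] at e2 ⊢; omega)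
      (x.1 :: x.2 :: (L1 ++ L2)) rfl
  have t2 := tendsto_list_sum (er j (v ++ u) (L1 ++ L2)) fun x hx =>
    ih _ (by have := gct_er x hx; omega) x rfl
  simp only [e1, Mod.loop]
  convert t1.add (hk.mul (hk.mul t2)) using 2
  simp only [List.map_append, List.map_cons, List.prod_append, List.prod_cons, cyc u,
    List.cons_append, sd, zero_mul, add_zero, ← mul_assoc, List.sum_map_mul_right]
  ring

end

end Vale.Agent.P087
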