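import Vale.Agent.P087.Model

open scoped Classical InnerProductSpace ComplexConjugate ENNReal
open MeasureTheory Set

namespace Vale.Agent.P087

open Vale.Agent.P086

noncomputable section

lemma lint_piece {Φ : ℝ → ℝ≥0∞} {a b A B : ℝ} (ha : 0 < a) (hab : a ≤ b) (hA : 0 ≤ A) (hB : 0 ≤ B)
    (h : ∀ t ∈ Ioc a b, Φ t ≤ ENNReal.ofReal (A + B * t⁻¹)) :
    ∫⁻ t in Ioc a b, Φ t ≤ ENNReal.ofReal (A * (b - a) + B * Real.log (b / a)) := by
  refine (setLIntegral_mono' measurableSet_Ioc h).trans (le_of_eq ?_)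
  have h0 : (0 : ℝ) ∉ uIcc a b := by
    rw [uIcc_of_le hab]
    exact fun h => absurd h.1 (not_le.2 ha)
  have h1 : IntervalIntegrable (fun t : ℝ => B * t⁻¹) volume a b :=
    (intervalIntegral.intervalIntegrable_inv (fun x hx e => h0 (e ▸ hx))
      continuousOn_id).const_mul B
  rw [← ofReal_integral_eq_lintegral_ofReal (intervalIntegrable_const.add h1).1,
    ← intervalIntegral.integral_of_le hab, intervalIntegral.integral_add intervalIntegrable_const h1,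
    intervalIntegral.integral_const_mul, integral_inv h0]
  · simp [mul_comm]
  · refine (ae_restrict_mem measurableSet_Ioc).mono fun t ht => ?_
    have := ha.trans ht.1
    positivity

lemma lint_tail {Φ : ℝ → ℝ≥0∞} {B : ℝ} (hB : 0 ≤ B)
    (h : ∀ t ∈ Ioi (1 : ℝ), Φ t ≤ ENNReal.ofReal (B * t ^ (-2 : ℝ))) :
    ∫⁻ t in Ioi 1, Φ t ≤ ENNReal.ofReal B := by
  refine (setLIntegral_mono' measurableSet_Ioi h).trans (le_of_eq ?_)
  rw [← ofReal_integral_eq_lintegral_ofReal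
    ((integrableOn_Ioi_rpow_of_lt (by norm_num) one_pos).const_mul B), integral_const_mul,
    integral_Ioi_rpow_of_lt (by norm_num) one_pos]
  · norm_num
  · refine (ae_restrict_mem measurableSet_Ioi).mono fun t ht => ?_
    have : 0 < t := one_pos.trans ht
    positivity

lemma entInt_ge {n : ℕ} {Φ : ℝ → ℝ≥0∞} {N : ℝ} (hN : 0 ≤ N)
    (h : ∫⁻ t in Ioi (0 : ℝ), (Φ t - ENNReal.ofReal (n / (1 + t))) ≤ ENNReal.ofReal N) :
    ((-N / 2 : ℝ) : EReal) ≤ entInt n Φ := by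
  have h1 : (0 : ℝ) ≤ n / 2 * Real.log (2 * Real.pi * Real.exp 1) := by
    refine mul_nonneg (by positivity) (Real.log_nonneg ?_)
    nlinarith [Real.pi_gt_three, Real.add_one_le_exp 1]
  refine le_add_of_le_of_nonneg ?_ (by exact_mod_cast h1)
  rw [show -N / 2 = 1 / 2 * (0 - N) by ring, EReal.coe_mul, EReal.coe_sub]
  refine mul_le_mul_of_nonneg_left (EReal.sub_le_sub (EReal.coe_ennreal_nonneg _) ?_) (by positivity)
  refine (EReal.coe_ennreal_le_coe_ennreal_iff.2 h).trans ?_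
  simp [hN]

variable {R : Type} [Fintype R]

lemma sum_IX (hR : Fintype.card R = 4) (a b c : ℝ) :
    ∑ j : IX R, j.elim a (fun x => if x.1.2 = 2 then b else c) = a + 8 * b + 16 * c := by
  have h : ∑ i : ZMod 3, (if i = 2 then b else c) = b + 2 * c := by
    show ∑ i : Fin 3, (if i = 2 then b else c) = _
    simp [Fin.sum_univ_three]
    ring
  rw [Fintype.sum_option]
  simp only [Option.elim]
  rw [Fintype.sum_prod_type]
  simp only [Fintype.sum_bool, Finset.sum_add_distrib]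
  rw [Fintype.sum_prod_type]
  simp only [h, Finset.sum_const, Finset.card_univ, hR, nsmul_eq_mul]
  push_cast
  ring

lemma card_IX (hR : Fintype.card R = 4) : Fintype.card (IX R) = 25 := by simp [hR]

lemma fish_le (hR : Fintype.card R = 4) {ε τ t a b c : ℝ} (ha : 0 ≤ a) (hb : 0 ≤ b) (hc : 0 ≤ c)
    (h : ∀ j : IX R, ∃ m, m ^ 2 ≤ j.elim a (fun x => if x.1.2 = 2 then b else c) ∧
      GB (Om (GG R) (JJ R)) (fun j => XX ε τ j + (Real.sqrt t : ℂ) • SS j) (tg j) m) :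
    fisher (Om (GG R) (JJ R)) (fun j => XX ε τ j + (Real.sqrt t : ℂ) • SS j) ≤
      ENNReal.ofReal (a + 8 * b + 16 * c) := by
  rw [← sum_IX hR]
  refine fisher_le (fun j => by simp [star_XX, SS, star_ZL]) _ (fun j => ?_) fun j => ?_
  · rcases j with _ | x
    · exact ha
    · simp only [Option.elim]; split_ifs <;> assumption
  · obtain ⟨m, h1, ξ, h2, h3⟩ := h j
    exact ⟨ξ, (pow_le_pow_left₀ (norm_nonneg _) h2 2).trans h1, h3⟩

variable (R) in
/-- small constant -/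
def e0 : ℝ := (16 * La R ^ 14)⁻¹

lemma e0_pos : 0 < e0 R := by have := one_le_La (R := R); unfold e0; positivity

lemma e0_le : e0 R ≤ 1 := by
  have := one_le_pow₀ (n := 14) (one_le_La (R := R))
  exact inv_le_one_of_one_le₀ (by linarith)

theorem chiStar_ge (hR : Fintype.card R = 4) : ∃ C : ℝ, ∀ τ : ℝ, 0 < τ → τ ≤ 1 →
    ((36 / 5 * Real.log τ - C : ℝ) : EReal) ≤
      chiStar (Om (GG R) (JJ R)) (XX (e0 R * τ) τ) SS := by
  obtain ⟨A, hA⟩ : ∃ A, A = 2 * La R ^ 2 + 32 := ⟨_, rfl⟩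
  have e1 := e0_pos (R := R)
  have e2 := e0_le (R := R)
  refine ⟨(74 + 144 * A ^ 2 - 2 * Real.log (e0 R)) / 2, fun τ h0 h1 => ?_⟩
  have l1 := Real.log_nonpos h0.le h1
  have l2 := Real.log_nonpos e1.le e2
  obtain ⟨ε, hε⟩ : ∃ ε, ε = e0 R * τ := ⟨_, rfl⟩
  have p1 : 0 < ε := by rw [hε]; positivity
  have p2 : ε ≤ 1 := by rw [hε]; exact mul_le_one₀ e2 h0.le h1
  rw [← hε, chiStar, card_IX hR]
  refine le_trans (le_of_eq ?_) (entInt_ge
    (N := 74 + 144 * A ^ 2 - 2 * Real.log (e0 R) - 72 / 5 * Real.log τ) (by nlinarith) ?_)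
  · congr 1; ring
  set Φ := fun t : ℝ => fisher (Om (GG R) (JJ R)) fun j => XX ε τ j + (Real.sqrt t : ℂ) • SS j
  have hr : ∀ {t : ℝ}, 0 < t → (Real.sqrt t : ℂ) ≠ 0 := fun h => by
    exact_mod_cast (Real.sqrt_pos.2 h).ne'
  have hn : ∀ {t : ℝ}, 0 < t → ‖(Real.sqrt t : ℂ)‖⁻¹ ^ 2 = t⁻¹ := fun h => by
    simp [Real.sq_sqrt h.le]
  have hτ : ∀ x : Lb R × Bool, (am ε τ (some x))⁻¹ ^ 2 ≤
      if x.1.2 = 2 then τ⁻¹ ^ 2 else τ⁻¹ ^ 2 := fun x => by simp [am]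
  have b1 : ∀ t ∈ Ioc 0 ((ε * τ) ^ 2), Φ t ≤ ENNReal.ofReal ((ε * τ)⁻¹ ^ 2 + 24 * τ⁻¹ ^ 2) := by
    intro t ht
    refine (fish_le hR (a := (ε * τ)⁻¹ ^ 2) (b := τ⁻¹ ^ 2) (c := τ⁻¹ ^ 2) (by positivity)
      (by positivity) (by positivity) ?_).trans (le_of_eq (by congr 1; ring))
    rintro (_ | x)
    · exact ⟨_, le_rfl, crude_ini (hr ht.1) none (mul_pos p1 h0)⟩
    · exact ⟨_, hτ x, crude_ini (hr ht.1) _ h0⟩
  have b2 : ∀ t ∈ Ioc ((ε * τ) ^ 2) (τ ^ 2), Φ t ≤ ENNReal.ofReal (24 * τ⁻¹ ^ 2 + 1 * t⁻¹) := by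
    intro t ht
    have ht' : 0 < t := lt_trans (by positivity) ht.1
    refine (fish_le hR (a := t⁻¹) (b := τ⁻¹ ^ 2) (c := τ⁻¹ ^ 2) (by positivity)
      (by positivity) (by positivity) ?_).trans (le_of_eq (by congr 1; ring))
    rintro (_ | x)
    · exact ⟨_, (hn ht').le, crude_fl (hr ht') none⟩
    · exact ⟨_, hτ x, crude_ini (hr ht') _ h0⟩
  have b3 : ∀ t ∈ Ioc (τ ^ 2) 1, Φ t ≤ ENNReal.ofReal (144 * A ^ 2 + 31 / 5 * t⁻¹) := by
    intro t ht
    have ht' : 0 < t := lt_trans (by positivity) ht.1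
    have hq : ‖(ε : ℂ) / (Real.sqrt t : ℂ)‖ ≤ (16 * La R ^ 14)⁻¹ := by
      rw [norm_div, Complex.norm_real, Complex.norm_real, Real.norm_of_nonneg p1.le,
        Real.norm_of_nonneg (Real.sqrt_nonneg _), div_le_iff₀ (Real.sqrt_pos.2 ht'), hε]
      exact mul_le_mul_of_nonneg_left (Real.le_sqrt_of_sq_le ht.1.le) e1.le
    have hi := inv_pos.2 ht'
    refine (fish_le hR (a := t⁻¹) (b := 6 * A ^ 2 + 30 / 49 * t⁻¹) (c := 6 * A ^ 2 + 3 / 160 * t⁻¹)
      (by positivity) (by positivity) (by positivity) ?_).trans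
      (ENNReal.ofReal_le_ofReal (by linarith))
    rintro (_ | ⟨l, k⟩)
    · exact ⟨_, (hn ht').le, crude_fl (hr ht') none⟩
    simp only [Option.elim, ← hn ht']
    split_ifs with hl
    · refine ⟨_, ?_, main_det (hr ht') hq l k hl⟩
      rw [← hA]
      nlinarith [sq_nonneg (A - ‖(Real.sqrt t : ℂ)‖⁻¹ / 7)]
    · refine ⟨_, ?_, main_free (hr ht') hq l k hl⟩
      rw [← hA]
      nlinarith [sq_nonneg (A - ‖(Real.sqrt t : ℂ)‖⁻¹ / 40)]
  have b4 : ∀ t ∈ Ioi (1 : ℝ), Φ t - ENNReal.ofReal ((25 : ℕ) / (1 + t)) ≤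
      ENNReal.ofReal (25 * t ^ (-2 : ℝ)) := by
    intro t ht
    have ht' : 0 < t := one_pos.trans ht
    rw [tsub_le_iff_right, ← ENNReal.ofReal_add (by positivity) (by positivity)]
    refine (fish_le hR (a := t⁻¹) (b := t⁻¹) (c := t⁻¹) (by positivity)
      (by positivity) (by positivity) fun j => ⟨_, ?_, crude_fl (hr ht') j⟩).trans
      (ENNReal.ofReal_le_ofReal ?_)
    · rw [hn ht']; cases j <;> simp
    · rw [Real.rpow_neg ht'.le, Real.rpow_two]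
      have : t⁻¹ - (1 + t)⁻¹ ≤ (t ^ 2)⁻¹ := by
        rw [inv_sub_inv ht'.ne' (by positivity), add_sub_cancel_right, one_div]
        exact inv_anti₀ (by positivity) (by nlinarith)
      push_cast
      linarith [div_eq_mul_inv (25 : ℝ) (1 + t)]
  have q1 : (ε * τ) ^ 2 ≤ τ ^ 2 := by gcongr; exact mul_le_of_le_one_left h0.le p2
  have i1 := setLIntegral_mono' (μ := volume) measurableSet_Ioc b1
  rw [setLIntegral_const, Real.volume_Ioc, ← ENNReal.ofReal_mul (by positivity)] at i1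
  have i2 := lint_piece (by positivity) q1 (by positivity) zero_le_one b2
  have i3 := lint_piece (by positivity) (pow_le_one₀ h0.le h1) (by positivity) (by norm_num) b3
  have i4 := lint_tail (by norm_num) b4
  have hs : Ioi (0 : ℝ) ⊆ Ioc 0 ((ε * τ) ^ 2) ∪ Ioc ((ε * τ) ^ 2) (τ ^ 2) ∪ Ioc (τ ^ 2) 1 ∪ Ioi 1 := by
    intro t ht
    simp only [mem_union, mem_Ioc, mem_Ioi] at ht ⊢
    grind
  have j1 : ((ε * τ)⁻¹ ^ 2 + 24 * τ⁻¹ ^ 2) * ((ε * τ) ^ 2 - 0) ≤ 25 := by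
    have : ε ^ 2 ≤ 1 := pow_le_one₀ p1.le p2
    rw [sub_zero]
    field_simp
    linarith
  have j2 : 24 * τ⁻¹ ^ 2 * (τ ^ 2 - (ε * τ) ^ 2) + 1 * Real.log (τ ^ 2 / (ε * τ) ^ 2) ≤
      24 - 2 * Real.log (e0 R) - 2 * Real.log τ := by
    rw [show τ ^ 2 / (ε * τ) ^ 2 = (ε ^ 2)⁻¹ by field_simp, Real.log_inv, Real.log_pow, mul_assoc,
      show τ⁻¹ ^ 2 * (τ ^ 2 - (ε * τ) ^ 2) = 1 - ε ^ 2 by field_simp, hε,
      Real.log_mul e1.ne' h0.ne']
    push_cast
    nlinarith [sq_nonneg (e0 R * τ)]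
  have j3 : 144 * A ^ 2 * (1 - τ ^ 2) + 31 / 5 * Real.log (1 / τ ^ 2) ≤
      144 * A ^ 2 - 62 / 5 * Real.log τ := by
    rw [one_div, Real.log_inv, Real.log_pow]
    push_cast
    nlinarith [mul_nonneg (sq_nonneg A) (sq_nonneg τ)]
  calc _ ≤ _ := lintegral_mono_set hs
    _ ≤ _ := (lintegral_union_le _ _ _).trans (add_le_add ((lintegral_union_le _ _ _).trans
      (add_le_add ((lintegral_union_le _ _ _).trans (add_le_add
        (((lintegral_mono fun t => tsub_le_self).trans i1).trans (ENNReal.ofReal_le_ofReal j1))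
        (((lintegral_mono fun t => tsub_le_self).trans i2).trans (ENNReal.ofReal_le_ofReal j2))))
        (((lintegral_mono fun t => tsub_le_self).trans i3).trans (ENNReal.ofReal_le_ofReal j3)))) i4)
    _ = _ := by
      rw [← ENNReal.ofReal_add, ← ENNReal.ofReal_add, ← ENNReal.ofReal_add]
      · congr 1; ring
      all_goals nlinarith

end

end Vale.Agent.P087
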