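import Vale.Agent.P087.SD
import Vale.Agent.P087.Poly

open MeasureTheory ProbabilityTheory MvPolynomial Filter Topology
open scoped ComplexConjugate

namespace Vale.Agent.P087

noncomputable section

/-- standard Gaussian measure -/
abbrev gam (I : Type) [Fintype I] : Measure (I → ℝ) := Measure.pi fun _ => gaussianReal 0 1

/-- Gaussian moments -/
def mo (n : ℕ) : ℝ := ∫ x, x ^ n ∂gaussianReal 0 1

lemma mo_succ (n : ℕ) : mo (n + 1) = n * mo (n - 1) := by
  have h : ∀ n, mo n = iteratedDeriv n (fun t : ℝ => Real.exp (t ^ 2 / 2)) 0 := fun n => by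
    have := iteratedDeriv_mgf_zero (X := id) (μ := gaussianReal 0 1) (by simp) n
    rw [mgf_id_gaussianReal] at this
    simpa [mo] using this.symm
  have h1 : deriv (fun t : ℝ => Real.exp (t ^ 2 / 2)) = fun t => t * Real.exp (t ^ 2 / 2) := by
    ext t
    rw [(((hasDerivAt_pow 2 t).div_const 2).exp).deriv]
    simp [mul_comm]
  rw [h, h, iteratedDeriv_succ', h1, iteratedDeriv_fun_mul (by fun_prop) (by fun_prop)]
  simp only [iteratedDeriv_fun_id_zero, mul_ite, ite_mul, mul_zero, zero_mul, mul_one,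
    Finset.sum_ite_eq', Finset.mem_range, Nat.choose_one_right]
  cases n <;> simp

lemma int_pow (n : ℕ) : Integrable (fun x : ℝ => (x : ℂ) ^ n) (gaussianReal 0 1) := by
  have := ((memLp_id_gaussianReal' (μ := 0) (v := 1) n (by simp)).integrable_norm_pow')
  refine this.mono' (by fun_prop) (ae_of_all _ fun x => by simp)

variable {I : Type} [Fintype I]

/-- evaluation at a real point -/
def ev (x : I → ℝ) : MvPolynomial I ℂ →ₐ[ℂ] ℂ := aeval fun i => (x i : ℂ)

lemma ev_monomial (x : I → ℝ) (s : I →₀ ℕ) (a : ℂ) :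
    ev x (monomial s a) = a * ∏ i, (x i : ℂ) ^ s i := by
  simp [ev, aeval_monomial, Finsupp.prod_fintype]

lemma int_ev (p : MvPolynomial I ℂ) : Integrable (fun x => ev x p) (gam I) := by
  induction p using MvPolynomial.induction_on' with
  | monomial s a =>
    simp only [ev_monomial]
    exact (Integrable.fintype_prod (f := fun i (x : ℝ) => (x : ℂ) ^ s i) fun i => int_pow _).const_mul a
  | add p q h1 h2 => simp only [map_add]; exact h1.add h2

/-- expectation -/
def EE : MvPolynomial I ℂ →ₗ[ℂ] ℂ where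
  toFun p := ∫ x, ev x p ∂gam I
  map_add' p q := by simp only [map_add]; exact integral_add (int_ev p) (int_ev q)
  map_smul' c p := by simp only [map_smul, smul_eq_mul, integral_const_mul, RingHom.id_apply]

lemma EE_monomial (s : I →₀ ℕ) (a : ℂ) : EE (monomial s a) = a * ∏ i, (mo (s i) : ℂ) := by
  simp only [EE, LinearMap.coe_mk, AddHom.coe_mk, ev_monomial, integral_const_mul]
  rw [integral_fintype_prod_eq_prod (fun i (x : ℝ) => (x : ℂ) ^ s i)]
  simp only [mo, ← Complex.ofReal_pow, integral_complex_ofReal]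

lemma stein (i : I) (p : MvPolynomial I ℂ) : EE (X i * p) = EE (pderiv i p) := by
  classical
  induction p using MvPolynomial.induction_on' with
  | monomial s a =>
    rw [pderiv_monomial, X, monomial_mul, EE_monomial, EE_monomial,
      ← Finset.mul_prod_erase _ _ (Finset.mem_univ i), ← Finset.mul_prod_erase _ _ (Finset.mem_univ i),
      Finset.prod_congr rfl (g := fun j => (mo (s j) : ℂ)),
      Finset.prod_congr rfl (f := fun j => (mo ((s - Finsupp.single i 1 : I →₀ ℕ) j) : ℂ))
        (g := fun j => (mo (s j) : ℂ))]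
    · simp [add_comm 1, mo_succ, mul_assoc]
    all_goals
      intro j hj
      simp [Finset.ne_of_mem_erase hj]
  | add p q h1 h2 => simp only [mul_add, map_add, h1, h2]

lemma EE_C (a : ℂ) : EE (C a : MvPolynomial I ℂ) = a := by simp [EE, ev]

variable {Γ J : Type} [Fintype J] [DecidableEq J] {k : ℕ}

/-- the scale -/
def scl (k : ℕ) : ℝ := (Real.sqrt k)⁻¹

/-- numerical matrices -/
def mat (U : Γ → Matrix (Fin k) (Fin k) ℂ) (x : J × Fin k × Fin k → ℝ) :
    Γ ⊕ J → Matrix (Fin k) (Fin k) ℂ
  | .inl g => U g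
  | .inr j => (scl k : ℂ) • herm fun p q => x (j, p, q)

/-- the Gaussian model -/
def gm (U : Γ → Matrix (Fin k) (Fin k) ℂ) : Mod Γ J (MvPolynomial (J × Fin k × Fin k) ℂ) k where
  E := EE
  M := Sum.elim (fun g => (U g).map C) fun j => Matrix.of fun p q =>
    (scl k * (1 + Complex.I) / 2) • X (j, p, q) + (scl k * (1 - Complex.I) / 2) • X (j, q, p)
  δ j p q := (scl k * (1 + Complex.I) / 2) • pderiv (j, p, q) +
    (scl k * (1 - Complex.I) / 2) • pderiv (j, q, p)
  h1 := by
    have h : (scl k : ℂ) ^ 2 = (k : ℂ)⁻¹ := by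
      rw [← Complex.ofReal_pow, scl, inv_pow, Real.sq_sqrt (Nat.cast_nonneg k)]; simp
    rintro j p q (g | i) <;> ext1 r s
    · simp [isJ]
    by_cases e : i = j
    · subst e
      simp only [isJ, decide_true, if_true, Matrix.map_apply, Sum.elim_inr, Matrix.of_apply, map_add,
        Derivation.map_smul, Derivation.add_apply, Derivation.smul_apply, pderiv_X, Pi.single_apply,
        Prod.mk.injEq, true_and, Matrix.smul_apply, Matrix.single_apply, ← h, eq_comm (a := r),
        eq_comm (a := s), and_comm (a := q = s), and_comm (a := p = s)]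
      match_scalars
      · ring_nf; simp
      · ring_nf; simp; ring
    · simp [isJ, e]
  h2 j p q f := by simp [add_mul, stein]

lemma ev_M (U : Γ → Matrix (Fin k) (Fin k) ℂ) (x : J × Fin k × Fin k → ℝ) (a : Γ ⊕ J) :
    (ev x).mapMatrix ((gm U).M a) = mat U x a := by
  rcases a with g | j <;> ext p q
  · simp [gm, mat, ev]
  · simp [gm, mat, ev, herm]; ring

/-- normalized trace -/
def ntr (A : Matrix (Fin k) (Fin k) ℂ) : ℂ := (k : ℂ)⁻¹ * A.trace

lemma ev_tr (U : Γ → Matrix (Fin k) (Fin k) ℂ) (x : J × Fin k × Fin k → ℝ) (w : List (Γ ⊕ J)) :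
    ev x ((gm U).tr w) = ntr (w.map (mat U x)).prod := by
  have : (ev x).mapMatrix ((gm U).Wd w) = (w.map (mat U x)).prod := by
    simp only [Mod.Wd, map_list_prod, List.map_map, Function.comp_def, ev_M]
  rw [Mod.tr, map_smul, ntr, ← this]
  simp [Matrix.trace]

end

end Vale.Agent.P087
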