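import Vale.Agent.P087.Prob

open MeasureTheory ProbabilityTheory Filter Topology Module
open scoped ComplexConjugate InnerProductSpace Matrix.Norms.L2Operator

namespace Vale.Agent.P087

noncomputable section

lemma net_one {V : Type} [NormedAddCommGroup V] [NormedSpace ℝ V] [FiniteDimensional ℝ V] :
    ∃ N : Finset V, N.card ≤ 5 ^ finrank ℝ V ∧ (∀ n ∈ N, ‖n‖ ≤ 2) ∧
    ∀ x : V, ‖x‖ ≤ 2 → ∃ n ∈ N, ‖x - n‖ ≤ 1 := by
  classical
  let P : ℕ → Prop := fun k => ∃ s : Finset V, s.card = k ∧ (∀ c ∈ s, ‖c‖ ≤ 2) ∧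
    ∀ c ∈ s, ∀ d ∈ s, c ≠ d → 1 ≤ ‖c - d‖
  have h0 : P 0 := ⟨∅, by simp⟩
  obtain ⟨s, hs1, hs2, hs3⟩ : P (Nat.findGreatest P (5 ^ finrank ℝ V)) :=
    Nat.findGreatest_spec (Nat.zero_le _) h0
  refine ⟨s, Besicovitch.card_le_of_separated s hs2 hs3, hs2, fun x hx => ?_⟩
  by_contra hcon
  push Not at hcon
  have hxs : x ∉ s := fun h => by have := hcon x h; simp at this; linarith
  have a2 : ∀ c ∈ insert x s, ‖c‖ ≤ 2 := by
    intro c hc
    rcases Finset.mem_insert.1 hc with rfl | hc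
    · exact hx
    · exact hs2 c hc
  have a3 : ∀ c ∈ insert x s, ∀ d ∈ insert x s, c ≠ d → 1 ≤ ‖c - d‖ := by
    intro c hc d hd hcd
    rcases Finset.mem_insert.1 hc with rfl | hc' <;> rcases Finset.mem_insert.1 hd with rfl | hd'
    · exact absurd rfl hcd
    · exact (hcon d hd').le
    · rw [norm_sub_rev]; exact (hcon c hc').le
    · exact hs3 c hc' d hd' hcd
  have a4 := Besicovitch.card_le_of_separated _ a2 a3
  have a5 : (insert x s).card ≤ Nat.findGreatest P (5 ^ finrank ℝ V) :=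
    Nat.le_findGreatest a4 ⟨_, rfl, a2, a3⟩
  rw [Finset.card_insert_of_notMem hxs] at a5
  omega

lemma net_op (k : ℕ) : ∃ N : Finset (EuclideanSpace ℂ (Fin k)), N.card ≤ 25 ^ k ∧
    (∀ n ∈ N, ‖n‖ ≤ 2) ∧ ∀ (T : EuclideanSpace ℂ (Fin k) →L[ℂ] EuclideanSpace ℂ (Fin k)) (M : ℝ),
      (∀ u ∈ N, ∀ v ∈ N, (⟪u, T v⟫_ℂ).re ≤ M) → 0 ≤ M → ‖T‖ ≤ M := by
  obtain ⟨N, h1, h2, h3⟩ := net_one (V := EuclideanSpace ℂ (Fin k))
  rw [finrank_real_of_complex, finrank_euclideanSpace_fin, pow_mul] at h1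
  refine ⟨N, h1, h2, fun T M h hM => ?_⟩
  have a1 : ∀ v ∈ N, ‖T v‖ ≤ M := fun v hv => by
    rcases (norm_nonneg (T v)).eq_or_lt with e | e
    · rwa [← e]
    obtain ⟨u, hu, b1⟩ := h3 (((2 / ‖T v‖ : ℝ) : ℂ) • T v) (by
      rw [norm_smul, Complex.norm_real, Real.norm_of_nonneg (by positivity), div_mul_cancel₀ _ e.ne'])
    have b2 := (Complex.re_le_norm _).trans (norm_inner_le_norm (𝕜 := ℂ)
      (((2 / ‖T v‖ : ℝ) : ℂ) • T v - u) (T v))
    rw [inner_sub_left, inner_smul_left, Complex.conj_ofReal, Complex.sub_re, Complex.re_ofReal_mul,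
      ← P086.norm_sq_eq_re, show 2 / ‖T v‖ * ‖T v‖ ^ 2 = 2 * ‖T v‖ by field_simp] at b2
    nlinarith [h u hu v hv]
  have := ContinuousLinearMap.opNorm_le_of_unit_norm (f := T) (C := (M + ‖T‖) / 2) (by positivity)
    fun x hx => by
      obtain ⟨v, hv, b1⟩ := h3 ((2 : ℂ) • x) (by simp [norm_smul, hx])
      have b2 := T.le_opNorm ((2 : ℂ) • x - v)
      have b3 := norm_sub_norm_le (T ((2 : ℂ) • x)) (T v)
      rw [← map_sub, map_smul, norm_smul, Complex.norm_ofNat] at b3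
      nlinarith [a1 v hv, norm_nonneg T]
  linarith

lemma tail_lin {I : Type} [Fintype I] (c : I → ℝ) (t : ℝ) {s : ℝ} (hs : 0 ≤ s) :
    (gam I).real {x | t ≤ ∑ i, c i * x i} ≤ Real.exp (-s * t + s ^ 2 * (∑ i, c i ^ 2) / 2) := by
  have h : ∀ x : I → ℝ, Real.exp (s * ∑ i, c i * x i) = ∏ i, Real.exp (s * c i * x i) := fun x => by
    simp only [← Real.exp_sum, Finset.mul_sum, mul_assoc]
  refine (measure_ge_le_exp_mul_mgf (X := fun x : I → ℝ => ∑ i, c i * x i) t hs ?_).trans_eq ?_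
  · simp only [h]
    exact Integrable.fintype_prod (f := fun i x => Real.exp (s * c i * x))
      fun i => integrable_exp_mul_gaussianReal _
  rw [Real.exp_add, mgf]
  simp only [h]
  rw [integral_fintype_prod_eq_prod fun i x => Real.exp (s * c i * x)]
  congr 1
  rw [Finset.mul_sum, Finset.sum_div, Real.exp_sum]
  refine Finset.prod_congr rfl fun i _ => ?_
  have := congrFun (mgf_fun_id_gaussianReal (μ := 0) (v := 1)) (s * c i)
  simpa [mgf, mul_pow] using this

variable {J : Type} [Fintype J]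

lemma tail_form {k : ℕ} (j : J) {u v : EuclideanSpace ℂ (Fin k)} (hu : ‖u‖ ≤ 2) (hv : ‖v‖ ≤ 2) :
    (gam (J × Fin k × Fin k)).real {x | 26 * Real.sqrt k ≤
      (⟪u, Matrix.toEuclideanCLM (𝕜 := ℂ) (n := Fin k) (herm fun p q => x (j, p, q)) v⟫_ℂ).re} ≤
      Real.exp (-10 * k) := by
  classical
  let d : Fin k → Fin k → ℝ := fun p q => ((1 + Complex.I) / 2 * (conj (u p) * v q)).re +
    ((1 - Complex.I) / 2 * (conj (u q) * v p)).re
  let c : J × Fin k × Fin k → ℝ := fun i => if i.1 = j then d i.2.1 i.2.2 else 0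
  have h1 : ∀ x : J × Fin k × Fin k → ℝ, (⟪u, Matrix.toEuclideanCLM (𝕜 := ℂ) (n := Fin k)
      (herm fun p q => x (j, p, q)) v⟫_ℂ).re = ∑ i, c i * x i := fun x => by
    simp only [c, d, Fintype.sum_prod_type, ite_mul, zero_mul, add_mul, Finset.sum_ite_irrel,
      Finset.sum_const_zero, Finset.sum_ite_eq', Finset.mem_univ, if_true, Finset.sum_add_distrib]
    rw [Finset.sum_comm (f := fun p q => ((1 - Complex.I) / 2 * (conj (u q) * v p)).re * _)]
    simp only [← Finset.sum_add_distrib, PiLp.inner_apply, Matrix.ofLp_toEuclideanCLM,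
      Matrix.mulVec, dotProduct, RCLike.inner_apply, Finset.sum_mul, Complex.re_sum]
    refine Finset.sum_congr rfl fun p _ => Finset.sum_congr rfl fun q _ => ?_
    simp [herm]
    ring
  have h2 : ∀ p q, d p q ^ 2 ≤ ‖u p‖ ^ 2 * ‖v q‖ ^ 2 + ‖v p‖ ^ 2 * ‖u q‖ ^ 2 := fun p q => by
    have : ∀ z w : ℂ, (((1 + Complex.I) / 2 * z).re + ((1 - Complex.I) / 2 * w).re) ^ 2 ≤
        ‖z‖ ^ 2 + ‖w‖ ^ 2 := fun z w => by
      simp only [Complex.sq_norm, Complex.normSq_apply]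
      simp
      nlinarith [sq_nonneg (z.re + z.im), sq_nonneg (w.re - w.im),
        sq_nonneg (z.re - z.im - w.re - w.im)]
    refine (this _ _).trans_eq ?_
    simp [mul_pow, mul_comm (‖v p‖ ^ 2)]
  have h3 : ∑ i, c i ^ 2 ≤ 32 := by
    simp only [c, Fintype.sum_prod_type, ite_pow, Finset.sum_ite_irrel, zero_pow two_ne_zero,
      Finset.sum_const_zero, Finset.sum_ite_eq', Finset.mem_univ, if_true]
    refine (Finset.sum_le_sum fun p _ => Finset.sum_le_sum fun q _ => h2 p q).trans ?_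
    simp only [Finset.sum_add_distrib, ← Finset.sum_mul_sum, ← EuclideanSpace.norm_sq_eq]
    have a := pow_le_pow_left₀ (norm_nonneg _) hu 2
    have b := pow_le_pow_left₀ (norm_nonneg _) hv 2
    nlinarith [mul_le_mul a b (by positivity) (by positivity)]
  simp only [h1]
  refine (tail_lin c _ (Real.sqrt_nonneg k)).trans (Real.exp_le_exp.2 ?_)
  have h4 := Real.sq_sqrt (Nat.cast_nonneg k)
  nlinarith [mul_le_mul_of_nonneg_left h3 (Nat.cast_nonneg k)]

theorem whp_norm {k : ℕ → ℕ} (hk : ∀ l, l < k l) :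
    WHP J k fun l x => ∀ j, ‖(scl (k l) : ℂ) • herm fun p q => x (j, p, q)‖ ≤ 26 := by
  refine (WHP.all (Set.finite_univ (α := J)) fun j _ => ?_).mono fun l x h j => h j trivial
  have h0 : 625 * Real.exp (-10) < 1 := by
    have := pow_le_pow_left₀ (by norm_num) (Real.add_one_le_exp 1) 10
    rw [← Real.exp_nat_mul] at this
    rw [Real.exp_neg, mul_inv_lt_iff₀ (Real.exp_pos _)]
    norm_num at this ⊢
    linarith
  refine squeeze_zero (fun _ => measureReal_nonneg) (fun l => ?_)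
    ((tendsto_pow_atTop_nhds_zero_of_lt_one (by positivity) h0).comp
      (tendsto_atTop_mono (fun l => (hk l).le) tendsto_id))
  obtain ⟨N, h1, h2, h3⟩ := net_op (k l)
  have hp : 0 < Real.sqrt (k l) := Real.sqrt_pos.2 (by exact_mod_cast Nat.zero_lt_of_lt (hk l))
  refine le_trans (measureReal_mono (s₂ := ⋃ z ∈ N ×ˢ N, {x | 26 * Real.sqrt (k l) ≤
    (⟪z.1, Matrix.toEuclideanCLM (𝕜 := ℂ) (n := Fin (k l))
      (herm fun p q => x (j, p, q)) z.2⟫_ℂ).re}) (fun x hx => ?_) (measure_ne_top _ _)) ?_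
  · by_contra h
    simp only [Set.mem_iUnion, Set.mem_ofPred_eq, not_exists, not_le, Finset.mem_product] at h
    refine hx ?_
    beta_reduce
    rw [norm_smul, Complex.norm_real, scl, Real.norm_of_nonneg (by positivity), inv_mul_le_iff₀ hp,
      mul_comm]
    exact h3 _ _ (fun u hu v hv => (h (u, v) ⟨hu, hv⟩).le) (by positivity)
  refine (measureReal_biUnion_finset_le _ _).trans ((Finset.sum_le_card_nsmul _ _ _ fun z hz =>
    tail_form j (h2 _ (Finset.mem_product.1 hz).1) (h2 _ (Finset.mem_product.1 hz).2)).trans ?_)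
  rw [Function.comp, mul_pow, ← Real.exp_nat_mul, mul_comm (k l : ℝ), nsmul_eq_mul,
    Finset.card_product]
  gcongr
  rw [show (625 : ℝ) = 25 * 25 by norm_num, mul_pow]
  exact_mod_cast Nat.mul_le_mul h1 h1

end

end Vale.Agent.P087
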