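import Vale.Agent.P087.Vol
import Vale.Agent.P087.Lower
import Vale.Agent.P087.Star
import Vale.Agent.P087.Free

open Filter Topology
open scoped Classical ComplexConjugate InnerProductSpace

namespace Vale.Agent.P087

open Vale.Agent.P086

noncomputable section

/-- Newton step on pairs -/
def nw {A : Type} [Ring A] [Algebra ℂ A] (p : A × A) : A × A :=
  ((3 / 2 : ℂ) • p.1 - (1 / 2 : ℂ) • (p.1 * p.2 * p.1),
    (3 / 2 : ℂ) • p.2 - (1 / 2 : ℂ) • (p.2 * p.1 * p.2))

lemma map_nw {A B : Type} [Ring A] [Algebra ℂ A] [Ring B] [Algebra ℂ B] (φ : A →ₐ[ℂ] B) (n : ℕ)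
    (p : A × A) : Prod.map φ φ (nw^[n] p) = nw^[n] (Prod.map φ φ p) :=
  Function.Semiconj.iterate_right (f := Prod.map φ φ) (fun p => by simp [nw]) n p

/-- Newton step -/
def nt {A : Type} [Ring A] [Algebra ℂ A] [Star A] (u : A) : A :=
  (3 / 2 : ℂ) • u - (1 / 2 : ℂ) • (u * star u * u)

lemma nw_star {A : Type} [Ring A] [Algebra ℂ A] [StarRing A] [StarModule ℂ A] (n : ℕ) (u : A) :
    nw^[n] (u, star u) = (nt^[n] u, star (nt^[n] u)) :=
  (Function.Semiconj.iterate_right (f := fun u : A => (u, star u)) (ga := nt) (gb := nw)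
    (fun p => by simp [nw, nt, mul_assoc]) n u).symm

section
variable {A : Type} [NormedRing A] [NormedAlgebra ℂ A] [StarRing A] [NormedStarGroup A]

lemma nt_lip {u v : A} (hu : ‖u‖ ≤ 3 / 2) (hv : ‖v‖ ≤ 3 / 2) : ‖nt u - nt v‖ ≤ 5 * ‖u - v‖ := by
  have e : nt u - nt v = (3 / 2 : ℂ) • (u - v) - (1 / 2 : ℂ) •
      ((u - v) * star u * u + v * star (u - v) * u + v * star v * (u - v)) := by
    simp only [nt, star_sub, sub_mul, mul_sub, smul_sub, smul_add]
    abel
  have h : ∀ a b c : A, ‖a * b * c‖ ≤ ‖a‖ * ‖b‖ * ‖c‖ := fun a b c => norm_mul₃_le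
  have h1 := h (u - v) (star u) u
  have h2 := h v (star (u - v)) u
  have h3 := h v (star v) (u - v)
  rw [norm_star] at h1 h2 h3
  have h4 := norm_add₃_le (a := (u - v) * star u * u) (b := v * star (u - v) * u)
    (c := v * star v * (u - v))
  have d := norm_nonneg (u - v)
  have p1 := mul_le_mul hu hu (norm_nonneg _) (by norm_num)
  have p2 := mul_le_mul hv hu (norm_nonneg _) (by norm_num)
  have p3 := mul_le_mul hv hv (norm_nonneg _) (by norm_num)
  rw [e]
  refine (norm_sub_le _ _).trans ?_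
  simp only [norm_smul, norm_div, norm_one, Complex.norm_ofNat]
  nlinarith [mul_le_mul_of_nonneg_left p1 d, mul_le_mul_of_nonneg_left p2 d,
    mul_le_mul_of_nonneg_left p3 d]

lemma newton [StarModule ℂ A] {b s u : A} {η : ℝ} (h1 : star b * b = 1) (h2 : ‖b‖ ≤ 1)
    (h3 : star s = s) (h4 : ‖s‖ ≤ 1 / 4) (h5 : ‖u - (b + b * s)‖ ≤ η) (n : ℕ)
    (h6 : 5 ^ n * η ≤ 1 / 4) : ∃ s', star s' = s' ∧ 2 * ‖s'‖ ≤ (1 / 2) ^ 2 ^ n ∧
      ‖nt^[n] u - (b + b * s')‖ ≤ 5 ^ n * η := by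
  have h0 := (norm_nonneg _).trans h5
  induction n with
  | zero => exact ⟨s, h3, by simpa using by linarith, by simpa using h5⟩
  | succ n ih =>
    have p : (0 : ℝ) ≤ 5 ^ n * η := by positivity
    rw [pow_succ] at h6
    obtain ⟨t, a1, a2, a3⟩ := ih (by linarith)
    have a4 : (1 / 2 : ℝ) ^ 2 ^ n ≤ 1 / 2 :=
      pow_le_of_le_one (by norm_num) (by norm_num) (by positivity)
    have a5 : ‖b + b * t‖ ≤ 5 / 4 := (norm_add_le _ _).trans (by
      nlinarith [norm_mul_le b t, norm_nonneg t, norm_nonneg b])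
    have a6 := nt_lip (u := nt^[n] u) (v := b + b * t)
      (by linarith [norm_sub_norm_le (nt^[n] u) (b + b * t)]) (by linarith)
    refine ⟨-((3 / 2 : ℂ) • (t * t) + (1 / 2 : ℂ) • (t * t * t)), by simp [a1, mul_assoc], ?_, ?_⟩
    · have b1 := norm_mul_le t t
      have b2 : ‖t * t * t‖ ≤ _ := norm_mul₃_le
      have b3 := norm_add_le ((3 / 2 : ℂ) • (t * t)) ((1 / 2 : ℂ) • (t * t * t))
      simp only [norm_smul, norm_div, norm_one, Complex.norm_ofNat] at b3
      rw [norm_neg, pow_succ, pow_mul]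
      nlinarith [norm_nonneg t, mul_self_nonneg ‖t‖, pow_le_pow_left₀ (by positivity) a2 2]
    · have e : nt (b + b * t) = b + b * -((3 / 2 : ℂ) • (t * t) + (1 / 2 : ℂ) • (t * t * t)) := by
        have : ∀ x, star b * (b * x) = x := fun x => by rw [← mul_assoc, h1, one_mul]
        simp only [nt, star_add, star_mul, a1, mul_add, add_mul, mul_assoc, h1, this, mul_one,
          mul_neg, mul_smul_comm]
        module
      rw [Function.iterate_succ_apply', ← e, pow_succ]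
      linarith

omit [NormedAlgebra ℂ A] [StarRing A] [NormedStarGroup A] in
lemma cl_mul {a a' b b' : A} {c δ : ℝ} (h : ‖a‖ ≤ 1 ∧ ‖a' - a‖ ≤ c * δ) (hb : ‖b‖ ≤ 1)
    (hb' : ‖b' - b‖ ≤ δ) (hδ : δ ≤ 1) :
    ‖a * b‖ ≤ 1 ∧ ‖a' * b' - a * b‖ ≤ (2 * c + 1) * δ := by
  refine ⟨(norm_mul_le _ _).trans (mul_le_one₀ h.1 (norm_nonneg _) hb), ?_⟩
  rw [show a' * b' - a * b = (a' - a) * (b' - b) + (a' - a) * b + a * (b' - b) by noncomm_ring]
  have h1 := (norm_mul_le (a' - a) (b' - b)).trans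
    (mul_le_of_le_one_right (norm_nonneg _) (hb'.trans hδ))
  have h2 := (norm_mul_le (a' - a) b).trans (mul_le_of_le_one_right (norm_nonneg _) hb)
  have h3 := (norm_mul_le a (b' - b)).trans (mul_le_of_le_one_left (norm_nonneg _) h.1)
  linarith [norm_add₃_le (a := (a' - a) * (b' - b)) (b := (a' - a) * b) (c := a * (b' - b)), h.2]

end

variable {R : Type}

/-- free coordinates -/
def isFr : IX R → Prop
  | none => True
  | some x => x.1.2 ≠ 2

/-- the reconstruction -/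
def FF {A : Type} [Ring A] [Algebra ℂ A] (ε : ℝ) (n : ℕ) (Y : {j : IX R // isFr j} → A) :
    IX R → A
  | none => 0
  | some x =>
    let g := (ε : ℂ)⁻¹ • Y ⟨none, trivial⟩
    let p : Fin 2 → A × A := fun i =>
      let y : Bool → A := fun k => Y ⟨some ((x.1.1, (i : ℕ)), k), by
        simp only [isFr]; revert i; decide⟩
      nw^[n] (y false + Complex.I • y true, y false - Complex.I • y true)
    (1 / 2 : ℂ) • (conj (om x.2) • (g * (p 1).2 * g * (p 0).2 * g) +
      om x.2 • (g * (p 0).1 * g * (p 1).1 * g))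

lemma map_FF {A B : Type} [Ring A] [Algebra ℂ A] [Ring B] [Algebra ℂ B] (φ : A →ₐ[ℂ] B) (ε : ℝ)
    (n : ℕ) (Y : {j : IX R // isFr j} → A) (j : IX R) :
    φ (FF ε n Y j) = FF ε n (fun a => φ (Y a)) j := by
  have h1 : ∀ p, φ (nw^[n] p).1 = (nw^[n] (Prod.map φ φ p)).1 := fun p =>
    congrArg Prod.fst (map_nw φ n p)
  have h2 : ∀ p, φ (nw^[n] p).2 = (nw^[n] (Prod.map φ φ p)).2 := fun p =>
    congrArg Prod.snd (map_nw φ n p)
  cases j <;> simp [FF, h1, h2]

lemma FF_star {A : Type} [Ring A] [Algebra ℂ A] [StarRing A] [StarModule ℂ A] (ε : ℝ) (n : ℕ)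
    {Y : {j : IX R // isFr j} → A} (h : ∀ a, star (Y a) = Y a) (x : Lb R × Bool) :
    ∃ B : A, FF ε n Y (some x) = (1 / 2 : ℂ) • (conj (om x.2) • B + om x.2 • star B) ∧
      B = (ε : ℂ)⁻¹ • Y ⟨none, trivial⟩ * star (nt^[n] (Y ⟨some ((x.1.1, 1), false), by simp [isFr]; decide⟩ +
        Complex.I • Y ⟨some ((x.1.1, 1), true), by simp [isFr]; decide⟩)) * (ε : ℂ)⁻¹ • Y ⟨none, trivial⟩ *
        star (nt^[n] (Y ⟨some ((x.1.1, 0), false), by simp [isFr]; decide⟩ +
        Complex.I • Y ⟨some ((x.1.1, 0), true), by simp [isFr]; decide⟩)) * (ε : ℂ)⁻¹ • Y ⟨none, trivial⟩ := by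
  have : ∀ a b, Y a - Complex.I • Y b = star (Y a + Complex.I • Y b) := fun a b => by
    simp [h, sub_eq_add_neg]
  refine ⟨_, ?_, rfl⟩
  simp only [FF, this, nw_star, star_mul, star_smul, h, star_star, mul_assoc, star_inv₀,
    RCLike.star_def, Complex.conj_ofReal]
  rfl

lemma norm_Lam (g : GG R) : ‖(Lam g : KK R (JJ R) →L[ℂ] _)‖ ≤ 1 := norm_iso_le _ _ _

lemma FF_close {ε τ : ℝ} (h1 : 0 < ε) {n : ℕ} (h2 : τ = (1 / 2) ^ 2 ^ n) (h3 : 16 * 5 ^ n * τ ≤ 1)
    (x : Lb R × Bool) (hx : x.1.2 = 2) :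
    ‖XX ε τ (some x) - FF ε n (fun a => XX ε τ a.1) (some x)‖ ≤ 157 * 5 ^ n * τ := by
  have h0 : 0 < τ := by rw [h2]; positivity
  have h5 : τ ≤ 5 ^ n * τ := le_mul_of_one_le_left h0.le (one_le_pow₀ (by norm_num))
  have hz : ∀ j : JJ R, ‖(τ : ℂ) • (ZL j : KK R (JJ R) →L[ℂ] _)‖ ≤ 2 * τ := fun j => by
    rw [norm_smul, Complex.norm_real, Real.norm_of_nonneg h0.le, mul_comm]
    exact mul_le_mul_of_nonneg_right (norm_ZL j) h0.le
  obtain ⟨⟨ρ, _⟩, k⟩ := x
  obtain rfl : _ = 2 := hx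
  obtain ⟨B, e1, e2⟩ := FF_star ε n (Y := fun a => XX ε τ a.1) (fun a => star_XX _ _ _) ((ρ, 2), k)
  have a1 : ‖(ε : ℂ)⁻¹ • XX (R := R) ε τ none - Lam gg‖ ≤ 5 * 5 ^ n * τ := by
    have : (ε : ℂ) ≠ 0 := by exact_mod_cast h1.ne'
    simp only [XX, XH, am, smul_add, smul_smul, Complex.ofReal_mul, inv_mul_cancel₀ this,
      inv_mul_cancel_left₀ this, one_smul, add_sub_cancel_left]
    linarith [hz (.inl (.inr none))]
  have a2 : ∀ i, ‖star (nt^[n] (XX ε τ (some ((ρ, i), false)) + Complex.I •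
      XX ε τ (some ((ρ, i), true)))) - Lam (bb (ρ, i))⁻¹‖ ≤ 5 * 5 ^ n * τ := fun i => by
    obtain ⟨s, b1, b2, b3⟩ := newton (b := Lam (bb (ρ, i))) (s := sg (ρ, i) • ZL (.inl (.inl (ρ, i))))
      (u := XX ε τ (some ((ρ, i), false)) + Complex.I • XX ε τ (some ((ρ, i), true))) (η := 4 * τ)
      (Lam_unitary _).1 (norm_Lam _) (by simp [star_ZL, conj_sg]) (by
        rw [norm_smul]
        nlinarith [norm_sg (ρ, i), norm_ZL (H := GG R) (.inl (.inl (ρ, i)) : JJ R),
          norm_nonneg (sg (ρ, i))]) (by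
        have : XX ε τ (some ((ρ, i), false)) + Complex.I • XX ε τ (some ((ρ, i), true)) -
            (Lam (bb (ρ, i)) + Lam (bb (ρ, i)) * sg (ρ, i) • ZL (.inl (.inl (ρ, i)))) =
            (τ : ℂ) • ZL (.inl (.inr (some ((ρ, i), false)))) +
              Complex.I • (τ : ℂ) • ZL (.inl (.inr (some ((ρ, i), true)))) := by
          simp only [XX, XH, am, om, mul_add, add_mul, mul_one, one_mul, if_true, if_false,
            Bool.false_eq_true, map_one, Complex.conj_I, mul_smul_comm, smul_mul_assoc]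
          match_scalars <;> ring_nf <;> simp <;> ring
        rw [this]
        refine (norm_add_le _ _).trans ?_
        rw [norm_smul Complex.I, Complex.norm_I, one_mul]
        exact (add_le_add (hz _) (hz _)).trans_eq (by ring)) n (by linarith)
    rw [← star_Lam, ← star_sub, norm_star]
    have b4 := (norm_mul_le _ s).trans (mul_le_of_le_one_left (norm_nonneg _) (norm_Lam (bb (ρ, i))))
    have b5 := norm_sub_norm_le (nt^[n] (XX ε τ (some ((ρ, i), false)) + Complex.I •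
      XX ε τ (some ((ρ, i), true))) - Lam (bb (ρ, i))) (Lam (bb (ρ, i)) * s)
    rw [sub_sub] at b5
    linarith
  have hδ : 5 * 5 ^ n * τ ≤ 1 := by linarith
  have a3 := (cl_mul (cl_mul (cl_mul (cl_mul (c := 1) ⟨norm_Lam _, by rwa [one_mul]⟩ (norm_Lam _)
    (a2 1) hδ) (norm_Lam _) a1 hδ) (norm_Lam _) (a2 0) hδ) (norm_Lam _) a1 hδ).2
  simp only [Lam_mul, ← rel] at a3
  rw [← e2] at a3
  have e3 : XX ε τ (some ((ρ, 2), k)) - FF ε n (fun a => XX ε τ a.1) (some ((ρ, 2), k)) =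
      (τ : ℂ) • ZL (.inl (.inr (some ((ρ, 2), k)))) - (1 / 2 : ℂ) •
        (conj (om k) • (B - Lam (bb (ρ, 2))) + om k • star (B - Lam (bb (ρ, 2)))) := by
    rw [e1]
    simp only [XX, XH, am, sg, if_true, zero_smul, add_zero, mul_one, one_mul, star_sub, star_Lam]
    module
  rw [e3]
  refine (norm_sub_le _ _).trans ((add_le_add (hz _) ((norm_smul_le _ _).trans
    (mul_le_mul_of_nonneg_left (norm_add_le _ _) (norm_nonneg _)))).trans ?_)
  simp only [norm_smul, norm_star_op, Complex.norm_conj, norm_om, norm_div, norm_one,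
    Complex.norm_ofNat]
  linarith

theorem chi_up [Fintype R] (hR : Fintype.card R = 4) : ∃ C : ℝ, ∀ (ε τ : ℝ) (n : ℕ), 0 < ε → ε ≤ 1 →
    τ = (1 / 2) ^ 2 ^ n → 16 * 5 ^ n * τ ≤ 1 →
    chi (fun w => tau (Om (GG R) (JJ R)) (mono (XX ε τ) w)) ≤
      ((C + 8 * (n * Real.log 5 + Real.log τ) : ℝ) : EReal) := by
  refine ⟨Fintype.card {j : IX R // isFr j} * (1 + Real.log (Real.pi * 26) / 2) +
    8 * (1 + Real.log Real.pi / 2 + Real.log 160), fun ε τ n h1 h2 h3 h4 => ?_⟩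
  have h0 : 0 < τ := by rw [h3]; positivity
  have h5 : τ ≤ 1 := by rw [h3]; exact pow_le_one₀ (by norm_num) (by norm_num)
  have hc : (Fintype.card {j : IX R // ¬isFr j} : ℝ) = 8 := by
    have := sum_IX hR 0 1 0
    rw [Fintype.card_subtype, Finset.card_filter]
    push_cast
    refine Eq.trans (Finset.sum_congr rfl ?_) (this.trans (by norm_num))
    rintro (_ | x) _ <;> simp [isFr]
  refine (chi_le (Equiv.sumCompl isFr) (norm_eb _) (fun d => FF ε n (fun a => wd [a]) d.1)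
    (fun k A hA d => ?_) (ρ0 := 26) (ρ1 := (160 * 5 ^ n * τ) ^ 2) (by norm_num) (by positivity)
    (fun a => ?_) fun d => ?_).trans (le_of_eq ?_)
  · obtain ⟨_ | x, hx⟩ := d
    · simp [FF]
    · obtain ⟨B, e, -⟩ := FF_star ε n hA x
      simp only [map_FF, evA_wd, List.map_cons, List.map_nil, List.prod_cons, List.prod_nil,
        mul_one, e, star_smul, star_add, star_star, RCLike.star_def, Complex.conj_conj, map_div₀,
        map_one, map_ofNat]
      rw [add_comm]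
  · have b1 := norm_XH (A := KK R (JJ R) →L[ℂ] KK R (JJ R)) (ε := ε) (U := Lam)
      (Z := fun l => ZL (.inl (.inl l))) (by rwa [abs_of_pos h1]) norm_Lam
      (by simpa only [Lam_one] using norm_Lam (R := R) 1) zero_le_two (fun l => norm_ZL _) a.1
    have b2 : ‖(am ε τ a.1 : ℂ)‖ ≤ 1 := by
      rcases a.1 with _ | _ <;> simp [am, abs_of_pos h1, abs_of_pos h0, h5, mul_le_one₀ h2 h0.le h5]
    have b3 := mul_le_mul b2 (norm_ZL (H := GG R) (.inl (.inr a.1) : JJ R)) (norm_nonneg _) zero_le_one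
    have b4 : ‖XX ε τ a.1‖ ≤ 5 := (norm_add_le _ _).trans (by rw [norm_smul]; linarith)
    exact (pow_le_pow_left₀ (norm_nonneg _) b4 2).trans_lt (by norm_num)
  · obtain ⟨_ | x, hx⟩ := d
    · exact absurd trivial hx
    simp only [map_FF, evA_wd, List.map_cons, List.map_nil, List.prod_cons, List.prod_nil, mul_one]
    refine pow_lt_pow_left₀ ((FF_close h1 h3 h4 x (not_not.1 hx)).trans_lt ?_) (norm_nonneg _)
      two_ne_zero
    gcongr
    norm_num
  · rw [hc, Real.log_mul (x := Real.pi) (y := _ ^ 2) (by positivity) (by positivity), Real.log_pow,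
      Real.log_mul (y := τ) (by positivity) h0.ne', Real.log_mul (x := 160) (by positivity) (by positivity),
      Real.log_pow]
    congr 1
    push_cast
    ring

theorem main : ∃ (E : Type) (_ : NormedAddCommGroup E) (_ : InnerProductSpace ℂ E)
    (_ : CompleteSpace E) (M : VonNeumannAlgebra E) (Ω : E) (ι : Type) (_ : Fintype ι)
    (_ : DecidableEq ι) (_ : Nonempty ι) (X S : ι → E →L[ℂ] E),
    FaithfulTrace M Ω ∧ (∀ j, X j ∈ M ∧ IsSelfAdjoint (X j) ∧ S j ∈ M) ∧ FreeSemi Ω X S ∧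
      ⊥ < chi (fun w => tau Ω (mono X w)) ∧ chi (fun w => tau Ω (mono X w)) < chiStar Ω X S := by
  have hR := Fintype.card_fin 4
  obtain ⟨C1, h1⟩ := chiStar_ge hR
  obtain ⟨C2, h2⟩ := chi_up hR
  have l2 := Real.log_two_gt_d9
  have t := ((tendsto_pow_const_div_const_pow_of_one_lt 0 one_lt_two).const_mul
    (4 + 2 * |C1 + C2|)).add ((tendsto_pow_const_div_const_pow_of_one_lt 1 one_lt_two).const_mul 30)
  obtain ⟨n, hn⟩ := (t.eventually (gt_mem_nhds (show _ < (1 : ℝ) by simp))).exists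
  rw [pow_zero, pow_one, ← mul_div_assoc, ← mul_div_assoc, ← add_div, div_lt_one (by positivity),
    mul_one] at hn
  obtain ⟨τ, hτ⟩ : ∃ τ : ℝ, τ = (1 / 2) ^ 2 ^ n := ⟨_, rfl⟩
  have p0 : 0 < τ := by rw [hτ]; positivity
  have p1 : τ ≤ 1 := by rw [hτ]; exact pow_le_one₀ (by norm_num) (by norm_num)
  have p2 := mul_pos (e0_pos (R := Fin 4)) p0
  have p3 := mul_le_one₀ (e0_le (R := Fin 4)) p0.le p1
  have p4 : 16 * 5 ^ n * τ ≤ 1 := by
    have a : 4 + 3 * n ≤ 2 ^ n := by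
      have : ((4 + 3 * n : ℕ) : ℝ) ≤ (2 ^ n : ℕ) := by
        push_cast
        linarith [abs_nonneg (C1 + C2), (Nat.cast_nonneg n : (0 : ℝ) ≤ n)]
      exact_mod_cast this
    rw [hτ, one_div, inv_pow, mul_inv_le_iff₀ (by positivity), one_mul]
    refine le_trans ?_ (pow_le_pow_right₀ one_le_two a)
    rw [pow_add, pow_mul]
    gcongr <;> norm_num
  refine ⟨_, _, _, inferInstance, VN _ _, Om _ _, _, _, _, ⟨none⟩, XX (e0 (Fin 4) * τ) τ, SS,
    faithful_VN, fun j => ⟨XX_mem _ Lam_mem (fun _ => ZL_mem _) j, star_XX _ _ _, ZL_mem _⟩,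
    freeSemi _ _, chi_gt p2 p3 p0 p1,
    ((h2 _ _ n p2 p3 hτ p4).trans_lt (EReal.coe_lt_coe_iff.2 ?_)).trans_le (h1 τ p0 p1)⟩
  have q1 : Real.log τ = -(2 ^ n * Real.log 2) := by simp [hτ]
  have q2 : Real.log 5 ≤ 3 * Real.log 2 := by
    rw [← Real.log_rpow two_pos]
    exact Real.log_le_log (by norm_num) (by norm_num)
  have q3 := mul_le_mul_of_nonneg_left q2 (Nat.cast_nonneg n)
  rw [q1]
  nlinarith [mul_lt_mul_of_pos_right hn (Real.log_pos one_lt_two), le_abs_self (C1 + C2),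
    abs_nonneg (C1 + C2)]

end

end Vale.Agent.P087
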