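import Vale.Agent.P087.Stein
import Vale.Agent.P087.Conj

open MeasureTheory Filter Topology Real
open scoped InnerProductSpace ENNReal

namespace Vale.Agent.P087

noncomputable section

lemma vol_ball {I : Type} [Fintype I] (r : ℝ) {s : ℝ} (hs : 0 < s) :
    volume {x : I → ℝ | ∑ i, x i ^ 2 ≤ r} ≤
      ENNReal.ofReal (exp (s * r) * √(π / s) ^ Fintype.card I) := by
  have h1 : Integrable fun x : I → ℝ => exp (s * r) * ∏ i, exp (-s * x i ^ 2) :=
    (Integrable.fintype_prod (f := fun _ (x : ℝ) => exp (-s * x ^ 2))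
      fun _ => integrable_exp_neg_mul_sq hs).const_mul _
  rw [← integral_gaussian, ← integral_fintype_prod_volume_eq_pow, ← integral_const_mul,
    ofReal_integral_eq_lintegral_ofReal h1 (ae_of_all _ fun x => by positivity)]
  refine meas_le_lintegral₀ (Measurable.aemeasurable (by fun_prop)) fun x hx => ENNReal.one_le_ofReal.2 ?_
  rw [← exp_sum, ← exp_add, ← Finset.mul_sum]
  exact one_le_exp (by nlinarith [mul_le_mul_of_nonneg_left hx hs.le])

lemma vol_upper {I I1 I2 : Type} [Fintype I] [Fintype I1] [Fintype I2] (e : I1 ⊕ I2 ≃ I)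
    {c : (I1 → ℝ) → I2 → ℝ} (hc : Continuous c) (r1 r2 : ℝ) :
    volume {x : I → ℝ | ∑ i, x (e (.inl i)) ^ 2 ≤ r1 ∧
      ∑ i, (x (e (.inr i)) - c (fun a => x (e (.inl a))) i) ^ 2 ≤ r2} ≤
      volume {x : I2 → ℝ | ∑ i, x i ^ 2 ≤ r2} * volume {x : I1 → ℝ | ∑ i, x i ^ 2 ≤ r1} := by
  have h1 := (volume_measurePreserving_piCongrLeft (fun _ : I => ℝ) e).comp
    (volume_measurePreserving_sumPiEquivProdPi_symm fun _ : I1 ⊕ I2 => ℝ)
  let B := {p : (I1 → ℝ) × (I2 → ℝ) | ∑ i, p.1 i ^ 2 ≤ r1 ∧ ∑ i, (p.2 i - c p.1 i) ^ 2 ≤ r2}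
  have hB : MeasurableSet B := by
    refine (IsClosed.and ?_ ?_).measurableSet <;> exact isClosed_le (by fun_prop) continuous_const
  have hm : MeasurableSet {x : I1 → ℝ | ∑ i, x i ^ 2 ≤ r1} :=
    (isClosed_le (by fun_prop) continuous_const).measurableSet
  rw [← MeasurePreserving.measure_preimage_equiv
    (f := (MeasurableEquiv.sumPiEquivProdPi fun _ : I1 ⊕ I2 => ℝ).symm.trans
      (.piCongrLeft (fun _ : I => ℝ) e)) h1, ← lintegral_indicator_const hm]
  refine le_trans (le_of_eq (congrArg _ ?_)) ((Measure.prod_apply_le hB).trans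
    (lintegral_mono fun y => ?_))
  · ext p
    simp [B, MeasurableEquiv.piCongrLeft_apply_apply, MeasurableEquiv.coe_sumPiEquivProdPi_symm]
  by_cases h : y ∈ {x : I1 → ℝ | ∑ i, x i ^ 2 ≤ r1}
  · rw [Set.indicator_of_mem h]
    refine le_trans (measure_mono fun z hz => ?_) (measure_preimage_add_right volume (-c y) _).le
    simpa [sub_eq_add_neg] using hz.2
  · rw [show Prod.mk y ⁻¹' B = ∅ from Set.eq_empty_of_forall_notMem fun z hz => h hz.1]
    simp

variable {ι : Type} {μ : List ι → ℂ} {R : ℝ}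

variable (μ R) in
/-- true for all sufficiently good microstates -/
def Ev (Q : ∀ k, (ι × Fin k × Fin k → ℝ) → Prop) : Prop :=
  ∃ m ε, 0 < ε ∧ ∀ k, 0 < k → ∀ x ∈ Gam μ R m k ε, Q k x

variable {P Q : ∀ k, (ι × Fin k × Fin k → ℝ) → Prop}

lemma Ev.mono (h : Ev μ R P) (h' : ∀ k x, 0 < k → P k x → Q k x) : Ev μ R Q := by
  obtain ⟨m, ε, h1, h2⟩ := h
  exact ⟨m, ε, h1, fun k hk x hx => h' k x hk (h2 k hk x hx)⟩

lemma Ev.and (h : Ev μ R P) (h' : Ev μ R Q) : Ev μ R fun k x => P k x ∧ Q k x := by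
  obtain ⟨m, ε, h1, h2⟩ := h
  obtain ⟨m', ε', h1', h2'⟩ := h'
  exact ⟨max m m', min ε ε', lt_min h1 h1', fun k hk x hx =>
    ⟨h2 k hk x ⟨hx.1, fun w a b => (hx.2 w a (le_max_of_le_left b)).trans_le (min_le_left _ _)⟩,
    h2' k hk x ⟨hx.1, fun w a b => (hx.2 w a (le_max_of_le_right b)).trans_le (min_le_right _ _)⟩⟩⟩

lemma Ev.all {α : Type} [Finite α] {P : α → ∀ k, (ι × Fin k × Fin k → ℝ) → Prop}
    (h : ∀ a, Ev μ R (P a)) : Ev μ R fun k x => ∀ a, P a k x := by
  choose m ε h1 h2 using h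
  have : ∀ s : Set α, s.Finite → Ev μ R fun k x => ∀ a ∈ s, P a k x := by
    intro s hs
    induction s, hs using Set.Finite.induction_on with
    | empty => exact ⟨0, 1, one_pos, by simp⟩
    | insert _ _ ih => exact (Ev.and ⟨_, _, h1 _, h2 _⟩ ih).mono fun l x _ hx => by simpa using hx
  exact (this _ Set.finite_univ).mono fun k x _ hx a => hx a trivial

variable {K : Type} [NormedAddCommGroup K] [InnerProductSpace ℂ K] {Ω : K} {X : ι → K →L[ℂ] K}

/-- the matrices -/
def hm {k : ℕ} (x : ι × Fin k × Fin k → ℝ) (j : ι) : Matrix (Fin k) (Fin k) ℂ :=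
  herm fun p q => x (j, p, q)

lemma ev_poly (hΩ : ‖Ω‖ = 1) (P : PA ι) : ∀ η : ℝ, 0 < η → Ev (fun w => tau Ω (mono X w)) R
    fun k x => ‖ntr (evA (hm x) P) - tau Ω (evA X P)‖ < η := by
  induction P using PA_ind with
  | h1 w =>
    refine fun η hη => ⟨w.length, η, hη, fun k hk x hx => ?_⟩
    cases w with
    | nil => simpa [ntr, tau, hk.ne', hΩ] using hη
    | cons a w =>
      simp only [evA_wd, ntr, inv_mul_eq_div]
      exact hx.2 (a :: w) (by simp) le_rfl
  | h2 x y h1 h2 =>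
    refine fun ε hε => ((h1 _ (half_pos hε)).and (h2 _ (half_pos hε))).mono fun l z _ h => ?_
    simp only [map_add, ntr, tau, Matrix.trace_add, mul_add, add_apply, inner_add_right] at h ⊢
    rw [add_sub_add_comm]
    exact (norm_add_le _ _).trans_lt (by linarith)
  | h3 c x h1 =>
    refine fun ε hε => (h1 (ε / (‖c‖ + 1)) (by positivity)).mono fun l z _ h => ?_
    simp only [map_smul, ntr, tau, Matrix.trace_smul, smul_apply, inner_smul_right,
      smul_eq_mul] at h ⊢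
    rw [mul_left_comm, ← mul_sub, norm_mul]
    rw [lt_div_iff₀ (by positivity)] at h
    nlinarith [norm_nonneg ((l : ℂ)⁻¹ * (evA (hm z) x).trace - ⟪Ω, evA X x Ω⟫_ℂ)]

lemma ev_sq (hΩ : ‖Ω‖ = 1) (P : PA ι) {ρ : ℝ} (h : ‖evA X P‖ ^ 2 < ρ) :
    Ev (fun w => tau Ω (mono X w)) R fun k x => ∀ y : Fin k → Fin k → ℝ,
      evA (hm x) P = herm y → ∑ p, ∑ q, y p q ^ 2 ≤ k * ρ := by
  refine (ev_poly hΩ (P * P) _ (sub_pos.2 h)).mono fun k x hk h1 y hy => ?_
  have h2 : ‖tau Ω (evA X (P * P))‖ ≤ ‖evA X P‖ ^ 2 := by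
    refine (norm_inner_le_norm _ _).trans ?_
    rw [hΩ, one_mul, map_mul, sq]
    exact ((ContinuousLinearMap.le_opNorm _ _).trans_eq (by rw [hΩ, mul_one])).trans (norm_mul_le _ _)
  have h3 := norm_sub_norm_le (ntr (evA (hm x) (P * P))) (tau Ω (evA X (P * P)))
  have h4 : ‖ntr (evA (hm x) (P * P))‖ = (k : ℝ)⁻¹ * ∑ p, ∑ q, y p q ^ 2 := by
    rw [map_mul, hy, ntr, trace_herm_sq, norm_mul, Complex.norm_real,
      Real.norm_of_nonneg (by positivity)]
    simp
  rw [← inv_mul_le_iff₀ (by positivity)]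
  linarith

lemma map_evA {Λ A B : Type} [Ring A] [Algebra ℂ A] [Ring B] [Algebra ℂ B] (φ : A →ₐ[ℂ] B)
    (f : Λ → A) (P : PA Λ) : φ (evA f P) = evA (fun a => φ (f a)) P := by
  induction P using PA_ind with
  | h1 w => simp [map_list_prod, Function.comp_def]
  | h2 x y h1 h2 => simp [h1, h2]
  | h3 c x h1 => simp [h1]

theorem chi_le [Fintype ι] {Fr D : Type} [Fintype Fr] [Fintype D] (e : Fr ⊕ D ≃ ι) (hΩ : ‖Ω‖ = 1)
    (F : D → PA Fr) (hF : ∀ k (A : Fr → Matrix (Fin k) (Fin k) ℂ), (∀ a, star (A a) = A a) →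
      ∀ d, star (evA A (F d)) = evA A (F d)) {ρ0 ρ1 : ℝ} (p0 : 0 < ρ0) (p1 : 0 < ρ1)
    (h0 : ∀ a, ‖X (e (.inl a))‖ ^ 2 < ρ0)
    (h1 : ∀ d, ‖X (e (.inr d)) - evA (fun a => X (e (.inl a))) (F d)‖ ^ 2 < ρ1) :
    chi (fun w => tau Ω (mono X w)) ≤ ((Fintype.card Fr * (1 + log (π * ρ0) / 2) +
      Fintype.card D * (1 + log (π * ρ1) / 2) : ℝ) : EReal) := by
  refine iSup₂_le fun R _ => ?_
  obtain ⟨m, ε, a1, a2⟩ := (Ev.all fun a => ev_sq (R := R) hΩ (wd [e (.inl a)]) (by simpa using h0 a)).and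
    (Ev.all fun d => ev_sq hΩ (wd [e (.inr d)] - evA (fun a => wd [e (.inl a)]) (F d))
      (by simpa [map_evA] using h1 d))
  refine (iInf_le _ m).trans ((iInf₂_le ε a1).trans (limsup_le_of_le (h := ?_)))
  filter_upwards [eventually_gt_atTop 0] with k hk
  have hk' : (0 : ℝ) < k := by exact_mod_cast hk
  let c : (Fr × Fin k × Fin k → ℝ) → D × Fin k × Fin k → ℝ := fun y i =>
    unherm (evA (hm y) (F i.1)) i.2.1 i.2.2
  have hc : Continuous c := continuous_pi fun i => by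
    have := (cont_evA (f := fun y : Fr × Fin k × Fin k → ℝ => hm y)
      (fun a => cont_herm fun p q => continuous_apply _) (F i.1)).matrix_elem i.2.1 i.2.2
    simp only [c, unherm]
    fun_prop
  have b1 := vol_upper ((Equiv.sumProdDistrib Fr D (Fin k × Fin k)).symm.trans
    (e.prodCongr (Equiv.refl _))) hc (Fintype.card Fr * (k * ρ0)) (Fintype.card D * (k * ρ1))
  have b2 := (measure_mono (s := Gam (fun w => tau Ω (mono X w)) R m k ε) fun x hx => ?_).trans
    (b1.trans (mul_le_mul' (vol_ball _ (div_pos hk' p1)) (vol_ball _ (div_pos hk' p0))))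
  · rw [← ENNReal.ofReal_mul (by positivity)] at b2
    have b3 := (ENNReal.log_le_log b2).trans_eq (ENNReal.log_ofReal_of_pos (by positivity))
    refine le_trans (add_le_add_left (mul_le_mul_of_nonneg_left b3 (by positivity)) _) (le_of_eq ?_)
    rw [← EReal.coe_mul, ← EReal.coe_add, log_mul (by positivity) (by positivity),
      log_mul (by positivity) (by positivity), log_mul (by positivity) (by positivity), log_exp,
      log_exp, log_pow, log_pow, log_sqrt (by positivity), log_sqrt (by positivity),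
      div_div_eq_mul_div, div_div_eq_mul_div, log_div (by positivity) hk'.ne',
      log_div (by positivity) hk'.ne', ← Fintype.card_congr e]
    simp only [Fintype.card_prod, Fintype.card_fin, Fintype.card_sum, Nat.cast_mul, Nat.cast_add]
    congr 1
    field_simp
    ring
  obtain ⟨a3, a4⟩ := a2 k hk x hx
  constructor
  · rw [Fintype.sum_prod_type, ← nsmul_eq_mul]
    refine Finset.sum_le_card_nsmul _ _ _ fun a _ => ?_
    rw [Fintype.sum_prod_type]
    exact a3 a _ (by simp [hm])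
  · rw [Fintype.sum_prod_type, ← nsmul_eq_mul]
    refine Finset.sum_le_card_nsmul _ _ _ fun d _ => ?_
    rw [Fintype.sum_prod_type]
    refine a4 d ((fun p q => x (e (.inr d), p, q)) - unherm (evA (fun a => hm x (e (.inl a))) (F d))) ?_
    rw [herm_sub, herm_unherm (hF _ (fun a => hm x (e (.inl a))) (fun a => star_herm _) d)]
    simp [map_evA, hm]

end

end Vale.Agent.P087
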