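import Vale.Agent.P087.Loop
import Vale.Agent.P086.Fock

open scoped Classical

namespace Vale.Agent.P087

open Vale.Agent.P086 Vale.Agent.P086.W

noncomputable section

section sp

variable {α M N : Type} [AddCommGroup M] [AddCommGroup N]

/-- sum over splittings of a list -/
def Sp : List α → (List α → List α → M) → M
  | [], F => F [] []
  | a :: l, F => F [] (a :: l) + Sp l fun p q => F (a :: p) q

lemma Sp_congr {l : List α} {F G : List α → List α → M}
    (h : ∀ p q, l = p ++ q → F p q = G p q) : Sp l F = Sp l G := by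
  induction l generalizing F G with
  | nil => exact h _ _ rfl
  | cons a l ih =>
    simp only [Sp]
    rw [h _ _ rfl, ih (G := fun p q => G (a :: p) q) fun p q e => h _ _ (by simp [e])]

lemma Sp_map (f : M → N) (hf : ∀ x y, f (x + y) = f x + f y) (l : List α)
    (F : List α → List α → M) : f (Sp l F) = Sp l fun p q => f (F p q) := by
  induction l generalizing F with
  | nil => rfl
  | cons a l ih => simp only [Sp, hf, ih]

lemma smul_Sp [Module ℂ M] (c : ℂ) (l : List α) (F : List α → List α → M) :
    c • Sp l F = Sp l fun p q => c • F p q := Sp_map (fun x => c • x) (smul_add c) l F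

lemma Sp_add (l : List α) (F G : List α → List α → M) :
    Sp l (fun p q => F p q + G p q) = Sp l F + Sp l G := by
  induction l generalizing F G with
  | nil => rfl
  | cons a l ih => simp only [Sp, ih]; abel

lemma Sp_sub (l : List α) (F G : List α → List α → M) :
    Sp l (fun p q => F p q - G p q) = Sp l F - Sp l G := by
  induction l generalizing F G with
  | nil => rfl
  | cons a l ih => simp only [Sp, ih]; abel

lemma Sp_zero (l : List α) : Sp l (fun _ _ => (0 : M)) = 0 := by
  induction l <;> simp_all [Sp]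

lemma Sp_assoc (l : List α) (G : List α → List α → List α → M) :
    Sp l (fun p q => Sp p fun a b => G a b q) = Sp l fun a r => Sp r fun b q => G a b q := by
  induction l generalizing G with
  | nil => rfl
  | cons x l ih => simp only [Sp, Sp_add, ih, add_assoc]

lemma Sp_first {l : List α} {F : List α → List α → M}
    (h : ∀ p q, l = p ++ q → p ≠ [] → F p q = 0) : Sp l F = F [] l := by
  cases l with
  | nil => rfl
  | cons a l =>
    rw [Sp, Sp_congr (G := fun _ _ => 0) fun p q e => h _ _ (by simp [e]) (by simp), Sp_zero,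
      add_zero]

lemma Sp_last {l : List α} {F : List α → List α → M}
    (h : ∀ p q, q ≠ [] → F p q = 0) : Sp l F = F l [] := by
  induction l generalizing F with
  | nil => rfl
  | cons a l ih => rw [Sp, h _ _ (by simp), zero_add, ih fun p q e => h _ _ e]

lemma Sp_concat (l : List α) (x : α) (F : List α → List α → M) :
    Sp (l ++ [x]) F = Sp l (fun p q => F p (q ++ [x])) + F (l ++ [x]) [] := by
  induction l generalizing F with
  | nil => simp [Sp]
  | cons a l ih => simp only [List.cons_append, Sp, ih, add_assoc]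

lemma Sp_mem [Module ℂ M] (S : Submodule ℂ M) (l : List α) {F : List α → List α → M}
    (h : ∀ p q, F p q ∈ S) : Sp l F ∈ S := by
  induction l generalizing F with
  | nil => exact h _ _
  | cons a l ih => exact add_mem (h _ _) (ih fun _ _ => h _ _)

lemma exists_rec {β : Type} (b : β) (G : α → List α → (List α → β) → β)
    (hG : ∀ a q T T', (∀ q' : List α, q'.length ≤ q.length → T q' = T' q') → G a q T = G a q T') :
    ∃ T : List α → β, T [] = b ∧ ∀ a q, T (a :: q) = G a q T := by
  let TA : ℕ → List α → β := fun k => Nat.rec (fun _ => b)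
    (fun _ T q => match q with | [] => b | a :: q => G a q T) k
  have key : ∀ k k' (q : List α), q.length ≤ k → q.length ≤ k' → TA k q = TA k' q := by
    intro k
    induction k with
    | zero =>
      intro k' q h _
      obtain rfl : q = [] := by simpa using h
      cases k' <;> rfl
    | succ k ih =>
      intro k' q h h'
      cases q with
      | nil => cases k' <;> rfl
      | cons a q =>
        cases k' with
        | zero => simp at h'
        | succ k' =>
          simp only [List.length_cons, add_le_add_iff_right] at h h'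
          exact hG a q _ _ fun q' hq => ih k' q' (by omega) (by omega)
  exact ⟨fun q => TA q.length q, rfl, fun a q => hG a q _ _ fun q' hq => key _ _ q' hq le_rfl⟩

end sp

variable {R J : Type}

/-- algebraic Fock space -/
abbrev AA (R J : Type) := W (GG R) J →₀ ℂ

/-- index lists -/
abbrev LL (R J : Type) := List (J × HH R)

/-- end point -/
def ed (a : GG R) (p : LL R J) : GG R := en a (p.map Prod.snd)

/-- vertices -/
def vs (a : GG R) (p : LL R J) : List (VX R) := vx a :: tl a (p.map Prod.snd)

/-- inverse of the embedding -/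
def ti (a : GG R) : HH R := Function.invFun th a

@[simp] lemma ti_th (h : HH R) : ti (th h) = h := Function.leftInverse_invFun th_inj h

lemma th_ti {a : GG R} (h : vx a = vx 1) : th (ti a) = a := by
  obtain ⟨k, rfl⟩ := vx_eq.1 h.symm
  simp

@[simp] lemma vx_th1 (h : HH R) : vx (th h) = vx 1 := by simpa using vx_th 1 h

@[simp] lemma ed_nil (a : GG R) : ed a ([] : LL R J) = a := rfl
@[simp] lemma ed_cons (a : GG R) (x : J × HH R) (p : LL R J) :
    ed a (x :: p) = ed (a * gg * th x.2) p := rfl
@[simp] lemma vs_nil (a : GG R) : vs a ([] : LL R J) = [vx a] := rfl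
lemma vs_cons (a : GG R) (x : J × HH R) (p : LL R J) :
    vs a (x :: p) = vx a :: vs (a * gg * th x.2) p := rfl

lemma ed_append (a : GG R) (p q : LL R J) : ed a (p ++ q) = ed (ed a p) q := by
  induction p generalizing a <;> simp_all

lemma ed_mul (g a : GG R) (p : LL R J) : ed (g * a) p = g * ed a p := by
  induction p generalizing a with
  | nil => rfl
  | cons x p ih => simp only [ed_cons, mul_assoc, ih]

lemma vs_mul (g a : GG R) (p : LL R J) : vs (g * a) p = (vs a p).map (g • ·) := by
  induction p generalizing a with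
  | nil => rfl
  | cons x p ih => simp only [vs_cons, mul_assoc, ih, List.map_cons, vx_mul]

lemma vs_concat (a : GG R) (p : LL R J) (x : J × HH R) :
    vs a (p ++ [x]) = vs a p ++ [vx (ed a (p ++ [x]))] := by
  induction p generalizing a with
  | nil => rfl
  | cons y p ih => simp only [List.cons_append, vs_cons, ih, ed_cons]

lemma Oc_vs (c : VX R) (a : GG R) (p : LL R J) (F : List (VX R) → List (VX R) → ℤ) :
    Oc c (vs a p) (fun u v => F (u ++ [c]) (c :: v)) =
      Sp p fun p1 p2 => if vx (ed a p1) = c then F (vs a p1) (vs (ed a p1) p2) else 0 := by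
  induction p generalizing a F with
  | nil =>
    simp only [vs_nil, Oc, Sp, ed_nil, add_zero]
    by_cases h : vx a = c <;> simp [h]
  | cons x p ih =>
    rw [vs_cons, Oc, Sp]
    congr 1
    · simp only [ed_nil, vs_nil, vs_cons]
      by_cases h : vx a = c <;> simp [h]
    · exact ih (a * gg * th x.2) fun u v => F (vx a :: u) v

variable (j0 : J) (ε : ℂ)

/-- weight of a letter -/
def wj (j : J) : ℂ := if j = j0 then ε else 0

/-- weight -/
def wt (p : LL R J) : ℂ := (p.map fun x => wj j0 ε x.1).prod

/-- coefficient -/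
def co (a : GG R) (p : LL R J) : ℂ := wt j0 ε p * nn (vs a p)

@[simp] lemma co_nil (a : GG R) : co j0 ε a ([] : LL R J) = 1 := by simp [co, wt]

lemma co_mul (g a : GG R) (p : LL R J) : co j0 ε (g * a) p = co j0 ε a p := by
  rw [co, vs_mul, nn_map (MulAction.injective g), co]

lemma co_zero {a : GG R} {p : LL R J} (hp : p ≠ []) (h : vx (ed a p) = vx a) :
    co j0 ε a p = 0 := by
  obtain ⟨p, x, rfl⟩ := (List.eq_nil_or_concat' p).resolve_left hp
  rw [co, vs_concat, h, vs, List.cons_append, nn_ends]
  simp

lemma co_cons (x : J × HH R) (p : LL R J) : co j0 ε 1 (x :: p) = wj j0 ε x.1 *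
    (co j0 ε (gg * th x.2) p - Sp p fun p1 p2 => if vx (ed (gg * th x.2) p1) = vx 1 then
      co j0 ε (gg * th x.2) p1 * co j0 ε (ed (gg * th x.2) p1) p2 else 0) := by
  rw [co, vs_cons, nn_cons, Oc_vs (vx 1) _ p fun u v => nn u * nn v, one_mul, Int.cast_sub,
    Sp_map (fun x : ℤ => (x : ℂ)) Int.cast_add, wt, List.map_cons, List.prod_cons, mul_assoc,
    mul_sub, Sp_map (fun y => (p.map fun x => wj j0 ε x.1).prod * y) (mul_add _)]
  congr 2
  refine Sp_congr fun p1 p2 e => ?_
  split_ifs
  · simp only [co, wt, e, List.map_append, List.prod_append, Int.cast_mul]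
    ring
  · simp

/-- first block expansion -/
def Phi (T : LL R J → AA R J) (a : GG R) (l : LL R J) : AA R J :=
  Sp l fun p q => co j0 ε a p • mp (lam (ed a p)) (T q)

lemma mp_lam_lam (g h : GG R) (v : AA R J) : mp (lam g) (mp (lam h) v) = mp (lam (g * h)) v := by
  rw [mp_mp]; congr 2; ext w; simp

lemma mp_lam_one (v : AA R J) : mp (lam (1 : GG R)) v = v := by
  rw [show (lam (1 : GG R) : W (GG R) J → _) = id from funext lam_one]
  simp

lemma lam_Phi (T : LL R J → AA R J) (g a : GG R) (l : LL R J) :
    mp (lam g) (Phi j0 ε T a l) = Phi j0 ε T (g * a) l := by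
  rw [Phi, Sp_map _ (map_add _)]
  exact Sp_congr fun p q _ => by rw [map_smul, mp_lam_lam, co_mul, ed_mul]

lemma Phi_cons (T : LL R J → AA R J) (x : J × HH R) (l : LL R J) :
    Phi j0 ε T 1 (x :: l) = T (x :: l) + wj j0 ε x.1 • (Phi j0 ε T (gg * th x.2) l -
      Sp l fun p q => if vx (ed (gg * th x.2) p) = vx 1 then
        co j0 ε (gg * th x.2) p • Phi j0 ε T (ed (gg * th x.2) p) q else 0) := by
  rw [Phi, Sp, co_nil, ed_nil, mp_lam_one, one_smul]
  congr 1
  have e : (Sp l fun p q => if vx (ed (gg * th x.2) p) = vx 1 then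
      co j0 ε (gg * th x.2) p • Phi j0 ε T (ed (gg * th x.2) p) q else 0) =
      Sp l fun p q => Sp p fun p1 p2 => (if vx (ed (gg * th x.2) p1) = vx 1 then
      co j0 ε (gg * th x.2) p1 * co j0 ε (ed (gg * th x.2) p1) p2 else 0) •
        mp (lam (ed (gg * th x.2) (p1 ++ p2))) (T q) := by
    rw [Sp_assoc]
    refine Sp_congr fun p q _ => ?_
    split_ifs
    · rw [Phi, smul_Sp]
      exact Sp_congr fun b c _ => by rw [smul_smul, ed_append]
    · simp [Sp_zero]
  rw [e, Phi, ← Sp_sub, smul_Sp]
  refine Sp_congr fun p q _ => ?_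
  rw [co_cons, ed_cons, one_mul, mul_smul, sub_smul,
    Sp_map (fun y : ℂ => y • mp (lam (ed (gg * th x.2) p)) (T q)) fun _ _ => add_smul _ _ _]
  congr 2
  exact Sp_congr fun p1 p2 e => by rw [e]

variable (d : HH R → AA R J)

/-- the vectors -/
def UU (T : LL R J → AA R J) (h : HH R) (l : LL R J) : AA R J :=
  Phi j0 ε T (th h) l + if l = [] then d h else 0

/-- source term -/
def src (x : J × HH R) (q : LL R J) : AA R J :=
  wj j0 ε x.1 • ((if q = [] then mp (lam gg) (d x.2) else 0) -
    if vx (ed (gg * th x.2) q) = vx 1 then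
      co j0 ε (gg * th x.2) q • d (ti (ed (gg * th x.2) q)) else 0)

/-- defining recursion of the tails -/
def IsT (ω : AA R J) (T : LL R J → AA R J) : Prop :=
  T [] = ω ∧ ∀ x q, T (x :: q) = src j0 ε d x q + mp (cons 1 x.1) (UU j0 ε d T x.2 q)

lemma exists_T (ω : AA R J) : ∃ T, IsT j0 ε d ω T :=
  exists_rec ω (fun x q T => src j0 ε d x q + mp (cons 1 x.1) (UU j0 ε d T x.2 q))
    fun x q T T' h => by
      simp only [UU, Phi]
      rw [Sp_congr fun p r e => by rw [h r (by simp [e])]]

/-- no particles -/
def ZP (v : AA R J) : Prop := ∀ b j, op (ells j) (mp (lam b) v) = 0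

lemma ZP_single (x : GG R) (c : ℂ) : ZP (c • bv (one x) : AA R J) := fun b j => by
  rw [map_smul, map_smul, mp_bv, op_bv, lam_o, ells, smul_zero]

lemma ZP_zero : ZP (0 : AA R J) := fun b j => by simp

/-- contraction term -/
def Ann {M : Type} [Zero M] (U : HH R → LL R J → M) (j : J) (h : HH R) : LL R J → M
  | [] => 0
  | x :: l => if h = 1 ∧ x.1 = j then U x.2 l else 0

variable {j0 ε d} {ω : AA R J} {T : LL R J → AA R J}

lemma lam_cons (b : GG R) (j : J) (v : AA R J) :
    mp (lam b) (mp (cons 1 j) v) = mp (cons b j) v := by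
  rw [mp_mp]; congr 2; ext w; simp [lam]

lemma ells_T (hT : IsT j0 ε d ω T) (hω : ZP ω) (hd : ∀ h, ZP (d h)) (b : GG R) (j : J)
    (q : LL R J) : op (ells j) (mp (lam b) (T q)) =
      if b = 1 then Ann (UU j0 ε d T) j 1 q else 0 := by
  cases q with
  | nil => rw [hT.1, hω]; simp [Ann]
  | cons x q =>
    have : op (ells j) (mp (lam b) (src j0 ε d x q)) = 0 := by
      rw [src]
      split_ifs <;> simp only [map_smul, map_sub, mp_lam_lam, hd _ _ _, map_zero, smul_zero,
        sub_zero]
    rw [hT.2, map_add, map_add, this, lam_cons, ells_mp_cons, zero_add, Ann]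
    by_cases hb : b = 1 <;> simp [hb]

lemma ells_U (hT : IsT j0 ε d ω T) (hω : ZP ω) (hd : ∀ h, ZP (d h)) (j : J) (h : HH R)
    (l : LL R J) : op (ells j) (UU j0 ε d T h l) = Ann (UU j0 ε d T) j h l := by
  have h1 : op (ells j) (if l = [] then d h else 0) = 0 := by
    split_ifs
    · simpa only [mp_lam_one] using hd h 1 j
    · simp
  rw [UU, map_add, h1, add_zero, Phi, Sp_map _ (map_add _), Sp_first]
  · rw [co_nil, one_smul, ells_T hT hω hd, ed_nil]
    cases l with
    | nil => simp [Ann]
    | cons x l => by_cases e : h = 1 <;> simp [Ann, e, map_eq_one_iff _ th_inj]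
  · intro p q _ hp
    rw [map_smul, ells_T hT hω hd]
    split_ifs with e
    · rw [co_zero j0 ε hp (by rw [e, vx_th1]), zero_smul]
    · simp

lemma y_U (hT : IsT j0 ε d ω T) (hω : ZP ω) (hd : ∀ h, ZP (d h)) (j : J) (h : HH R)
    (l : LL R J) : zl j (UU j0 ε d T h l) + wj j0 ε j • mp (lam gg) (UU j0 ε d T h l) =
      UU j0 ε d T 1 ((j, h) :: l) + Ann (UU j0 ε d T) j h l +
      Sp l fun p q => if vx (ed (gg * th h) p) = vx 1 then
        (wj j0 ε j * co j0 ε (gg * th h) p) • UU j0 ε d T (ti (ed (gg * th h) p)) q else 0 := by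
  have e : (Sp l fun p q => if vx (ed (gg * th h) p) = vx 1 then
        (wj j0 ε j * co j0 ε (gg * th h) p) • UU j0 ε d T (ti (ed (gg * th h) p)) q else 0) =
      wj j0 ε j • ((Sp l fun p q => if vx (ed (gg * th h) p) = vx 1 then
        co j0 ε (gg * th h) p • Phi j0 ε T (ed (gg * th h) p) q else 0) +
        if vx (ed (gg * th h) l) = vx 1 then
          co j0 ε (gg * th h) l • d (ti (ed (gg * th h) l)) else 0) := by
    have := Sp_last (l := l) (F := fun p q => if vx (ed (gg * th h) p) = vx 1 then
      co j0 ε (gg * th h) p • (if q = [] then d (ti (ed (gg * th h) p)) else 0) else 0)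
      fun p q hq => by simp [hq]
    simp only [if_true] at this
    rw [← this, ← Sp_add, smul_Sp]
    refine Sp_congr fun p q _ => ?_
    split_ifs with h1 h2 <;> simp [UU, *, th_ti, mul_smul]
  rw [e, zl, LinearMap.add_apply, ells_U hT hω hd]
  conv_rhs => rw [UU, map_one, Phi_cons, hT.2, src]
  conv_lhs => arg 2; rw [UU, map_add (mp (lam gg)), lam_Phi]
  simp only [reduceCtorEq, if_false, apply_ite (mp (lam gg)), map_zero, smul_add, smul_sub]
  abel

lemma lam_U (k h : HH R) (l : LL R J) : UU j0 ε d T (k * h) l = mp (lam (th k)) (UU j0 ε d T h l)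
    + if l = [] then d (k * h) - mp (lam (th k)) (d h) else 0 := by
  simp only [UU, map_add, lam_Phi, map_mul]
  split_ifs <;> simp

/-- embedding of the index set -/
def mkW : GG R → LL R J → W (GG R) J
  | a, [] => one a
  | a, x :: l => cons a x.1 (mkW (th x.2) l)

lemma hd_mkW (a : GG R) (l : LL R J) : W.hd (mkW a l) = a := by cases l <;> rfl

lemma lam_mkW (g a : GG R) (l : LL R J) : lam g (mkW a l) = mkW (g * a) l := by cases l <;> rfl

lemma mkW_inj {a b : GG R} {l l' : LL R J} (h : mkW a l = mkW b l') : a = b ∧ l = l' := by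
  induction l generalizing a b l' with
  | nil => cases l' <;> simp_all [mkW]
  | cons x l ih =>
    cases l' with
    | nil => simp [mkW] at h
    | cons y l' =>
      simp only [mkW, cons.injEq] at h
      obtain ⟨h1, h2⟩ := ih h.2.2
      exact ⟨h.1, by rw [h2, Prod.ext h.2.1 (th_inj h1)]⟩

lemma mp_lam_apply (b : GG R) (v : AA R J) (w : W (GG R) J) :
    mp (lam b) v w = v (lam b⁻¹ w) := by
  have := Finsupp.mapDomain_apply (lam_inj b) v (lam b⁻¹ w)
  simpa using this

lemma psi_apply (hT : IsT j0 ε 0 (bv (one 1)) T) (h h' : HH R) (l l' : LL R J) :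
    UU j0 ε 0 T h l (mkW (th h') l') = if h = h' ∧ l = l' then 1 else 0 := by
  have h0 : ∀ x q, T (x :: q) = mp (cons 1 x.1) (UU j0 ε 0 T x.2 q) := fun x q => by
    rw [hT.2]; simp [src]
  have h1 : ∀ q a l', a ≠ 1 → T q (mkW a l') = 0 := by
    intro q a l' ha
    cases q with
    | nil => rw [hT.1]; cases l' <;> simp [mkW, ha]
    | cons x q => rw [h0]; cases l' <;> simp only [mkW, mp_cons_one, mp_cons_cons] <;> simp [ha.symm]
  induction l generalizing h h' l' with
  | nil =>
    simp only [UU, Phi, Sp, co_nil, ed_nil, hT.1, mp_bv, one_smul, lam_o, mul_one]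
    cases l' <;> simp [mkW, Finsupp.single_apply, th_inj.eq_iff]
  | cons x l ih =>
    rw [UU, if_neg (by simp), add_zero, Phi,
      Sp_map (fun v : AA R J => v (mkW (th h') l')) fun _ _ => rfl, Sp_first]
    · rw [co_nil, one_smul, ed_nil, h0, lam_cons]
      cases l' with
      | nil => simp only [mkW, mp_cons_one]; simp
      | cons y l' =>
        simp only [mkW, mp_cons_cons, ih, th_inj.eq_iff, List.cons.injEq, Prod.ext_iff]
        split_ifs <;> simp_all
    · intro p q _ hp
      rw [Finsupp.smul_apply, mp_lam_apply, lam_mkW]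
      by_cases e : (ed (th h) p)⁻¹ * th h' = 1
      · rw [co_zero j0 ε hp (by rw [inv_mul_eq_one.1 e, vx_th1, vx_th1]), zero_smul]
      · rw [h1 _ _ _ e, smul_zero]

end

end Vale.Agent.P087
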